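import Vale.Agent.P039.Disk2

namespace Vale.Agent.P039

universe u

open Finset

namespace PMap

variable {E X V : Type u} [Fintype E] [Fintype X] [Fintype V] [DecidableEq X] (M : PMap E X V)

open Classical in
omit [Fintype V] [DecidableEq X] in
theorem off_count (Mt : Set E) (h : ∀ x, ∃! i, M.ed x i ∈ Mt) {A : Type*} [CommRing A]
    (φ : X → A) : ∑ e, (φ (M.bl e) - φ (M.wh e)) * (if e ∈ Mt then 0 else 1) =
      2 * (∑ x with M.col x = true, φ x - ∑ x with M.col x = false, φ x) := by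
  have h1 : ∀ x, ∑ i, (if M.ed x i ∈ Mt then (0 : A) else 1) = 2 := by
    intro x
    obtain ⟨j, h2, h3⟩ := h x
    have h4 : ∀ i, M.ed x i ∈ Mt ↔ i = j := fun i => ⟨h3 i, fun e => e ▸ h2⟩
    simp only [h4, Fin.sum_univ_three]
    fin_cases j <;> simp [one_add_one_eq_two]
  simp only [sub_mul, Finset.sum_sub_distrib]
  rw [M.sum_mul_bl φ fun e => if e ∈ Mt then 0 else 1,
    M.sum_mul_wh φ fun e => if e ∈ Mt then 0 else 1]
  simp only [h1, ← Finset.sum_mul]
  ring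

theorem exists_colour {T : Type u} [Fintype T] {c : T → Fin 3 → V} {R : Set V} {s g : T → Fin 3}
    (hs : State c R s) (hac : ∀ A, ¬ Atom c s g A) (v₀ : V) :
    ∃ cc : V → ZMod 2, (∀ v ∈ R, (cc v = 1 ↔ v = v₀)) ∧
      ∀ t, cc (c t (s t)) + cc (c t (g t)) = 1 := by
  classical
  let ex : (T → ZMod 2) → V → ZMod 2 := fun u v =>
    if h : ∃ t, c t (s t) = v then u h.choose else if v = v₀ then 1 else 0
  have h1 : ∀ u t, ex u (c t (s t)) = u t := by
    intro u t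
    have h : ∃ t', c t' (s t') = c t (s t) := ⟨t, rfl⟩
    simp only [ex, dif_pos h]
    rw [hs.1 h.choose_spec]
  have h2 : Function.Injective fun (u : T → ZMod 2) t => u t + ex u (c t (g t)) := by
    intro u u' h
    by_contra hc
    obtain ⟨t₀, h0⟩ := Function.ne_iff.1 hc
    obtain ⟨A, -, hA⟩ := exists_atom (g := g) hs.1 (univ.filter fun t => u t ≠ u' t)
      ⟨t₀, by simpa using h0⟩ (by
        intro t ht
        have h3 : ex u (c t (g t)) ≠ ex u' (c t (g t)) := fun e => by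
          have h4 := congrFun h t
          simp only [e] at h4
          exact (mem_filter.1 ht).2 (add_right_cancel h4)
        have h4 : ∃ t', c t' (s t') = c t (g t) := by
          by_contra h5
          exact h3 (by simp only [ex, dif_neg h5])
        obtain ⟨t', h5⟩ := h4
        rw [← h5, h1, h1] at h3
        exact ⟨t', by simpa using h3, h5.symm⟩)
    exact hac A hA
  obtain ⟨u, hu⟩ := Finite.surjective_of_injective h2 fun _ => 1
  refine ⟨ex u, fun v hv => ?_, fun t => by rw [h1]; exact congrFun hu t⟩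
  simp only [ex, dif_neg fun h => (hs.2 v).2 h hv]
  split_ifs with h <;> simp [h]

theorem ham_of_acyclic (e₀ : E) (r s : M.Inner (M.bl e₀) → Fin 3)
    (hr : State (M.icor (M.bl e₀)) (M.roots (M.bl e₀)) r)
    (hs : State (M.icor (M.bl e₀)) (M.roots (M.bl e₀)) s) (hrs : ∀ t, r t ≠ s t)
    (hac : ∀ A, ¬ Atom (M.icor (M.bl e₀)) s (fun t => third (r t) (s t)) A) :
    ∃ Mt : Set E, e₀ ∈ Mt ∧ M.Ham Mt := by
  classical
  obtain ⟨i₀, hi₀⟩ := M.exists_ed_bl e₀
  obtain ⟨cc, c1, c2⟩ := exists_colour hs hac (M.cor (M.bl e₀) i₀)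
  have c3 : ∀ i, cc (M.cor (M.bl e₀) i) = 1 ↔ i = i₀ := fun i =>
    (c1 _ ⟨i, rfl⟩).trans (M.cor_inj _).eq_iff
  obtain ⟨Mt, hMt⟩ : ∃ Mt : Set E, ∀ e, e ∈ Mt ↔ cc (M.hd e) = cc (M.tl e) :=
    ⟨{e | cc (M.hd e) = cc (M.tl e)}, fun _ => Iff.rfl⟩
  have hm : ∀ x i, M.ed x i ∈ Mt ↔ cc (M.cor x (i + 2)) = cc (M.cor x (i + 1)) := fun x i => by
    rw [hMt, M.hd_ed, M.tl_ed]
  have h0 : ∀ i, M.ed (M.bl e₀) i ∈ Mt ↔ i = i₀ := by
    have : ∀ (a : Fin 3 → ZMod 2) (j : Fin 3), (∀ i, a i = 1 ↔ i = j) →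
        ∀ i, a (i + 2) = a (i + 1) ↔ i = j := by decide
    intro i
    rw [hm]
    exact this (fun i => cc (M.cor (M.bl e₀) i)) i₀ c3 i
  obtain ⟨p, hp, hp'⟩ : ∃ p : M.Inner (M.bl e₀) → Fin 3, (∀ t, p t ≠ r t) ∧
      ∀ t i, M.ed t.1 i ∈ Mt ↔ i = third (p t) (r t) := by
    have h1 : ∀ (a : Fin 3 → ZMod 2) (r s : Fin 3), r ≠ s → a s + a (third r s) = 1 →
        ∃ p, p ≠ r ∧ ∀ i, a (i + 2) = a (i + 1) ↔ i = third p r := by decide
    choose p h2 h3 using fun t : M.Inner (M.bl e₀) =>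
      h1 (fun i => cc (M.cor t.1 i)) (r t) (s t) (hrs t) (c2 t)
    exact ⟨p, h2, fun t i => (hm _ _).trans (h3 t i)⟩
  have hpm : ∀ x, ∃! i, M.ed x i ∈ Mt := by
    have h1 : ∀ x, (∃! i, M.ed x i ∈ Mt) ↔ 1 = ∑ i, if M.ed x i ∈ Mt then 1 else 0 := by
      have : ∀ a : Fin 3 → ZMod 2, (∃ i, a (i + 2) = a (i + 1) ∧
          ∀ j, a (j + 2) = a (j + 1) → j = i) ↔
          1 = ∑ i, if a (i + 2) = a (i + 1) then 1 else 0 := by decide
      intro x
      simp only [hm]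
      exact this fun i => cc (M.cor x i)
    have h2 : ∀ x, 1 ≤ ∑ i, if M.ed x i ∈ Mt then 1 else 0 := by
      have : ∀ a : Fin 3 → ZMod 2, 1 ≤ ∑ i, if a (i + 2) = a (i + 1) then 1 else 0 := by decide
      intro x
      simp only [hm]
      exact this fun i => cc (M.cor x i)
    have h3 : ∀ x, M.col x = true → ∃! i, M.ed x i ∈ Mt := by
      intro x hx
      by_cases e : x = M.bl e₀
      · exact ⟨i₀, e ▸ (h0 _).2 rfl, fun i hi => (h0 i).1 (e ▸ hi)⟩
      · exact ⟨_, (hp' ⟨x, hx, e⟩ _).2 rfl, fun i hi => (hp' ⟨x, hx, e⟩ i).1 hi⟩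
    have h4 := M.sum_bl fun e => if e ∈ Mt then 1 else 0
    rw [M.sum_wh, ← Finset.sum_congr rfl fun x hx => (h1 x).1 (h3 x (mem_filter.1 hx).2),
      ← card_eq_sum_ones, ← M.card_wh, card_eq_sum_ones] at h4
    intro x
    cases hx : M.col x
    · exact (h1 x).2 ((Finset.sum_eq_sum_iff_of_le fun x _ => h2 x).1 h4.symm x (by simp [hx]))
    · exact h3 x hx
  refine ⟨Mt, hi₀ ▸ (h0 _).2 rfl, hpm, fun S hS x y hx => ?_⟩
  have hcut : ∀ e, ¬ (M.bl e ∈ S ↔ M.wh e ∈ S) → e ≠ e₀ →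
      ∃ t : M.Inner (M.bl e₀), M.ed t.1 (third (p t) (r t)) = e := by
    intro e h1 h2
    have h3 : e ∈ Mt := by_contra fun h => h1 (hS e h)
    obtain ⟨i, hi⟩ := M.exists_ed_bl e
    have h4 : M.bl e ≠ M.bl e₀ := fun h => by
      rw [h] at hi
      exact h2 (hi.symm.trans ((h0 i).1 (hi.symm ▸ h3) ▸ hi₀))
    exact ⟨⟨_, M.col_bl e, h4⟩, (hp' ⟨_, M.col_bl e, h4⟩ i).1 (hi.symm ▸ h3) ▸ hi⟩
  have hends : ∀ (t : M.Inner (M.bl e₀)) (v : V),
      (if M.hd (M.ed t.1 (third (p t) (r t))) = v then (1 : ZMod 2) else 0) -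
        (if M.tl (M.ed t.1 (third (p t) (r t))) = v then 1 else 0) =
      (if M.cor t.1 (p t) = v then 1 else 0) + if M.cor t.1 (r t) = v then 1 else 0 := by
    have : ∀ (a : Fin 3 → ZMod 2) (p r : Fin 3), p ≠ r →
        a (third p r + 2) - a (third p r + 1) = a p + a r := by decide
    intro t v
    rw [M.hd_ed, M.tl_ed]
    exact this (fun i => if M.cor t.1 i = v then 1 else 0) _ _ (hp t)
  by_contra hy
  obtain ⟨A, hA, hA'⟩ := exists_atom_of_closed (c := M.icor (M.bl e₀)) (s := r) (g := p)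
    (univ.filter fun t => ¬ (M.bl (M.ed t.1 (third (p t) (r t))) ∈ S ↔
      M.wh (M.ed t.1 (third (p t) (r t))) ∈ S)) (by
      by_contra hc
      refine hy (M.conn3 S e₀ e₀ (fun e h1 _ => ?_) x y hx)
      by_contra h2
      obtain ⟨t, rfl⟩ := hcut e h2 h1
      exact hc ⟨t, mem_filter.2 ⟨mem_univ _, h2⟩⟩) (closed_of_sub hr.1 (by
      intro t ht
      by_contra hc
      have h1 := M.bdry_closed (fun x => if x ∈ S then (1 : ZMod 2) else 0)
        fun v => if v = M.cor t.1 (r t) then 1 else 0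
      rw [Finset.sum_eq_single (M.ed t.1 (third (p t) (r t))) _ (by simp), hends,
        if_neg ((M.cor_inj _).ne (hp t)), if_pos rfl] at h1
      · have h2 := (mem_filter.1 ht).2
        revert h1
        split_ifs <;> first | tauto | decide
      · intro e _ h2
        by_cases h3 : M.bl e ∈ S ↔ M.wh e ∈ S
        · simp [h3]
        by_cases h4 : e = e₀
        · have h5 : ∀ i, M.cor (M.bl e₀) i ≠ M.cor t.1 (r t) := fun i h =>
            (hr.2 _).2 ⟨t, rfl⟩ ⟨i, h⟩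
          rw [h4.trans hi₀.symm, M.hd_ed, M.tl_ed, if_neg (h5 _), if_neg (h5 _), sub_self, mul_zero]
        · obtain ⟨t', rfl⟩ := hcut e h3 h4
          have h5 : M.cor t'.1 (p t') ≠ M.cor t.1 (r t) := fun h =>
            hc ⟨t', mem_filter.2 ⟨mem_univ _, h3⟩, h.symm⟩
          have h6 : M.cor t'.1 (r t') ≠ M.cor t.1 (r t) := fun h => h2 (by rw [hr.1 h])
          rw [hends, if_neg h5, if_neg h6, add_zero, mul_zero]))
  obtain ⟨S', -, -, -, h1, -, h2⟩ := M.disk _ (M.col_bl e₀) r p A hr hp hA'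
  have h3 := M.off_count Mt hpm fun x => if x ∈ S' then (1 : ℤ) else 0
  rw [Finset.sum_eq_zero fun e _ => by
    by_cases h4 : M.bl e ∈ S' ↔ M.wh e ∈ S'
    · simp [h4]
    · obtain ⟨t, -, rfl⟩ := (h1 e).1 h4
      simp [(hp' t _).2 rfl]] at h3
  have h4 : ∀ b, ∑ x with M.col x = b, (if x ∈ S' then (1 : ℤ) else 0) =
      (S'.filter fun x => M.col x = b).card := by
    intro b
    rw [Finset.sum_boole]
    congr 2
    ext x
    simp [and_comm]
  rw [h4, h4, h2] at h3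
  push_cast at h3
  omega

end PMap

end Vale.Agent.P039
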