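import Vale.Agent.P039.Map

namespace Vale.Agent.P039

universe u

open Finset

theorem z2_cases (a : ZMod 2) : a = 0 ∨ a = 1 := by revert a; decide

theorem sum_inc {E X : Type u} [Fintype E] [DecidableEq X] (bl wh : E → X) (ed : X → Fin 3 → E)
    (ed_inj : ∀ x, Function.Injective (ed x))
    (ed_iff : ∀ x e, (bl e = x ∨ wh e = x) ↔ ∃ i, ed x i = e)
    {A : Type*} [AddCommMonoid A] (x : X) (h : E → A) :
    ∑ e, (if bl e = x ∨ wh e = x then h e else 0) = ∑ i, h (ed x i) := by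
  classical
  rw [← Finset.sum_filter]
  symm
  refine Finset.sum_bij (fun i _ => ed x i) ?_ ?_ ?_ (fun _ _ => rfl)
  · intro i _
    simp only [mem_filter, mem_univ, true_and]
    exact (ed_iff x _).2 ⟨i, rfl⟩
  · intro i _ j _ h
    exact ed_inj x h
  · intro e he
    obtain ⟨i, hi⟩ := (ed_iff x e).1 (mem_filter.1 he).2
    exact ⟨i, mem_univ _, hi⟩

theorem sum_ends {E X : Type u} [Fintype E] [Fintype X] (bl wh : E → X) (ed : X → Fin 3 → E)
    (hbw : ∀ e, bl e ≠ wh e) (ed_inj : ∀ x, Function.Injective (ed x))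
    (ed_iff : ∀ x e, (bl e = x ∨ wh e = x) ↔ ∃ i, ed x i = e)
    {A : Type*} [AddCommMonoid A] (g : X → E → A) :
    ∑ e, (g (bl e) e + g (wh e) e) = ∑ x, ∑ i, g x (ed x i) := by
  classical
  simp_rw [← sum_inc bl wh ed ed_inj ed_iff]
  rw [Finset.sum_comm]
  refine Finset.sum_congr rfl fun e _ => ?_
  have : ∀ x, (if bl e = x ∨ wh e = x then g x e else 0) =
      (if bl e = x then g x e else 0) + (if wh e = x then g x e else 0) := by
    intro x
    by_cases h1 : bl e = x
    · have h2 : ¬ wh e = x := fun h2 => hbw e (h1.trans h2.symm)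
      simp [h1, h2]
    · simp [h1]
  simp_rw [this]
  simp [Finset.sum_add_distrib]

theorem local_alg (a : Fin 3 → Fin 3 → ZMod 2) (w : Fin 3 → ZMod 2)
    (ha : ∀ i j, i ≠ j → a i j + a j i = 1) :
    ∃ o : Fin 3 → ZMod 2, ∀ c : Fin 3 → ZMod 2, ∑ i, c i = 0 → ∀ i,
      (∑ j, if j = i then 0 else c j * a j i) + w i * c i + o i * c i =
        (∑ j, if j = i + 1 then 0 else c j * a j (i + 1)) + w (i + 1) * c (i + 1) +
          (o (i + 1) + 1) * c (i + 1) := by
  refine ⟨fun i => a i (i + 1) + w i + a (i + 2) i + a (i + 2) (i + 1), fun c hc i => ?_⟩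
  have h01 := ha 0 1 (by decide)
  have h02 := ha 0 2 (by decide)
  have h12 := ha 1 2 (by decide)
  rw [Fin.sum_univ_three] at hc
  have key : ∀ a01 a10 a02 a20 a12 a21 w0 w1 c0 c1 c2 : ZMod 2, a01 + a10 = 1 → a02 + a20 = 1 →
      a12 + a21 = 1 → c0 + c1 + c2 = 0 →
      c1 * a10 + c2 * a20 + w0 * c0 + (a01 + w0 + a20 + a21) * c0 =
        c0 * a01 + c2 * a21 + w1 * c1 + (a12 + w1 + a01 + a02 + 1) * c1 := by
    intro a01 a10 a02 a20 a12 a21 w0 w1 c0 c1 c2 h1 h2 h3 h4
    have h5 : (2 : ZMod 2) = 0 := rfl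
    have e1 : a10 = 1 - a01 := by linear_combination h1
    have e2 : a20 = 1 - a02 := by linear_combination h2
    have e3 : a21 = 1 - a12 := by linear_combination h3
    have e4 : c2 = -c0 - c1 := by linear_combination h4
    subst e1 e2 e3 e4
    linear_combination (c0 * w0 + c0 - c0 * a12 - c1 * a01 - c1 * a12 - c1 * w1) * h5
  have e1 : (1 + 2 : Fin 3) = 0 := rfl
  have e2 : (2 + 2 : Fin 3) = 1 := rfl
  have e3 : (1 + 1 : Fin 3) = 2 := rfl
  have e4 : (2 + 1 : Fin 3) = 0 := rfl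
  fin_cases i
  · have := key _ _ _ _ _ _ (w 0) (w 1) _ _ _ h01 h02 h12 hc
    simp [Fin.sum_univ_three, e1, e3]
    linear_combination this
  · have := key _ _ _ _ _ _ (w 1) (w 2) (c 1) (c 2) (c 0) h12 (ha 1 0 (by decide))
      (ha 2 0 (by decide)) (by linear_combination hc)
    simp [Fin.sum_univ_three, e1, e2, e3, e4]
    linear_combination this
  · have := key _ _ _ _ _ _ (w 2) (w 0) (c 2) (c 0) (c 1) (ha 2 0 (by decide))
      (ha 2 1 (by decide)) h01 (by linear_combination hc)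
    simp [Fin.sum_univ_three, e2, e4]
    linear_combination this

theorem cut_of_orth {E X : Type u} [Fintype E] [Fintype X] (bl wh : E → X) (ed : X → Fin 3 → E)
    (hbw : ∀ e, bl e ≠ wh e) (ed_inj : ∀ x, Function.Injective (ed x))
    (ed_iff : ∀ x e, (bl e = x ∨ wh e = x) ↔ ∃ i, ed x i = e) (α : E → ZMod 2)
    (h : ∀ C : E → ZMod 2, (∀ x, ∑ i, C (ed x i) = 0) → ∑ e, α e * C e = 0) :
    ∃ φ : X → ZMod 2, ∀ e, α e = φ (bl e) + φ (wh e) := by
  classical
  let L : X → (E → ZMod 2) →ₗ[ZMod 2] ZMod 2 := fun x => ∑ i, LinearMap.proj (ed x i)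
  let Kf : (E → ZMod 2) →ₗ[ZMod 2] ZMod 2 := ∑ e, α e • LinearMap.proj e
  have h1 : Kf ∈ Submodule.span (ZMod 2) (Set.range L) := by
    apply mem_span_of_iInf_ker_le_ker
    intro C hC
    simp only [Submodule.mem_iInf, LinearMap.mem_ker, L, LinearMap.coe_sum, Finset.sum_apply,
      LinearMap.proj_apply] at hC
    simp only [LinearMap.mem_ker, Kf, LinearMap.coe_sum, Finset.sum_apply, LinearMap.smul_apply,
      LinearMap.proj_apply, smul_eq_mul]
    exact h C hC
  obtain ⟨φ, hφ⟩ := (Submodule.mem_span_range_iff_exists_fun _).1 h1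
  refine ⟨φ, fun e => ?_⟩
  have h2 := congrArg (fun T => T (Pi.single e 1)) hφ
  simp only [L, Kf, LinearMap.coe_sum, Finset.sum_apply, LinearMap.smul_apply,
    LinearMap.proj_apply, smul_eq_mul, Finset.mul_sum] at h2
  rw [← sum_ends bl wh ed hbw ed_inj ed_iff
    (fun x f => φ x * (Pi.single e (1 : ZMod 2) : E → ZMod 2) f)] at h2
  simp only [Finset.sum_add_distrib, Pi.single_apply, mul_ite, mul_one, mul_zero,
    Finset.sum_ite_eq', mem_univ, if_true] at h2
  exact h2.symm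

/-- From the winding parities of a plane drawing to the face structure. -/
theorem exists_pmap {E X : Type u} [Fintype E] [Fintype X] (bl wh : E → X) (col : X → Bool)
    (ed : X → Fin 3 → E) (col_bl : ∀ e, col (bl e) = true) (col_wh : ∀ e, col (wh e) = false)
    (ed_inj : ∀ x, Function.Injective (ed x))
    (ed_iff : ∀ x e, (bl e = x ∨ wh e = x) ↔ ∃ i, ed x i = e)
    (conn3 : ∀ (S : Set X) (e₁ e₂ : E), (∀ e, e ≠ e₁ → e ≠ e₂ → (bl e ∈ S ↔ wh e ∈ S)) →
      ∀ x y, x ∈ S → y ∈ S)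
    (K : E → E → ZMod 2) (kk : X → E → E → ZMod 2) (Rr : X → E → ZMod 2)
    (ha : ∀ x e f, e ≠ f → (bl e = x ∨ wh e = x) → (bl f = x ∨ wh f = x) →
      kk x e f + kk x f e = 1)
    (hb : ∀ x f, (bl f = x ∨ wh f = x) → ∃ j : X → ZMod 2, ∀ e, e ≠ f →
      ((bl e = x ∨ wh e = x) → K e f = kk x e f + j (bl e) + j (wh e)) ∧
      (¬ (bl e = x ∨ wh e = x) → K e f = Rr x e + j (bl e) + j (wh e))) :
    ∃ (V : Type u) (_ : Fintype V) (M : PMap E X V), M.bl = bl ∧ M.wh = wh := by
  classical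
  have hbw : ∀ e, bl e ≠ wh e := by
    intro e h
    have h1 := col_bl e
    rw [h, col_wh] at h1
    exact absurd h1 (by simp)
  have h2 : (2 : ZMod 2) = 0 := rfl
  have inc : ∀ x i, bl (ed x i) = x ∨ wh (ed x i) = x := fun x i => (ed_iff x _).2 ⟨i, rfl⟩
  obtain ⟨Zc, hZc⟩ : ∃ Zc : Set (E → ZMod 2), Zc = {C | ∀ x, ∑ i, C (ed x i) = 0} := ⟨_, rfl⟩
  obtain ⟨F, hF⟩ : ∃ F : E → ZMod 2 → Zc → ZMod 2, F = fun f w C =>
      (∑ e, if e = f then 0 else C.1 e * K e f) + w * C.1 f := ⟨_, rfl⟩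
  have hZ : ∀ C : Zc, ∀ x, ∑ i, C.1 (ed x i) = 0 := fun C => (hZc.le C.2 :)
  have loc : ∀ x i, ∃ w : ZMod 2, ∀ C : Zc, (∑ e, if e = ed x i then 0 else C.1 e * K e (ed x i)) =
      (∑ e, if bl e = x ∨ wh e = x then 0 else C.1 e * Rr x e) +
        ((∑ j, if j = i then 0 else C.1 (ed x j) * kk x (ed x j) (ed x i)) +
          w * C.1 (ed x i)) := by
    intro x i
    obtain ⟨j, hj⟩ := hb x (ed x i) (inc x i)
    refine ⟨j (bl (ed x i)) + j (wh (ed x i)), fun C => ?_⟩
    have e0 : ∑ e, (j (bl e) * C.1 e + j (wh e) * C.1 e) = 0 := by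
      rw [sum_ends bl wh ed hbw ed_inj ed_iff (fun y e => j y * C.1 e)]
      simp [← Finset.mul_sum, hZ C]
    have e1 : (∑ j, if j = i then 0 else C.1 (ed x j) * kk x (ed x j) (ed x i)) =
        ∑ e, if bl e = x ∨ wh e = x then
          (if e = ed x i then 0 else C.1 e * kk x e (ed x i)) else 0 := by
      rw [sum_inc bl wh ed ed_inj ed_iff]
      simp only [(ed_inj x).eq_iff]
    have e2 : (j (bl (ed x i)) + j (wh (ed x i))) * C.1 (ed x i) =
        ∑ e, if e = ed x i then (j (bl e) + j (wh e)) * C.1 e else 0 := by simp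
    refine Eq.trans ?_ ((congrArg _ e0).trans (add_zero _))
    rw [e1, e2]
    simp only [← Finset.sum_add_distrib]
    refine Finset.sum_congr rfl fun e _ => ?_
    by_cases h : e = ed x i
    · have h' : bl e = x ∨ wh e = x := h ▸ inc x i
      rw [if_pos h, if_pos h', if_pos h', if_pos h, if_pos h]
      linear_combination (-(j (bl e) + j (wh e)) * C.1 e) * h2
    · by_cases h' : bl e = x ∨ wh e = x
      · rw [if_neg h, if_pos h', if_pos h', if_neg h, if_neg h, (hj e h).1 h']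
        ring
      · rw [if_neg h, if_neg h', if_neg h', if_neg h, (hj e h).2 h']
        ring
  have loc2 : ∀ x, ∃ o : Fin 3 → ZMod 2, ∀ i,
      F (ed x i) (o i) = F (ed x (i + 1)) (o (i + 1) + 1) := by
    intro x
    choose w hw using loc x
    obtain ⟨o, ho⟩ := local_alg (fun i j => kk x (ed x i) (ed x j)) w
      (fun i j hij => ha x _ _ (fun h => hij (ed_inj x h)) (inc x i) (inc x j))
    refine ⟨o, fun i => ?_⟩
    funext C
    simp only [hF, hw]
    have := ho (fun i => C.1 (ed x i)) (hZ C x) i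
    linear_combination this
  choose o ho using loc2
  let V : Type u := Set.range (fun p : E × ZMod 2 => F p.1 p.2)
  have : Finite V := (Set.finite_range _).to_subtype
  obtain ⟨Fv, hFv⟩ : ∃ Fv : E → ZMod 2 → V, ∀ e w, (Fv e w).1 = F e w :=
    ⟨fun e w => ⟨F e w, (e, w), rfl⟩, fun _ _ => rfl⟩
  have ho' : ∀ x i, Fv (ed x i) (o x i) = Fv (ed x (i + 1)) (o x (i + 1) + 1) :=
    fun x i => Subtype.ext (by rw [hFv, hFv, ho])
  have ex0 : ∀ α : E → ZMod 2, (∀ f : V → ZMod 2, ∑ e, α e * (f (Fv e 0) + f (Fv e 1)) = 0) →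
      ∃ φ : X → ZMod 2, ∀ e, α e = φ (bl e) + φ (wh e) := by
    intro α hα
    refine cut_of_orth bl wh ed hbw ed_inj ed_iff α fun C hC => ?_
    have := hα (fun v => v.1 ⟨C, by rw [hZc]; exact hC⟩)
    rw [← this]
    refine Finset.sum_congr rfl fun e _ => ?_
    simp only [hFv, hF]
    linear_combination (-α e * ∑ e', if e' = e then 0 else C e' * K e' e) * h2
  obtain ⟨oo, hoo⟩ : ∃ oo : X → E → ZMod 2, ∀ x i, oo x (ed x i) = o x i := by
    refine ⟨fun x e => if h : ∃ i, ed x i = e then o x h.choose else 0, fun x i => ?_⟩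
    have h : ∃ j, ed x j = ed x i := ⟨i, rfl⟩
    simp only [dif_pos h]
    rw [ed_inj x h.choose_spec]
  have sw : ∀ {A : Type} [AddCommMonoid A] (f : V → A) (e : E) (w : ZMod 2),
      f (Fv e w) + f (Fv e (w + 1)) = f (Fv e 0) + f (Fv e 1) := by
    intro A _ f e w
    rcases z2_cases w with rfl | rfl
    · simp
    · have : (1 + 1 : ZMod 2) = 0 := rfl
      rw [this, add_comm]
  obtain ⟨κ, hκ⟩ := ex0 (fun e => oo (bl e) e + oo (wh e) e) (by
    intro f
    obtain ⟨g, hg⟩ : ∃ g : V → ℤ, ∀ v, (g v : ZMod 2) = f v :=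
      ⟨fun v => ((f v).val : ℤ), fun v => by simp⟩
    have t0 : ∀ x, ∑ i, (g (Fv (ed x i) (oo x (ed x i))) - g (Fv (ed x i) (oo x (ed x i) + 1)))
        = 0 := by
      intro x
      simp only [hoo, Fin.sum_univ_three]
      have a0 := ho' x 0
      have a1 := ho' x 1
      have a2 := ho' x 2
      have e3 : (1 + 1 : Fin 3) = 2 := rfl
      have e4 : (2 + 1 : Fin 3) = 0 := rfl
      rw [zero_add] at a0
      rw [e3] at a1
      rw [e4] at a2
      rw [a0, a1, a2]
      ring
    have t1 := sum_ends bl wh ed hbw ed_inj ed_iff (fun x e =>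
      (if col x = true then 1 else -1) * (g (Fv e (oo x e)) - g (Fv e (oo x e + 1))))
    simp only [← Finset.mul_sum, t0, mul_zero, sum_const_zero, col_bl, col_wh, if_true,
      Bool.false_eq_true, if_false] at t1
    have t2 : ∑ e, (g (Fv e (oo (bl e) e)) - g (Fv e (oo (wh e) e))) = 0 := by
      have : 2 * ∑ e, (g (Fv e (oo (bl e) e)) - g (Fv e (oo (wh e) e))) = 0 := by
        rw [← t1, Finset.mul_sum]
        refine Finset.sum_congr rfl fun e _ => ?_
        linear_combination sw g e (oo (bl e) e) - sw g e (oo (wh e) e)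
      omega
    have t3 := congrArg (Int.cast : ℤ → ZMod 2) t2
    push_cast at t3
    simp only [hg] at t3
    refine Eq.trans (Finset.sum_congr rfl fun e _ => ?_) t3
    have t4 : ∀ w, f (Fv e w) = f (Fv e 0) + w * (f (Fv e 0) + f (Fv e 1)) := by
      intro w
      rcases z2_cases w with rfl | rfl
      · simp
      · linear_combination (-f (Fv e 0)) * h2
    rw [t4 (oo (bl e) e), t4 (oo (wh e) e)]
    linear_combination (oo (wh e) e * (f (Fv e 0) + f (Fv e 1))) * h2)
  obtain ⟨oe, hoe⟩ : ∃ oe : E → ZMod 2, ∀ x i, oe (ed x i) = o x i + κ x := by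
    refine ⟨fun e => oo (bl e) e + κ (bl e), fun x i => ?_⟩
    rcases inc x i with h | h
    · simp only [h, hoo]
    · have := hκ (ed x i)
      simp only [h, hoo] at this
      linear_combination this + (κ (bl (ed x i)) - o x i) * h2
  obtain ⟨ed', hed'⟩ : ∃ ed' : X → Fin 3 → E,
      ed' = fun x i => if κ x = 0 then ed x i else ed x (-i) := ⟨_, rfl⟩
  have hrot : ∀ x i, Fv (ed' x i) (oe (ed' x i)) = Fv (ed' x (i + 1)) (oe (ed' x (i + 1)) + 1) := by
    intro x i
    rcases z2_cases (κ x) with h | h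
    · simp only [hed', h, if_true, hoe, add_zero]
      exact ho' x i
    · have h' : ¬ κ x = 0 := by rw [h]; decide
      simp only [hed', h', if_false, hoe]
      rw [h]
      have a1 : -(i + 1) + 1 = -i := by revert i; decide
      have a2 : ∀ w : ZMod 2, w + 1 + 1 = w := by decide
      rw [a2, ho' x (-(i + 1)), a1]
  have hiff : ∀ x e, (bl e = x ∨ wh e = x) ↔ ∃ i, ed' x i = e := by
    intro x e
    rw [ed_iff]
    by_cases h : κ x = 0
    · simp only [hed', h, if_true]
    · simp only [hed', h, if_false]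
      exact ⟨fun ⟨i, hi⟩ => ⟨-i, by rwa [neg_neg]⟩, fun ⟨i, hi⟩ => ⟨-i, hi⟩⟩
  refine ⟨V, Fintype.ofFinite V,
    { bl := bl, wh := wh, tl := fun e => Fv e (oe e + 1), hd := fun e => Fv e (oe e), col := col
      ed := ed', col_bl := col_bl, col_wh := col_wh, ed_inj := ?_, ed_iff := hiff, ed_rot := hrot
      surj := ?_, exact := ?_, conn3 := conn3 }, rfl, rfl⟩
  · intro x i j h
    by_cases h' : κ x = 0
    · simp only [hed', h', if_true] at h
      exact ed_inj x h
    · simp only [hed', h', if_false] at h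
      exact neg_injective (ed_inj x h)
  · rintro ⟨v, ⟨e, w⟩, rfl⟩
    have : ∀ a b : ZMod 2, a = b ∨ a = b + 1 := by decide
    rcases this w (oe e) with h | h
    · exact ⟨e, Subtype.ext (by rw [hFv, h])⟩
    · obtain ⟨i, hi⟩ := (hiff (bl e) e).1 (Or.inl rfl)
      refine ⟨ed' (bl e) (i + 2), Subtype.ext ?_⟩
      have a1 : ∀ i : Fin 3, i + 2 + 1 = i := by decide
      rw [hrot, a1, hi, hFv, h]
  · intro α hα
    refine ex0 α fun f => ?_
    exact Eq.trans (Finset.sum_congr rfl fun e _ => by rw [sw f e (oe e)]) (hα f)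

end Vale.Agent.P039
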