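import Vale.Agent.P039.Map

namespace Vale.Agent.P039

universe u

open Finset

/-- The induction hypothesis. -/
def AllHam (n : ℕ) : Prop :=
  ∀ (E X V : Type u) [Fintype E] [Fintype X] [Fintype V] (M : PMap E X V),
    Fintype.card X < n → ∀ e₀, ∃ Mt : Set E, e₀ ∈ Mt ∧ M.Ham Mt

namespace PMap

variable {E X V : Type u} [Fintype E] [Fintype X] [Fintype V] (M : PMap E X V)

/-- Contract one side `S` of a 3-cut to a single vertex and use the induction hypothesis. -/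
theorem contract_ham (IH : AllHam.{u} (Fintype.card X)) (S : Set X) (a b : X) (ha : a ∈ S)
    (hb : b ∈ S) (hab : a ≠ b) (z : X) (hz : z ∉ S) (k : Fin 3 → E) (hk : Function.Injective k)
    (hcut : ∀ e, ¬ (M.bl e ∈ S ↔ M.wh e ∈ S) ↔ ∃ i, k i = e)
    (hrot : ∀ i, M.hd (k i) = M.tl (k (i + 1)))
    (hcol : (∀ i, M.bl (k i) ∈ S) ∨ (∀ i, M.wh (k i) ∈ S))
    (e₀ : E) (he₀ : ¬ (M.bl e₀ ∈ S ∧ M.wh e₀ ∈ S)) :
    ∃ Mt : Set E, e₀ ∈ Mt ∧ (∀ x, x ∉ S → ∃! i, M.ed x i ∈ Mt) ∧ (∃! i, k i ∈ Mt) ∧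
      ∀ U : Set X, (S ⊆ U ∨ Disjoint S U) →
        (∀ e, e ∉ Mt → ¬ (M.bl e ∈ S ∧ M.wh e ∈ S) → (M.bl e ∈ U ↔ M.wh e ∈ U)) →
        ∀ x y, x ∈ U → y ∈ U := by
  classical
  obtain ⟨q, q1, q2⟩ : ∃ q : X → Option {x // x ∉ S}, (∀ x, q x = none ↔ x ∈ S) ∧
      ∀ x y, q x = some y ↔ x = y.1 := by
    refine ⟨fun x => if h : x ∈ S then none else some ⟨x, h⟩, fun x => ?_, fun x y => ?_⟩
    · by_cases h : x ∈ S <;> simp [h]
    · by_cases h : x ∈ S
      · simp only [h, dite_true, reduceCtorEq, false_iff]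
        rintro rfl
        exact y.2 h
      · simp [h, Subtype.ext_iff]
  have q3 : ∀ x (h : x ∉ S), q x = some ⟨x, h⟩ := fun x h => (q2 _ _).2 rfl
  have q4 : Function.Surjective q := by
    rintro (_ | y)
    · exact ⟨a, (q1 a).2 ha⟩
    · exact ⟨y.1, q3 _ _⟩
  have q5 : ∀ x y, q x = q y → (x ∈ S ∧ y ∈ S) ∨ x = y := by
    intro x y h
    by_cases hy : y ∈ S
    · exact Or.inl ⟨(q1 x).1 (h.trans ((q1 y).2 hy)), hy⟩
    · exact Or.inr ((q2 _ _).1 (h.trans (q3 y hy)))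
  have hk' : ∀ i, ¬ (M.bl (k i) ∈ S ∧ M.wh (k i) ∈ S) := fun i h =>
    (hcut _).2 ⟨i, rfl⟩ (iff_of_true h.1 h.2)
  have hed : ∀ x, x ∉ S → ∀ i, ¬ (M.bl (M.ed x i) ∈ S ∧ M.wh (M.ed x i) ∈ S) := by
    intro x hx i h
    rcases (M.ed_iff x _).2 ⟨i, rfl⟩ with e | e
    · exact hx (e ▸ h.1)
    · exact hx (e ▸ h.2)
  have htl : ∀ e : {e // ¬ (M.bl e ∈ S ∧ M.wh e ∈ S)},
      ∃ e' : {e // ¬ (M.bl e ∈ S ∧ M.wh e ∈ S)}, M.hd e' = M.tl e := by
    rintro ⟨e, he⟩
    obtain ⟨x, hx, i, rfl⟩ : ∃ x, x ∉ S ∧ ∃ i, M.ed x i = e := by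
      by_cases h : M.bl e ∈ S
      · exact ⟨_, fun h' => he ⟨h, h'⟩, M.exists_ed_wh e⟩
      · exact ⟨_, h, M.exists_ed_bl e⟩
    have : ∀ i : Fin 3, i + 2 + 2 = i + 1 := by decide
    exact ⟨⟨M.ed x (i + 2), hed x hx _⟩, by rw [M.hd_ed, M.tl_ed, this]⟩
  let M' : PMap {e // ¬ (M.bl e ∈ S ∧ M.wh e ∈ S)} (Option {x // x ∉ S})
      {v // ∃ e : {e // ¬ (M.bl e ∈ S ∧ M.wh e ∈ S)}, M.hd e = v} :=
    { bl := fun e => q (M.bl e)
      wh := fun e => q (M.wh e)
      tl := fun e => ⟨M.tl e, htl e⟩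
      hd := fun e => ⟨M.hd e, e, rfl⟩
      col := fun x => x.elim (decide (M.bl (k 0) ∈ S)) fun y => M.col y
      ed := fun x i => x.elim ⟨k i, hk' i⟩ fun y => ⟨M.ed y i, hed y y.2 i⟩
      col_bl := by
        rintro ⟨e, he⟩
        by_cases h : M.bl e ∈ S
        · obtain ⟨i, rfl⟩ := (hcut e).1 fun h' => he ⟨h, h'.1 h⟩
          rw [(q1 _).2 h]
          exact decide_eq_true ((hcol.resolve_right fun h' => he ⟨h, h' i⟩) 0)
        · rw [q3 _ h]
          exact M.col_bl e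
      col_wh := by
        rintro ⟨e, he⟩
        by_cases h : M.wh e ∈ S
        · obtain ⟨i, rfl⟩ := (hcut e).1 fun h' => he ⟨h'.2 h, h⟩
          rw [(q1 _).2 h]
          exact decide_eq_false fun h1 =>
            hk' 0 ⟨h1, (hcol.resolve_left fun h' => he ⟨h' i, h⟩) 0⟩
        · rw [q3 _ h]
          exact M.col_wh e
      ed_inj := by
        rintro (_ | y) i j h
        · exact hk (congrArg Subtype.val h)
        · exact M.ed_inj y (congrArg Subtype.val h)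
      ed_iff := by
        rintro (_ | y) ⟨e, he⟩
        · simp only [q1, Option.elim_none, Subtype.mk.injEq, ← hcut]
          tauto
        · simp only [q2, Option.elim_some, Subtype.mk.injEq, M.ed_iff]
      ed_rot := by
        rintro (_ | y) i
        · exact Subtype.ext (hrot i)
        · exact Subtype.ext (M.ed_rot y i)
      surj := by
        rintro ⟨v, e, rfl⟩
        exact ⟨e, rfl⟩
      exact := by
        intro α hα
        obtain ⟨φ, hφ⟩ := M.exact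
          (fun e => if h : ¬ (M.bl e ∈ S ∧ M.wh e ∈ S) then α ⟨e, h⟩ else 0) (by
            intro f
            rw [← Fintype.sum_subtype_add_sum_subtype fun e => ¬ (M.bl e ∈ S ∧ M.wh e ∈ S),
              Finset.sum_eq_zero (s := univ (α := {e // ¬¬ _})) fun e _ => by
                rw [dif_neg e.2, zero_mul], add_zero, ← hα fun v => f v]
            exact Finset.sum_congr rfl fun e _ => by rw [dif_pos e.2])
        have h1 : ∀ x ∈ S, (M.bl (k 0) ∈ S ∧ φ (M.bl (k 0)) = φ x) ∨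
            (M.wh (k 0) ∈ S ∧ φ (M.wh (k 0)) = φ x) := by
          intro x hx
          by_contra hc
          refine hz (M.conn3 {y | y ∈ S ∧ φ y = φ x} (k 1) (k 2) (fun e e1 e2 => ?_) x z
            ⟨hx, rfl⟩).1
          by_cases h : M.bl e ∈ S ↔ M.wh e ∈ S
          · refine and_congr h.symm.symm Iff.rfl |>.trans (and_congr_right fun h' => ?_)
            have h2 := hφ e
            rw [dif_neg (not_not.2 ⟨h.2 h', h'⟩)] at h2
            have h3 : ∀ a b : ZMod 2, 0 = a + b → a = b := by decide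
            rw [h3 _ _ h2]
          · obtain ⟨i, rfl⟩ := (hcut e).1 h
            have h3 : ∀ i : Fin 3, i ≠ 1 → i ≠ 2 → i = 0 := by decide
            obtain rfl := h3 i (fun h' => e1 (h' ▸ rfl)) fun h' => e2 (h' ▸ rfl)
            exact iff_of_false (fun h' => hc (Or.inl h')) fun h' => hc (Or.inr h')
        have h2 : ∀ x, (q x).elim (φ a) (fun y => φ y) = φ x := by
          intro x
          by_cases h : x ∈ S
          · rw [(q1 x).2 h]
            rcases h1 a ha with e | e <;> rcases h1 x h with e' | e'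
            · exact e.2.symm.trans e'.2
            · exact absurd ⟨e.1, e'.1⟩ (hk' 0)
            · exact absurd ⟨e'.1, e.1⟩ (hk' 0)
            · exact e.2.symm.trans e'.2
          · rw [q3 x h]
            rfl
        refine ⟨fun x => x.elim (φ a) fun y => φ y, fun e => ?_⟩
        simp only [h2]
        rw [← hφ, dif_pos e.2]
      conn3 := by
        intro T e₁ e₂ h x y hx
        obtain ⟨x, rfl⟩ := q4 x
        obtain ⟨y, rfl⟩ := q4 y
        refine M.conn3 (q ⁻¹' T) e₁ e₂ (fun e h1 h2 => ?_) x y hx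
        by_cases h3 : M.bl e ∈ S ∧ M.wh e ∈ S
        · simp only [Set.mem_preimage, (q1 _).2 h3.1, (q1 _).2 h3.2]
        · exact h ⟨e, h3⟩ (fun e' => h1 (congrArg Subtype.val e'))
            fun e' => h2 (congrArg Subtype.val e') }
  obtain ⟨Mt, m1, m2, m3⟩ := IH _ _ _ M' (Fintype.card_lt_of_surjective_not_injective q q4
    fun h => hab (h (((q1 a).2 ha).trans ((q1 b).2 hb).symm))) ⟨e₀, he₀⟩
  have hm : ∀ e (h : ¬ (M.bl e ∈ S ∧ M.wh e ∈ S)), e ∈ Subtype.val '' Mt ↔ ⟨e, h⟩ ∈ Mt :=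
    fun e h => Subtype.val_injective.mem_set_image (a := ⟨e, h⟩)
  refine ⟨Subtype.val '' Mt, (hm _ he₀).2 m1, fun x hx => ?_, ?_, fun U hU h x y hx => ?_⟩
  · exact (existsUnique_congr fun i => hm _ (hed x hx i)).2 (m2 (some ⟨x, hx⟩))
  · exact (existsUnique_congr fun i => hm _ (hk' i)).2 (m2 none)
  · have h1 : ∀ x, q x ∈ q '' U ↔ x ∈ U := by
      refine fun x => ⟨?_, fun h => ⟨x, h, rfl⟩⟩
      rintro ⟨y, h2, h3⟩
      rcases q5 _ _ h3 with h4 | rfl
      · rcases hU with hU | hU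
        · exact hU h4.2
        · exact absurd h2 (Set.disjoint_left.1 hU h4.1)
      · exact h2
    refine (h1 y).1 (m3 (q '' U) (fun e he => ?_) (q x) (q y) ((h1 x).2 hx))
    exact (h1 _).trans ((h e (fun h' => he ((hm _ e.2).1 h')) e.2).trans (h1 _).symm)

end PMap

end Vale.Agent.P039
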