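import Vale.Agent.P039.Disk2

namespace Vale.Agent.P039

universe u

open Finset

namespace PMap

variable {E X V : Type u} [Fintype E] [Fintype X] [Fintype V] [DecidableEq X] (M : PMap E X V)

omit [Fintype X] [Fintype V] [DecidableEq X] in
private theorem exists_path (b₀ x : X) : ∃ y : E → ℤ, ∀ φ : X → ℤ,
    ∑ e, (φ (M.wh e) - φ (M.bl e)) * y e = φ x - φ b₀ := by
  classical
  have hone : ∀ (e : E) (φ : X → ℤ), ∑ f, (φ (M.wh f) - φ (M.bl f)) * (if f = e then 1 else 0) =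
      φ (M.wh e) - φ (M.bl e) := by
    intro e φ
    simp
  refine M.conn {x | ∃ y : E → ℤ, ∀ φ : X → ℤ,
    ∑ e, (φ (M.wh e) - φ (M.bl e)) * y e = φ x - φ b₀} (fun e => ⟨?_, ?_⟩) b₀ x
    ⟨fun _ => 0, fun φ => by simp⟩
  · rintro ⟨y, hy⟩
    refine ⟨fun f => y f + if f = e then 1 else 0, fun φ => ?_⟩
    simp only [mul_add, Finset.sum_add_distrib, hy, hone]
    ring
  · rintro ⟨y, hy⟩
    refine ⟨fun f => y f - if f = e then 1 else 0, fun φ => ?_⟩
    simp only [mul_sub (φ _ - φ _), Finset.sum_sub_distrib, hy, hone]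
    ring

omit [Fintype V] [DecidableEq X] in
private theorem exists_flow (b₀ : X) : ∃ y : E → ℤ, ∀ φ : X → ℤ, φ b₀ = 0 →
    ∑ e, (φ (M.wh e) - φ (M.bl e)) * y e = ∑ x with M.col x = false, φ x := by
  choose y hy using M.exists_path b₀
  refine ⟨fun e => ∑ x with M.col x = false, y x e, fun φ h => ?_⟩
  simp only [Finset.mul_sum]
  rw [Finset.sum_comm]
  refine Finset.sum_congr rfl fun x _ => ?_
  rw [hy, h, sub_zero]

omit [Fintype V] in
private theorem flow_black (b₀ : X) (y : E → ℤ) (hy : ∀ φ : X → ℤ, φ b₀ = 0 →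
    ∑ e, (φ (M.wh e) - φ (M.bl e)) * y e = ∑ x with M.col x = false, φ x) (t : M.Inner b₀) :
    ∑ i, y (M.ed t.1 i) = 0 := by
  have h := hy (fun x => if x = t.1 then 1 else 0) (if_neg fun h => t.2.2 h.symm)
  have hw : ∀ x, M.col x = false → (if x = t.1 then (1 : ℤ) else 0) = 0 := by
    intro x hx
    refine if_neg fun h => ?_
    rw [h, t.2.1] at hx
    exact absurd hx (by simp)
  have h1 : ∑ x with M.col x = false, (if x = t.1 then (1 : ℤ) else 0) = 0 :=
    Finset.sum_eq_zero fun x hx => hw x (mem_filter.1 hx).2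
  have h2 : ∀ e, (if M.wh e = t.1 then (1 : ℤ) else 0) = 0 := fun e => hw _ (M.col_wh e)
  simp only [h1, h2, zero_sub, neg_mul, Finset.sum_neg_distrib, neg_eq_zero] at h
  rw [M.sum_mul_bl (fun x => if x = t.1 then (1 : ℤ) else 0) y, Finset.sum_eq_single t.1] at h
  · simpa using h
  · intro x _ hx
    simp [hx]
  · intro hx
    exact (hx (mem_filter.2 ⟨mem_univ _, t.2.1⟩)).elim

private theorem omega_sub (a : Fin 3 → ℤ) (h : ∑ i, a i = 0) (g s : Fin 3) (hgs : g ≠ s) :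
    (a (s + 1) - a (s + 2)) - (a (g + 1) - a (g + 2)) = 3 * (eta g s * a (third g s)) := by
  rw [Fin.sum_univ_three] at h
  have h0 : a 0 + a 1 + a 2 = 0 := h
  fin_cases g <;> fin_cases s
  · exact absurd rfl hgs
  · show (a 2 - a 0) - (a 1 - a 2) = 3 * (1 * a 2)
    linarith
  · show (a 0 - a 1) - (a 1 - a 2) = 3 * (-1 * a 1)
    linarith
  · show (a 1 - a 2) - (a 2 - a 0) = 3 * (-1 * a 2)
    linarith
  · exact absurd rfl hgs
  · show (a 0 - a 1) - (a 2 - a 0) = 3 * (1 * a 0)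
    linarith
  · show (a 1 - a 2) - (a 0 - a 1) = 3 * (1 * a 1)
    linarith
  · show (a 2 - a 0) - (a 0 - a 1) = 3 * (-1 * a 0)
    linarith
  · exact absurd rfl hgs

omit [Fintype X] [Fintype V] in
private theorem cut_sum (b₀ : X) (A : Finset (M.Inner b₀)) (k : M.Inner b₀ → Fin 3)
    (S : Finset X)
    (hS : ∀ e, ¬ (M.bl e ∈ S ↔ M.wh e ∈ S) ↔ ∃ t ∈ A, M.ed t.1 (k t) = e) (y : E → ℤ) :
    ∑ e, ((if M.wh e ∈ S then (1 : ℤ) else 0) - (if M.bl e ∈ S then 1 else 0)) * y e =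
      ∑ t ∈ A, (if t.1 ∈ S then -1 else 1) * y (M.ed t.1 (k t)) := by
  classical
  have hinj : Set.InjOn (fun t : M.Inner b₀ => M.ed t.1 (k t)) (A : Set (M.Inner b₀)) := by
    intro t _ t' _ h
    have h1 : M.ed t.1 (k t) = M.ed t'.1 (k t') := h
    apply Subtype.ext
    rw [← M.bl_ed t.2.1 (k t), h1, M.bl_ed t'.2.1]
  rw [← Finset.sum_subset (subset_univ (A.image fun t => M.ed t.1 (k t))), Finset.sum_image hinj]
  · refine Finset.sum_congr rfl fun t ht => ?_
    have h1 := (hS (M.ed t.1 (k t))).2 ⟨t, ht, rfl⟩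
    rw [M.bl_ed t.2.1] at h1 ⊢
    by_cases h2 : t.1 ∈ S
    · have h3 : M.wh (M.ed t.1 (k t)) ∉ S := fun h => h1 ⟨fun _ => h, fun _ => h2⟩
      simp [h2, h3]
    · have h3 : M.wh (M.ed t.1 (k t)) ∈ S := by
        by_contra h
        exact h1 ⟨fun h' => absurd h' h2, fun h' => absurd h' h⟩
      simp [h2, h3]
  · intro e _ he
    have h1 : M.bl e ∈ S ↔ M.wh e ∈ S := by
      by_contra h
      obtain ⟨t, ht, h'⟩ := (hS e).1 h
      exact he (mem_image.2 ⟨t, ht, h'⟩)
    simp [h1]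

theorem exists_diskProp (b₀ : X) (hb : M.col b₀ = true) :
    ∃ ω, DiskProp (M.icor b₀) (M.roots b₀) ω := by
  obtain ⟨y, hy⟩ := M.exists_flow b₀
  refine ⟨fun t j => y (M.ed t.1 (j + 1)) - y (M.ed t.1 (j + 2)), fun s g A hs hg hA => ?_⟩
  obtain ⟨S, lam, hlam, hb0, hS, heta, hcard⟩ := M.disk b₀ hb s g A hs hg hA
  have hind : ∀ c : Bool, ∑ x with M.col x = c, (if x ∈ S then (1 : ℤ) else 0) =
      ((S.filter fun x => M.col x = c).card : ℤ) := by
    intro c
    rw [Finset.sum_boole]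
    congr 2
    ext x
    simp [and_comm]
  have he : ∀ t ∈ A, eta (g t) (s t) = -lam * (if t.1 ∈ S then -1 else 1) := by
    intro t ht
    rw [heta t ht]
    split_ifs <;> ring
  have hc : ((S.filter fun x => M.col x = false).card : ℤ) =
      ((S.filter fun x => M.col x = true).card : ℤ) + 1 := by exact_mod_cast hcard
  refine ⟨lam, 3 * ((S.filter fun x => M.col x = false).card : ℤ), hlam, ?_, ?_, ?_⟩
  · rw [hc]
    positivity
  · have h1 := M.cut_sum b₀ A (fun t => third (g t) (s t)) S hS (fun _ => 1)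
    simp only [sub_mul, Finset.sum_sub_distrib] at h1
    rw [M.sum_mul_wh (fun x => if x ∈ S then (1 : ℤ) else 0) (fun _ => 1),
      M.sum_mul_bl (fun x => if x ∈ S then (1 : ℤ) else 0) (fun _ => 1),
      ← Finset.sum_mul, ← Finset.sum_mul, hind, hind, hc] at h1
    simp only [Finset.sum_const, card_univ, Fintype.card_fin, mul_one] at h1
    rw [Finset.sum_congr rfl he, ← Finset.mul_sum, ← h1]
    simp only [nsmul_eq_mul]
    push_cast
    ring
  · have h1 := M.cut_sum b₀ A (fun t => third (g t) (s t)) S hS y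
    rw [hy (fun x => if x ∈ S then (1 : ℤ) else 0) (if_neg hb0), hind] at h1
    rw [h1, Finset.mul_sum, Finset.mul_sum]
    refine Finset.sum_congr rfl fun t ht => ?_
    have h2 := omega_sub (fun i => y (M.ed t.1 i)) (M.flow_black b₀ y hy t) (g t) (s t) (hg t)
    rw [he t ht] at h2
    simp only [] at h2 ⊢
    rw [h2]
    ring

end PMap

end Vale.Agent.P039
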