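import Vale.Agent.P039.Lin

namespace Vale.Agent.P039

universe u

open Finset

theorem hallIneq_bool (a : Fin 3 → Bool) :
    (univ.filter fun i => a i = true).card - 1 +
      (if ∀ i, a (i + 2) = true ∧ a (i + 1) = true then 1 else 0) =
      (univ.filter fun i => a (i + 2) = true ∧ a (i + 1) = true).card := by
  revert a; decide

theorem hallIneq_two {E : Type*} [DecidableEq E] (e₀ : E) (C : Finset E) (h : C.card ≤ 2) :
    ∃ e₁ e₂, ∀ e ∈ C, e = e₁ ∨ e = e₂ := by
  obtain h | h | h : C.card = 0 ∨ C.card = 1 ∨ C.card = 2 := by omega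
  · rw [card_eq_zero] at h
    exact ⟨e₀, e₀, by simp [h]⟩
  · obtain ⟨a, rfl⟩ := card_eq_one.1 h
    exact ⟨a, a, by simp⟩
  · obtain ⟨a, b, -, rfl⟩ := card_eq_two.1 h
    exact ⟨a, b, by simp⟩

namespace PMap

variable {E X V : Type u} [Fintype E] [Fintype X] [Fintype V] [DecidableEq X] [DecidableEq V]
  (M : PMap E X V)

omit [Fintype V] [DecidableEq V] in
theorem hallIneq_class [DecidableEq E] (b₀ : X) (hb : M.col b₀ = true) (hnb : M.NoBad b₀)
    (D : Finset E) (hb₀ : ∀ i, M.ed b₀ i ∈ D) (S : Finset X) (hS : S.Nonempty)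
    (hcl : ∀ e, e ∉ D → (M.bl e ∈ S ↔ M.wh e ∈ S)) :
    6 ≤ (D.filter fun e => M.bl e ∈ S).card + 2 * (D.filter fun e => M.wh e ∈ S).card +
      3 * (S.filter fun t => M.col t = true ∧ ∀ i, M.ed t i ∈ D).card := by
  by_contra hlt
  push Not at hlt
  have hn : ∀ t ∈ S, M.col t = true → ¬ ∀ i, M.ed t i ∈ D := by
    intro t ht hc hf
    have h1 : 1 ≤ (S.filter fun t => M.col t = true ∧ ∀ i, M.ed t i ∈ D).card :=
      card_pos.2 ⟨t, mem_filter.2 ⟨ht, hc, hf⟩⟩
    have h2 : (univ.image (M.ed t)).card ≤ (D.filter fun e => M.bl e ∈ S).card := by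
      apply card_le_card
      intro e he
      obtain ⟨i, -, rfl⟩ := mem_image.1 he
      exact mem_filter.2 ⟨hf i, by rw [M.bl_ed hc]; exact ht⟩
    rw [card_image_of_injective _ (M.ed_inj t)] at h2
    simp only [card_univ, Fintype.card_fin] at h2
    omega
  have hb₀S : b₀ ∉ S := fun h => hn b₀ h hb hb₀
  have hmod : ∃ k : ℤ, ((D.filter fun e => M.bl e ∈ S).card : ℤ) -
      (D.filter fun e => M.wh e ∈ S).card = 3 * k := by
    have h1 := M.sum_mul_bl (fun x => if x ∈ S then (1 : ℤ) else 0) (fun _ => 1)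
    have h2 := M.sum_mul_wh (fun x => if x ∈ S then (1 : ℤ) else 0) (fun _ => 1)
    simp only [mul_one, sum_const, card_univ, Fintype.card_fin, nsmul_eq_mul,
      ← Finset.sum_mul] at h1 h2
    have h3 : ∑ e, ((if M.bl e ∈ S then (1 : ℤ) else 0) - (if M.wh e ∈ S then 1 else 0)) =
        ∑ e ∈ D, ((if M.bl e ∈ S then (1 : ℤ) else 0) - (if M.wh e ∈ S then 1 else 0)) := by
      symm
      apply Finset.sum_subset (subset_univ _)
      intro e _ he
      simp [hcl e he]
    rw [Finset.sum_sub_distrib, Finset.sum_sub_distrib, h1, h2] at h3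
    simp only [sum_boole] at h3
    rw [← h3, ← sub_mul, mul_comm]
    exact ⟨_, rfl⟩
  have h3 : 3 ≤ (D.filter fun e => M.bl e ∈ S).card + (D.filter fun e => M.wh e ∈ S).card := by
    by_contra h
    obtain ⟨e₁, e₂, he⟩ := hallIneq_two (M.ed b₀ 0)
      ((D.filter fun e => M.bl e ∈ S) ∪ (D.filter fun e => M.wh e ∈ S))
      ((card_union_le _ _).trans (by omega))
    obtain ⟨x, hx⟩ := hS
    refine hb₀S (M.conn3 (S : Set X) e₁ e₂ ?_ x b₀ hx)
    intro e h1 h2
    by_cases heD : e ∈ D
    · have h4 : e ∉ (D.filter fun e => M.bl e ∈ S) ∪ (D.filter fun e => M.wh e ∈ S) :=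
        fun h => (he e h).elim h1 h2
      simp only [mem_union, mem_filter, heD, true_and, not_or] at h4
      simp [h4.1, h4.2]
    · simpa using hcl e heD
  obtain ⟨k, hk⟩ := hmod
  have hp : (D.filter fun e => M.bl e ∈ S).card = 3 := by omega
  have hq : (D.filter fun e => M.wh e ∈ S).card = 0 := by omega
  rw [card_eq_zero] at hq
  obtain ⟨e₁, e₂, e₃, -, -, -, h123⟩ := card_eq_three.1 hp
  have hsub := hnb (S : Set X) e₁ e₂ e₃ hb₀S
    (by
      intro e he
      by_cases heD : e ∈ D
      · have : e ∈ D.filter fun e => M.wh e ∈ S := mem_filter.2 ⟨heD, he⟩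
        rw [hq] at this
        exact absurd this (notMem_empty _)
      · exact (hcl e heD).2 he)
    (by
      intro e h1 h2 h3 he
      by_cases heD : e ∈ D
      · have : e ∈ D.filter fun e => M.bl e ∈ S := mem_filter.2 ⟨heD, he⟩
        rw [h123] at this
        simp [h1, h2, h3] at this
      · exact (hcl e heD).1 he)
  have h1 : e₁ ∈ D.filter fun e => M.bl e ∈ S := by rw [h123]; simp
  have h2 := (mem_filter.1 h1).2
  refine hn _ h2 (M.col_bl e₁) fun i => ?_
  by_contra hi
  have h4 := (hcl _ hi).1 (by rw [M.bl_ed (M.col_bl e₁)]; exact h2)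
  exact M.bl_ne_wh _ _ (hsub h2 h4)

theorem hall_ineq (b₀ : X) (hb : M.col b₀ = true) (hnb : M.NoBad b₀) (Z : Finset V)
    (hZ : ∀ i, M.cor b₀ i ∈ Z) :
    ∑ t : M.Inner b₀, ((univ.filter fun i => M.icor b₀ t i ∈ Z).card - 1) + 6 ≤ 2 * Z.card := by
  classical
  let D : Finset E := univ.filter fun e => M.hd e ∈ Z ∧ M.tl e ∈ Z
  have hD : ∀ x i, M.ed x i ∈ D ↔ M.cor x (i + 2) ∈ Z ∧ M.cor x (i + 1) ∈ Z := by
    intro x i
    simp [D, M.hd_ed, M.tl_ed]
  let r : X → X → Prop := fun x y => ∃ e, e ∉ D ∧ M.bl e = x ∧ M.wh e = y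
  let P := Quot r
  let π : X → P := Quot.mk r
  have hπs : Function.Surjective π := Quot.mk_surjective
  have : Fintype P := Fintype.ofSurjective π hπs
  have h1 := M.regions_ge D Z ⟨_, hZ 0⟩ (fun e he => (mem_filter.1 he).2) π (by
    intro S hS x y hxy
    have h2 : Relation.EqvGen r x y := Quot.eqvGen_exact hxy
    have h3 : x ∈ S ↔ y ∈ S := by
      clear hxy
      induction h2 with
      | rel a b h => obtain ⟨e, he, rfl, rfl⟩ := h; exact hS e he
      | refl a => rfl
      | symm a b _ ih => exact ih.symm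
      | trans a b c _ _ ih1 ih2 => exact ih1.trans ih2
    exact h3.1)
  let Fu : Finset X := univ.filter fun t => M.col t = true ∧ ∀ i, M.ed t i ∈ D
  have h2 : ∀ K : P, 6 ≤ (D.filter fun e => π (M.bl e) = K).card +
      2 * (D.filter fun e => π (M.wh e) = K).card + 3 * (Fu.filter fun t => π t = K).card := by
    intro K
    have h3 := M.hallIneq_class b₀ hb hnb D (fun i => (hD _ _).2 ⟨hZ _, hZ _⟩)
      (univ.filter fun x => π x = K)
      (by obtain ⟨x, hx⟩ := hπs K; exact ⟨x, by simp [hx]⟩)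
      (by
        intro e he
        have : π (M.bl e) = π (M.wh e) := Quot.sound ⟨e, he, rfl, rfl⟩
        simp [this])
    simp only [mem_filter, mem_univ, true_and] at h3
    have h4 : ((univ.filter fun x => π x = K).filter fun t => M.col t = true ∧ ∀ i, M.ed t i ∈ D)
        = Fu.filter fun t => π t = K := by
      ext t; simp [Fu, and_comm]
    rwa [h4] at h3
  have h3 := Finset.sum_le_sum (s := (univ : Finset P)) fun K _ => h2 K
  simp only [Finset.sum_add_distrib, ← Finset.mul_sum] at h3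
  rw [← card_eq_sum_card_fiberwise (f := fun e => π (M.bl e)) (fun _ _ => mem_univ _),
    ← card_eq_sum_card_fiberwise (f := fun e => π (M.wh e)) (fun _ _ => mem_univ _),
    ← card_eq_sum_card_fiberwise (f := π) (fun _ _ => mem_univ _)] at h3
  simp only [sum_const, card_univ, smul_eq_mul] at h3
  have h4 : ∑ t with M.col t = true, ((univ.filter fun i => M.cor t i ∈ Z).card - 1) + Fu.card =
      D.card := by
    have h5 := M.sum_bl (fun e => if e ∈ D then 1 else 0)
    have h6 : Fu.card = ∑ t with M.col t = true, if ∀ i, M.ed t i ∈ D then 1 else 0 := by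
      rw [← card_filter, filter_filter]
    have h7 : ∑ e, (if e ∈ D then 1 else 0) = D.card := by simp
    rw [← h7, h5, h6, ← Finset.sum_add_distrib]
    refine Finset.sum_congr rfl fun t _ => ?_
    have h8 := hallIneq_bool fun i => decide (M.cor t i ∈ Z)
    simp only [decide_eq_true_eq] at h8
    simp only [hD, ← card_filter]
    convert h8
  have h5 : ∑ t with M.col t = true, ((univ.filter fun i => M.cor t i ∈ Z).card - 1) =
      ∑ t : M.Inner b₀, ((univ.filter fun i => M.icor b₀ t i ∈ Z).card - 1) + 2 := by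
    rw [← Finset.sum_erase_add _ _ (show b₀ ∈ univ.filter fun t => M.col t = true by simp [hb])]
    congr 1
    · exact Finset.sum_subtype _ (by intro x; simp [and_comm]) _
    · simp [hZ]
  omega

end PMap

end Vale.Agent.P039
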