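import Vale.Agent.P039.States

namespace Vale.Agent.P039

universe u

open Finset

variable {T V : Type u}

namespace HallPair

theorem third_ne : ∀ a b : Fin 3, b ≠ a → third a b ≠ a ∧ b ≠ third a b := by decide

theorem card_ne : ∀ a : Fin 3, (univ.filter fun i => i ≠ a).card = 2 := by decide

/-- First application of Hall's theorem: every triangle omits one corner, and every non-root
vertex is covered twice. -/
theorem hall_one [Fintype T] [Fintype V] [DecidableEq V] (c : T → Fin 3 → V) (R : Finset V)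
    (hcard : Fintype.card V = Fintype.card T + R.card)
    (h : ∀ Z : Finset V, R ⊆ Z →
      ∑ t, ((univ.filter fun i => c t i ∈ Z).card - 1) + 2 * R.card ≤ 2 * Z.card) :
    ∃ f : T ⊕ ({v // v ∉ R} × Fin 2) → T × Fin 3, Function.Injective f ∧
      (∀ t, (f (Sum.inl t)).1 = t) ∧ ∀ x, c (f (Sum.inr x)).1 (f (Sum.inr x)).2 = x.1.1 := by
  classical
  let rel : T ⊕ ({v // v ∉ R} × Fin 2) → T × Fin 3 → Prop := fun a p =>
    Sum.elim (fun t => p.1 = t) (fun x => c p.1 p.2 = x.1.1) a
  have key := (Fintype.all_card_le_filter_rel_iff_exists_injective rel).1 ?_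
  · obtain ⟨f, hf, h1⟩ := key
    exact ⟨f, hf, fun t => h1 (Sum.inl t), fun x => h1 (Sum.inr x)⟩
  intro A
  set W : Finset V := A.toRight.image fun x => x.1.1 with hW
  have h1 : A.toRight.card ≤ 2 * W.card := by
    have : A.toRight.card ≤ (W ×ˢ (univ : Finset (Fin 2))).card := by
      refine Finset.card_le_card_of_injOn (fun x => (x.1.1, x.2)) (fun x hx => ?_) ?_
      · simp only [coe_product, coe_univ, Set.mem_prod, mem_coe, Set.mem_univ, and_true]
        exact mem_image_of_mem _ hx
      · intro x _ y _ hxy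
        simp only [Prod.mk.injEq] at hxy
        exact Prod.ext (Subtype.ext hxy.1) hxy.2
    simpa [mul_comm] using this
  have h2 : R ⊆ Wᶜ := by
    intro v hv
    rw [mem_compl, hW, mem_image]
    rintro ⟨x, -, rfl⟩
    exact x.1.2 hv
  have h3 := h _ h2
  rw [card_compl] at h3
  have h4 : W.card ≤ Fintype.card V := card_le_univ _
  have h5 : (univ.filter fun p : T × Fin 3 => ∃ a ∈ A, rel a p).card =
      ∑ t, (univ.filter fun i => t ∈ A.toLeft ∨ c t i ∈ W).card := by
    simp only [card_filter]
    rw [Fintype.sum_prod_type]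
    refine sum_congr rfl fun t _ => sum_congr rfl fun i _ => if_congr ?_ rfl rfl
    constructor
    · rintro ⟨a | x, ha, hr⟩
      · left
        obtain rfl : t = a := hr
        exact mem_toLeft.2 ha
      · right
        have hr' : c t i = x.1.1 := hr
        rw [hr']
        exact mem_image_of_mem _ (mem_toRight.2 ha)
    · rintro (ht | hw)
      · exact ⟨Sum.inl t, mem_toLeft.1 ht, rfl⟩
      · obtain ⟨x, hx, e⟩ := mem_image.1 hw
        exact ⟨Sum.inr x, mem_toRight.1 hx, e.symm⟩
  have h6 : ∀ t, (if t ∈ A.toLeft then 1 else 0) + 2 ≤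
      (univ.filter fun i => t ∈ A.toLeft ∨ c t i ∈ W).card +
        ((univ.filter fun i => c t i ∈ Wᶜ).card - 1) := by
    intro t
    split_ifs with ht
    · simp [ht]
    · have := Finset.card_filter_add_card_filter_not (s := (univ : Finset (Fin 3)))
        (fun i => c t i ∈ W)
      simp only [ht, false_or, mem_compl]
      rw [card_univ, Fintype.card_fin] at this
      omega
  have h7 := Finset.sum_le_sum fun t (_ : t ∈ (univ : Finset T)) => h6 t
  rw [sum_add_distrib, sum_add_distrib, ← h5, ← card_filter] at h7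
  simp only [filter_univ_mem, sum_const, card_univ, smul_eq_mul] at h7
  have h8 := Finset.card_toLeft_add_card_toRight (u := A)
  omega

end HallPair

open HallPair

theorem pair_of_ineq [Fintype T] [Fintype V] [DecidableEq V] (c : T → Fin 3 → V)
    (hc : ∀ t, Function.Injective (c t)) (R : Finset V)
    (hcard : Fintype.card V = Fintype.card T + R.card)
    (h : ∀ Z : Finset V, R ⊆ Z →
      ∑ t, ((univ.filter fun i => c t i ∈ Z).card - 1) + 2 * R.card ≤ 2 * Z.card) :
    ∃ r s, State c (R : Set V) r ∧ State c (R : Set V) s ∧ ∀ t, r t ≠ s t := by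
  classical
  obtain ⟨f, hf, f1, f2⟩ := hall_one c R hcard h
  have hN : Fintype.card {v // v ∉ R} = Fintype.card T := by
    rw [Fintype.card_subtype_compl, Fintype.card_coe]
    omega
  have hsurj : Function.Surjective f := by
    refine ((Fintype.bijective_iff_injective_and_card f).2 ⟨hf, ?_⟩).2
    simp only [Fintype.card_sum, Fintype.card_prod, Fintype.card_fin, hN]
    omega
  let o : T → Fin 3 := fun t => (f (Sum.inl t)).2
  have hinc : ∀ t i, i ≠ o t → ∃ x, f (Sum.inr x) = (t, i) ∧ c t i = x.1.1 := by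
    intro t i hi
    obtain ⟨a | x, ha⟩ := hsurj (t, i)
    · have e := f1 a
      rw [ha] at e
      obtain rfl : t = a := e
      exact absurd (congrArg Prod.snd ha).symm hi
    · have e := f2 x
      rw [ha] at e
      exact ⟨x, ha, e⟩
  have hst : ∀ r : T → Fin 3, (∀ t, r t ≠ o t) → Function.Injective (fun t => c t (r t)) →
      State c (R : Set V) r := by
    intro r h1 h2
    have h3 : ∀ t, c t (r t) ∉ R := fun t => by
      obtain ⟨x, -, e⟩ := hinc t _ (h1 t)
      rw [e]
      exact x.1.2
    refine ⟨h2, fun v => ⟨fun hv => ?_, ?_⟩⟩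
    · have h4 : Function.Bijective fun t => (⟨c t (r t), h3 t⟩ : {v // v ∉ R}) :=
        (Fintype.bijective_iff_injective_and_card _).2
          ⟨fun t t' e => h2 (congrArg Subtype.val e), hN.symm⟩
      obtain ⟨t, ht⟩ := h4.2 ⟨v, hv⟩
      exact ⟨t, congrArg Subtype.val ht⟩
    · rintro ⟨t, rfl⟩
      exact h3 t
  have key := (Fintype.all_card_le_filter_rel_iff_exists_injective
    (fun t v => ∃ i, i ≠ o t ∧ c t i = v)).1 ?_
  · obtain ⟨g, hg, h1⟩ := key
    choose r hr h2 using h1
    have hrs := hst r hr (by rwa [funext h2])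
    refine ⟨r, fun t => third (o t) (r t), hrs,
      hst _ (fun t => (third_ne _ _ (hr t)).1) fun t t' e => ?_, fun t => (third_ne _ _ (hr t)).2⟩
    by_contra hne
    obtain ⟨x, x1, x2⟩ := hinc t _ (third_ne _ _ (hr t)).1
    obtain ⟨y, y1, y2⟩ := hinc t' _ (third_ne _ _ (hr t')).1
    obtain ⟨t'', e'⟩ := (hrs.2 x.1.1).1 x.1.2
    obtain ⟨z, z1, z2⟩ := hinc t'' _ (hr t'')
    have exy : x.1 = y.1 := Subtype.ext (by rw [← x2, ← y2]; exact e)
    have exz : x.1 = z.1 := Subtype.ext (by rw [← z2, e'])
    have hz : ∀ w a, f (Sum.inr w) = (a, third (o a) (r a)) → w ≠ z := by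
      rintro w a hw rfl
      rw [z1] at hw
      obtain ⟨rfl, hw⟩ := Prod.mk.inj hw
      exact (third_ne _ _ (hr _)).2 hw
    have n1 : x.2 ≠ y.2 := fun e => hne (by
      rw [Prod.ext exy e, y1] at x1
      exact (congrArg Prod.fst x1).symm)
    have n2 : x.2 ≠ z.2 := fun e => hz x t x1 (Prod.ext exz e)
    have n3 : y.2 ≠ z.2 := fun e => hz y t' y1 (Prod.ext (exy.symm.trans exz) e)
    omega
  intro A
  set W := univ.filter fun v => ∃ a ∈ A, ∃ i, i ≠ o a ∧ c a i = v with hW
  have h1 : (A.sigma fun t => univ.filter fun i => i ≠ o t).card ≤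
      (W ×ˢ (univ : Finset (Fin 2))).card := by
    have hk : ∀ t i, i ≠ o t → ∃ j : Fin 2, ∃ v, f (Sum.inr (v, j)) = (t, i) ∧ c t i = v.1 :=
      fun t i hi => (hinc t i hi).elim fun x hx => ⟨x.2, x.1, hx⟩
    choose! k hk using hk
    refine Finset.card_le_card_of_injOn (fun p => (c p.1 p.2, k p.1 p.2)) (fun p hp => ?_) ?_
    · simp only [mem_coe, mem_sigma, mem_filter, mem_univ, true_and] at hp
      simp only [coe_product, coe_univ, Set.mem_prod, mem_coe, Set.mem_univ, and_true, hW,
        mem_filter, mem_univ, true_and]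
      exact ⟨_, hp.1, _, hp.2, rfl⟩
    · intro p hp q hq e
      simp only [mem_coe, mem_sigma, mem_filter, mem_univ, true_and] at hp hq
      obtain ⟨e1, e2⟩ := Prod.mk.inj e
      obtain ⟨v, p1, p2⟩ := hk _ _ hp.2
      obtain ⟨w, q1, q2⟩ := hk _ _ hq.2
      obtain rfl : v = w := Subtype.ext (by rw [← p2, ← q2, e1])
      rw [e2, q1] at p1
      obtain ⟨e4, e5⟩ := Prod.mk.inj p1
      exact Sigma.ext e4.symm (heq_of_eq e5.symm)
  rw [card_sigma, card_product] at h1
  simp only [card_ne, sum_const, smul_eq_mul, card_univ, Fintype.card_fin] at h1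
  omega

end Vale.Agent.P039
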