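import Vale.Agent.P039.States

namespace Vale.Agent.P039

universe u

open Finset

variable {T V : Type u}

section flip

variable {c : T → Fin 3 → V} {s g : T → Fin 3} [DecidableEq T]

omit [DecidableEq T] in
theorem Closed.sum_symm {A : Finset T} (h : Closed c s g A) : Closed c g s A := Eq.symm h

omit [DecidableEq T] in
theorem Closed.sum_fwd {A : Finset T} (h : Closed c s g A) {t : T} (ht : t ∈ A) :
    ∃ t' ∈ A, c t' (s t') = c t (g t) := by
  have : c t (g t) ∈ (fun t => c t (s t)) '' (A : Set T) := by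
    rw [← h]; exact ⟨t, ht, rfl⟩
  obtain ⟨t', ht', h'⟩ := this
  exact ⟨t', ht', h'⟩

omit [DecidableEq T] in
theorem sum_closed_iff {A : Finset T} : Closed c s g A ↔
    (∀ t ∈ A, ∃ t' ∈ A, c t' (s t') = c t (g t)) ∧ ∀ t ∈ A, ∃ t' ∈ A, c t' (g t') = c t (s t) := by
  refine ⟨fun h => ⟨fun t ht => h.sum_fwd ht, fun t ht => h.sum_symm.sum_fwd ht⟩, fun h => ?_⟩
  apply Set.Subset.antisymm
  · rintro _ ⟨t, ht, rfl⟩
    obtain ⟨t', ht', h'⟩ := h.1 t ht
    exact ⟨t', ht', h'⟩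
  · rintro _ ⟨t, ht, rfl⟩
    obtain ⟨t', ht', h'⟩ := h.2 t ht
    exact ⟨t', ht', h'⟩

theorem Closed.sum_sdiff (hs : Function.Injective (fun t => c t (s t))) {A B : Finset T}
    (hA : Closed c s g A) (hB : Closed c s g B) : Closed c s g (B \ A) := by
  apply closed_of_sub hs
  intro t ht
  rw [mem_sdiff] at ht
  obtain ⟨t', ht', h'⟩ := hB.sum_symm.sum_fwd ht.1
  refine ⟨t', mem_sdiff.2 ⟨ht', fun hA' => ?_⟩, h'.symm⟩
  obtain ⟨t'', ht'', h''⟩ := hA.sum_fwd hA'
  have : t'' = t := hs (h''.trans h')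
  exact ht.2 (this ▸ ht'')

theorem Closed.sum_inter (hs : Function.Injective (fun t => c t (s t))) {A B : Finset T}
    (hA : Closed c s g A) (hB : Closed c s g B) : Closed c s g (B ∩ A) := by
  have := (hA.sum_sdiff hs hB).sum_sdiff hs hB
  rwa [Finset.sdiff_sdiff_self_left] at this

/-- swap `s` for `g` on `U` -/
def sw (U : Finset T) (s g : T → Fin 3) : T → Fin 3 := fun t => if t ∈ U then g t else s t

theorem sw_sw (U : Finset T) (s g : T → Fin 3) : sw U (sw U s g) (sw U g s) = s := by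
  funext t; by_cases h : t ∈ U <;> simp [sw, h]

theorem sw_inj (hs : Function.Injective (fun t => c t (s t))) {U : Finset T}
    (hU : Closed c s g U) : Function.Injective (fun t => c t (sw U s g t)) := by
  intro a b hab
  by_cases ha : a ∈ U <;> by_cases hb : b ∈ U <;> simp only [sw, ha, hb, if_true, if_false] at hab
  · exact hU.injOn hs ha hb hab
  · obtain ⟨t', ht', h'⟩ := hU.sum_fwd ha
    have : t' = b := hs (h'.trans hab)
    exact absurd (this ▸ ht') hb
  · obtain ⟨t', ht', h'⟩ := hU.sum_fwd hb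
    have : t' = a := hs (h'.trans hab.symm)
    exact absurd (this ▸ ht') ha
  · exact hs hab

theorem sw_state {R : Set V} (hs : State c R s) {U : Finset T} (hU : Closed c s g U) :
    State c R (sw U s g) := by
  refine ⟨sw_inj hs.1 hU, fun v => ?_⟩
  rw [hs.2 v]
  constructor
  · rintro ⟨t, rfl⟩
    by_cases ht : t ∈ U
    · obtain ⟨t', ht', h'⟩ := hU.sum_symm.sum_fwd ht
      exact ⟨t', by simp [sw, ht', h']⟩
    · exact ⟨t, by simp [sw, ht]⟩
  · rintro ⟨t, rfl⟩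
    by_cases ht : t ∈ U
    · obtain ⟨t', ht', h'⟩ := hU.sum_fwd ht
      exact ⟨t', by simp [sw, ht, h']⟩
    · exact ⟨t, by simp [sw, ht]⟩

theorem sw_closed (hs : Function.Injective (fun t => c t (s t))) {U B : Finset T}
    (hU : Closed c s g U) (hB : Closed c s g B) : Closed c (sw U s g) (sw U g s) B := by
  have h1 := hU.sum_inter hs hB
  have h2 := hU.sum_sdiff hs hB
  rw [sum_closed_iff]
  constructor
  · intro t ht
    by_cases hu : t ∈ U
    · obtain ⟨t', ht', h'⟩ := h1.sum_symm.sum_fwd (mem_inter.2 ⟨ht, hu⟩)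
      rw [mem_inter] at ht'
      exact ⟨t', ht'.1, by simp [sw, hu, ht'.2, h']⟩
    · obtain ⟨t', ht', h'⟩ := h2.sum_fwd (mem_sdiff.2 ⟨ht, hu⟩)
      rw [mem_sdiff] at ht'
      exact ⟨t', ht'.1, by simp [sw, hu, ht'.2, h']⟩
  · intro t ht
    by_cases hu : t ∈ U
    · obtain ⟨t', ht', h'⟩ := h1.sum_fwd (mem_inter.2 ⟨ht, hu⟩)
      rw [mem_inter] at ht'
      exact ⟨t', ht'.1, by simp [sw, hu, ht'.2, h']⟩
    · obtain ⟨t', ht', h'⟩ := h2.sum_symm.sum_fwd (mem_sdiff.2 ⟨ht, hu⟩)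
      rw [mem_sdiff] at ht'
      exact ⟨t', ht'.1, by simp [sw, hu, ht'.2, h']⟩

theorem sw_closed_iff (hs : Function.Injective (fun t => c t (s t))) {U : Finset T}
    (hU : Closed c s g U) (B : Finset T) :
    Closed c (sw U s g) (sw U g s) B ↔ Closed c s g B := by
  refine ⟨fun h => ?_, sw_closed hs hU⟩
  have := sw_closed (sw_inj hs hU) (sw_closed hs hU hU) h
  rwa [sw_sw, sw_sw] at this

theorem sw_atom_eq (hs : Function.Injective (fun t => c t (s t))) {U : Finset T}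
    (hU : Closed c s g U) : Atom c (sw U s g) (sw U g s) = Atom c s g := by
  funext B
  simp only [Atom, sw_closed_iff hs hU]

theorem atom_cover (hs : Function.Injective (fun t => c t (s t))) (Y : Finset T)
    (hY : Closed c s g Y) (t : T) (ht : t ∈ Y) : ∃ A, Atom c s g A ∧ t ∈ A := by
  induction Y using Finset.strongInduction with
  | H Y ih =>
    obtain ⟨A, hAY, hA⟩ := exists_atom_of_closed Y ⟨t, ht⟩ hY
    by_cases htA : t ∈ A
    · exact ⟨A, hA, htA⟩
    · exact ih (Y \ A) (Finset.sdiff_ssubset hAY hA.1) (hA.2.1.sum_sdiff hs hY)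
        (mem_sdiff.2 ⟨ht, htA⟩)

theorem atom_eq_of_mem (hs : Function.Injective (fun t => c t (s t))) {A B : Finset T}
    (hA : Atom c s g A) (hB : Atom c s g B) {t : T} (ha : t ∈ A) (hb : t ∈ B) : A = B := by
  have h := hA.2.1.sum_inter hs hB.2.1
  have hne : (B ∩ A).Nonempty := ⟨t, mem_inter.2 ⟨hb, ha⟩⟩
  have h1 := hA.2.2 _ inter_subset_right hne h
  have h2 := hB.2.2 _ inter_subset_left hne h
  rw [← h1, h2]

end flip

theorem sum_invol {α : Type*} {M : Type*} [AddCommMonoid M] (S : Finset α) (φ : α → α)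
    (hmem : ∀ x ∈ S, φ x ∈ S) (hinv : ∀ x ∈ S, φ (φ x) = x) (f : α → M) :
    ∑ x ∈ S, f (φ x) = ∑ x ∈ S, f x :=
  Finset.sum_nbij' φ φ hmem hmem hinv hinv (fun _ _ => rfl)

theorem sum_eta_swap {a b : Fin 3} (h : a ≠ b) : eta b a = - eta a b := by
  revert a b; decide

theorem sum_third_ne {a b : Fin 3} (h : a ≠ b) : third a b ≠ b ∧ a ≠ third a b ∧
    third a (third a b) = b ∧ eta a (third a b) = eta (third a b) b ∧
    eta a b = - eta (third a b) b := by
  revert a b; decide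

section main

open Classical in
/-- pairs of disjoint states -/
noncomputable def sumPairs [Fintype T] (c : T → Fin 3 → V) (R : Set V) :
    Finset ((T → Fin 3) × (T → Fin 3)) :=
  univ.filter fun x => State c R x.1 ∧ State c R x.2 ∧ ∀ t, x.1 t ≠ x.2 t

theorem mem_sumPairs [Fintype T] {c : T → Fin 3 → V} {R : Set V}
    {x : (T → Fin 3) × (T → Fin 3)} :
    x ∈ sumPairs c R ↔ State c R x.1 ∧ State c R x.2 ∧ ∀ t, x.1 t ≠ x.2 t := by
  simp [sumPairs]

/-- the angle attached to a pair -/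
noncomputable def sumAng [Fintype T] (ω : T → Fin 3 → ℤ) (θ : ℝ)
    (x : (T → Fin 3) × (T → Fin 3)) : ℝ :=
  ∑ t, (Real.pi / 2 * eta (x.1 t) (x.2 t) - θ * ω t (x.1 t))

theorem sum_zero [Fintype T] (c : T → Fin 3 → V) (R : Set V) (ω : T → Fin 3 → ℤ)
    (hD : DiskProp c R ω) (θ : ℝ)
    (hcon : ∀ r s, State c R r → State c R s → (∀ t, r t ≠ s t) →
      ∃ A, Atom c s (fun t => third (r t) (s t)) A) :
    ∑ x ∈ sumPairs c R, Real.cos (sumAng ω θ x) = 0 := by
  classical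
  let gg : (T → Fin 3) × (T → Fin 3) → T → Fin 3 := fun x t => third (x.1 t) (x.2 t)
  let ch : (T → Fin 3) × (T → Fin 3) → Finset T := fun x => Classical.epsilon (Atom c x.2 (gg x))
  have hch : ∀ x ∈ sumPairs c R, Atom c x.2 (gg x) (ch x) := by
    intro x hx
    rw [mem_sumPairs] at hx
    exact Classical.epsilon_spec (hcon x.1 x.2 hx.1 hx.2.1 hx.2.2)
  let φ : (T → Fin 3) × (T → Fin 3) → (T → Fin 3) × (T → Fin 3) :=
    fun x => (x.1, sw (ch x) x.2 (gg x))
  have hgg : ∀ x ∈ sumPairs c R, gg (φ x) = sw (ch x) (gg x) x.2 := by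
    intro x hx
    rw [mem_sumPairs] at hx
    funext t
    by_cases ht : t ∈ ch x
    · simp only [gg, φ, sw, ht, if_true]
      exact (sum_third_ne (hx.2.2 t)).2.2.1
    · simp only [gg, φ, sw, ht, if_false]
  have hmem : ∀ x ∈ sumPairs c R, φ x ∈ sumPairs c R := by
    intro x hx
    have h1 := hch x hx
    rw [mem_sumPairs] at hx ⊢
    refine ⟨hx.1, sw_state hx.2.1 h1.2.1, fun t => ?_⟩
    by_cases ht : t ∈ ch x
    · simp only [φ, sw, ht, if_true]
      exact (sum_third_ne (hx.2.2 t)).2.1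
    · simp only [φ, sw, ht, if_false]
      exact hx.2.2 t
  have hch2 : ∀ x ∈ sumPairs c R, ch (φ x) = ch x := by
    intro x hx
    have h1 := hch x hx
    have h2 := hgg x hx
    rw [mem_sumPairs] at hx
    show Classical.epsilon (Atom c (sw (ch x) x.2 (gg x)) (gg (φ x))) = _
    rw [h2, sw_atom_eq hx.2.1.1 h1.2.1]
  have hinv : ∀ x ∈ sumPairs c R, φ (φ x) = x := by
    intro x hx
    refine Prod.ext rfl ?_
    show sw (ch (φ x)) (sw (ch x) x.2 (gg x)) (gg (φ x)) = x.2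
    rw [hch2 x hx, hgg x hx, sw_sw]
  have hneg : ∀ x ∈ sumPairs c R, Real.cos (sumAng ω θ (φ x)) = - Real.cos (sumAng ω θ x) := by
    intro x hx
    have h1 := hch x hx
    rw [mem_sumPairs] at hx
    obtain ⟨lam, N, hlam, -, hsum, -⟩ := hD x.2 (gg x) (ch x) hx.2.1
      (fun t => (sum_third_ne (hx.2.2 t)).1) h1
    have h2 : sumAng ω θ (φ x) = sumAng ω θ x +
        Real.pi * ((∑ t ∈ ch x, eta (gg x t) (x.2 t) : ℤ) : ℝ) := by
      have h3 : ((∑ t ∈ ch x, eta (gg x t) (x.2 t) : ℤ) : ℝ) =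
          ∑ t, if t ∈ ch x then ((eta (gg x t) (x.2 t) : ℤ) : ℝ) else 0 := by
        rw [Finset.sum_ite_mem, univ_inter]; push_cast; rfl
      rw [h3, sumAng, sumAng, Finset.mul_sum, ← Finset.sum_add_distrib]
      refine Finset.sum_congr rfl fun t _ => ?_
      by_cases ht : t ∈ ch x
      · simp only [φ, sw, ht, if_true, gg]
        rw [(sum_third_ne (hx.2.2 t)).2.2.2.1, (sum_third_ne (hx.2.2 t)).2.2.2.2]
        push_cast; ring
      · simp only [φ, sw, ht, if_false]; ring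
    rw [h2, hsum]
    rcases hlam with rfl | rfl
    · have : sumAng ω θ x + Real.pi * ((-3 * 1 : ℤ) : ℝ) =
          sumAng ω θ x - Real.pi - 2 * Real.pi := by push_cast; ring
      rw [this, Real.cos_sub_two_pi, Real.cos_sub_pi]
    · have : sumAng ω θ x + Real.pi * ((-3 * -1 : ℤ) : ℝ) =
          sumAng ω θ x + Real.pi + 2 * Real.pi := by push_cast; ring
      rw [this, Real.cos_add_two_pi, Real.cos_add_pi]
  have h := sum_invol (sumPairs c R) φ hmem hinv (fun x => Real.cos (sumAng ω θ x))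
  rw [Finset.sum_congr rfl hneg, Finset.sum_neg_distrib] at h
  linarith

theorem sum_union_closed [DecidableEq T] {c : T → Fin 3 → V} {s g : T → Fin 3}
    (𝒜 : Finset (Finset T)) (h : ∀ A ∈ 𝒜, Closed c s g A) : Closed c s g (𝒜.biUnion id) := by
  rw [sum_closed_iff]
  constructor
  · intro t ht
    obtain ⟨A, hA, htA⟩ := mem_biUnion.1 ht
    obtain ⟨t', ht', h'⟩ := (h A hA).sum_fwd htA
    exact ⟨t', mem_biUnion.2 ⟨A, hA, ht'⟩, h'⟩
  · intro t ht
    obtain ⟨A, hA, htA⟩ := mem_biUnion.1 ht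
    obtain ⟨t', ht', h'⟩ := (h A hA).sum_symm.sum_fwd htA
    exact ⟨t', mem_biUnion.2 ⟨A, hA, ht'⟩, h'⟩

open Classical in
theorem sum_prod_flip [Fintype T] {c : T → Fin 3 → V} {R : Set V} {r s : T → Fin 3}
    (hr : State c R r) (hs : State c R s) (E : T → Fin 3 → Fin 3 → ℂ) :
    ∑ 𝒳 ∈ (univ : Finset (Finset T)).powerset,
      ∏ t, E t (sw ((𝒳.filter (Atom c s r)).biUnion id) r s t)
        (sw ((𝒳.filter (Atom c s r)).biUnion id) s r t) =
      ∏ A : Finset T, ((if Atom c s r A then ∏ t ∈ A, E t (s t) (r t) else 1) +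
        (if Atom c s r A then ∏ t ∈ A, E t (r t) (s t) else 1)) := by
  rw [Finset.prod_add]
  refine Finset.sum_congr rfl fun 𝒳 _ => ?_
  have huniv : Closed c s r univ := by
    rw [sum_closed_iff]
    constructor
    · intro t _
      obtain ⟨t', h'⟩ := (hs.2 (c t (r t))).1 ((hr.2 _).2 ⟨t, rfl⟩)
      exact ⟨t', mem_univ _, h'⟩
    · intro t _
      obtain ⟨t', h'⟩ := (hr.2 (c t (s t))).1 ((hs.2 _).2 ⟨t, rfl⟩)
      exact ⟨t', mem_univ _, h'⟩
  have hcov : (univ.filter (Atom c s r)).biUnion id = univ := by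
    apply Finset.eq_univ_of_forall
    intro t
    obtain ⟨A, hA, ht⟩ := atom_cover hs.1 univ huniv t (mem_univ _)
    exact mem_biUnion.2 ⟨A, by simp [hA], ht⟩
  have hdisj : Set.PairwiseDisjoint (↑(univ.filter (Atom c s r)) : Set (Finset T)) id := by
    intro A hA B hB hAB
    simp only [coe_filter, mem_univ, true_and, Set.mem_ofPred_eq] at hA hB
    exact Finset.disjoint_left.2 fun t ha hb => hAB (atom_eq_of_mem hs.1 hA hB ha hb)
  rw [← hcov, Finset.prod_biUnion hdisj, Finset.prod_filter]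
  have e1 : ∀ f f' : Finset T → ℂ, (∏ A ∈ 𝒳, f' A) * ∏ A ∈ univ \ 𝒳, f A =
      ∏ A, if A ∈ 𝒳 then f' A else f A := by
    intro f f'
    rw [Finset.prod_ite]
    congr 1
    · congr 1; ext; simp
    · congr 1; ext; simp
  rw [e1]
  refine Finset.prod_congr rfl fun A _ => ?_
  by_cases hA : Atom c s r A
  · simp only [hA, if_true, id]
    by_cases hX : A ∈ 𝒳
    · simp only [hX, if_true]
      refine Finset.prod_congr rfl fun t ht => ?_
      have : t ∈ (𝒳.filter (Atom c s r)).biUnion id :=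
        mem_biUnion.2 ⟨A, mem_filter.2 ⟨hX, hA⟩, ht⟩
      simp only [sw, this, if_true]
    · simp only [hX, if_false]
      refine Finset.prod_congr rfl fun t ht => ?_
      have : t ∉ (𝒳.filter (Atom c s r)).biUnion id := by
        intro h
        obtain ⟨B, hB, htB⟩ := mem_biUnion.1 h
        rw [mem_filter] at hB
        exact hX (atom_eq_of_mem hs.1 hA hB.2 ht htB ▸ hB.1)
      simp only [sw, this, if_false]
  · simp [hA]

theorem sum_abs_le (w : Fin 3 → ℝ) {a b : Fin 3} (h : a ≠ b) : |w a| + |w b| ≤ ∑ k, |w k| := by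
  have := Finset.sum_le_sum_of_subset_of_nonneg (f := fun k => |w k|)
    (subset_univ ({a, b} : Finset (Fin 3))) (fun _ _ _ => abs_nonneg _)
  rwa [Finset.sum_pair h] at this

theorem sum_pos' [Fintype T] (c : T → Fin 3 → V) (R : Set V) (ω : T → Fin 3 → ℤ)
    (hD : DiskProp c R ω) (hne : (sumPairs c R).Nonempty) :
    ∃ θ : ℝ, 0 < ∑ x ∈ sumPairs c R, Real.cos (sumAng ω θ x) := by
  classical
  set M : ℝ := ∑ t, ∑ k, |(ω t k : ℝ)| with hM
  have hM0 : 0 ≤ M := Finset.sum_nonneg fun _ _ => Finset.sum_nonneg fun _ _ => abs_nonneg _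
  set θ : ℝ := 1 / (1 + M) with hθ
  have hθ0 : 0 < θ := by positivity
  have hθM : θ * M ≤ 1 := by
    rw [hθ, one_div, inv_mul_le_iff₀ (by positivity)]; linarith
  have hbound : ∀ (A : Finset T) (r s : T → Fin 3), (∀ t, r t ≠ s t) →
      ∑ t ∈ A, (|(ω t (r t) : ℝ)| + |(ω t (s t) : ℝ)|) ≤ M := by
    intro A r s h
    calc _ ≤ ∑ t ∈ A, ∑ k, |(ω t k : ℝ)| :=
          Finset.sum_le_sum fun t _ => sum_abs_le (fun k => (ω t k : ℝ)) (h t)
      _ ≤ M := Finset.sum_le_sum_of_subset_of_nonneg (subset_univ _)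
          fun _ _ _ => Finset.sum_nonneg fun _ _ => abs_nonneg _
  refine ⟨θ, ?_⟩
  let ψ : T → Fin 3 → Fin 3 → ℝ := fun t a b =>
    Real.pi / 2 * eta a b - θ / 2 * ((ω t a : ℝ) - ω t b)
  let E : T → Fin 3 → Fin 3 → ℂ := fun t a b => Complex.exp ((ψ t a b : ℝ) * Complex.I)
  let ph : (T → Fin 3) × (T → Fin 3) → ℝ := fun x =>
    -(θ / 2) * ∑ t, ((ω t (x.1 t) : ℝ) + ω t (x.2 t))
  have hang : ∀ x, sumAng ω θ x = ph x + ∑ t, ψ t (x.1 t) (x.2 t) := by
    intro x
    simp only [sumAng, ph, ψ, Finset.mul_sum, ← Finset.sum_add_distrib]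
    exact Finset.sum_congr rfl fun t _ => by ring
  have hE : ∀ (A : Finset T) (r s : T → Fin 3), ∏ t ∈ A, E t (r t) (s t) =
      Complex.exp ((∑ t ∈ A, ψ t (r t) (s t) : ℝ) * Complex.I) := by
    intro A r s
    simp only [E]
    rw [← Complex.exp_sum, ← Finset.sum_mul]
    push_cast; rfl
  have hcos : ∀ x, Real.cos (sumAng ω θ x) =
      (Complex.exp ((ph x : ℝ) * Complex.I) * ∏ t, E t (x.1 t) (x.2 t)).re := by
    intro x
    rw [hE, ← Complex.exp_add, ← add_mul, ← Complex.ofReal_add, ← hang,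
      Complex.exp_ofReal_mul_I_re]
  let U : Finset (Finset T) → (T → Fin 3) × (T → Fin 3) → Finset T := fun 𝒳 x =>
    (𝒳.filter (Atom c x.2 x.1)).biUnion id
  let φ : Finset (Finset T) → (T → Fin 3) × (T → Fin 3) → (T → Fin 3) × (T → Fin 3) :=
    fun 𝒳 x => (sw (U 𝒳 x) x.1 x.2, sw (U 𝒳 x) x.2 x.1)
  have hU : ∀ 𝒳 x, Closed c x.2 x.1 (U 𝒳 x) := fun 𝒳 x =>
    sum_union_closed _ fun A hA => (mem_filter.1 hA).2.2.1
  have hmem : ∀ 𝒳, ∀ x ∈ sumPairs c R, φ 𝒳 x ∈ sumPairs c R := by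
    intro 𝒳 x hx
    rw [mem_sumPairs] at hx ⊢
    refine ⟨sw_state hx.1 (hU 𝒳 x).sum_symm, sw_state hx.2.1 (hU 𝒳 x), fun t => ?_⟩
    by_cases ht : t ∈ U 𝒳 x
    · simp only [φ, sw, ht, if_true]; exact (hx.2.2 t).symm
    · simp only [φ, sw, ht, if_false]; exact hx.2.2 t
  have hinv : ∀ 𝒳, ∀ x ∈ sumPairs c R, φ 𝒳 (φ 𝒳 x) = x := by
    intro 𝒳 x hx
    rw [mem_sumPairs] at hx
    have h1 : U 𝒳 (φ 𝒳 x) = U 𝒳 x := by
      show (𝒳.filter (Atom c (sw (U 𝒳 x) x.2 x.1) (sw (U 𝒳 x) x.1 x.2))).biUnion id = _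
      congr 1
      ext A
      simp only [mem_filter, sw_atom_eq hx.2.1.1 (hU 𝒳 x)]
    refine Prod.ext ?_ ?_
    · show sw (U 𝒳 (φ 𝒳 x)) (sw (U 𝒳 x) x.1 x.2) (sw (U 𝒳 x) x.2 x.1) = x.1
      rw [h1, sw_sw]
    · show sw (U 𝒳 (φ 𝒳 x)) (sw (U 𝒳 x) x.2 x.1) (sw (U 𝒳 x) x.1 x.2) = x.2
      rw [h1, sw_sw]
  have hph : ∀ 𝒳 x, ph (φ 𝒳 x) = ph x := by
    intro 𝒳 x
    simp only [ph]
    congr 1
    refine Finset.sum_congr rfl fun t _ => ?_
    by_cases ht : t ∈ U 𝒳 x
    · simp only [φ, sw, ht, if_true]; ring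
    · simp only [φ, sw, ht, if_false]
  have key : ∀ x ∈ sumPairs c R, 0 < ∑ 𝒳 ∈ (univ : Finset (Finset T)).powerset,
      Real.cos (sumAng ω θ (φ 𝒳 x)) := by
    intro x hx
    rw [mem_sumPairs] at hx
    have hfac : ∀ A : Finset T, ∃ ρ : ℝ, 0 < ρ ∧
        ((if Atom c x.2 x.1 A then ∏ t ∈ A, E t (x.2 t) (x.1 t) else 1) +
        (if Atom c x.2 x.1 A then ∏ t ∈ A, E t (x.1 t) (x.2 t) else 1)) = (ρ : ℂ) := by
      intro A
      by_cases hA : Atom c x.2 x.1 A
      · simp only [hA, if_true]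
        obtain ⟨lam, N, hlam, hN, h1, h2⟩ := hD x.2 x.1 A hx.2.1 hx.2.2 hA
        have h1' : ∑ t ∈ A, ((eta (x.1 t) (x.2 t) : ℤ) : ℝ) = -3 * lam := by exact_mod_cast h1
        have h2' : ∑ t ∈ A, ((ω t (x.2 t) : ℝ) - ω t (x.1 t)) = -lam * N := by exact_mod_cast h2
        have hN' : (0 : ℝ) < N := by exact_mod_cast hN
        have hNM : (N : ℝ) ≤ M := by
          refine le_trans ?_ (hbound A x.2 x.1 fun t => (hx.2.2 t).symm)
          have h3 : |∑ t ∈ A, ((ω t (x.2 t) : ℝ) - ω t (x.1 t))| = N := by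
            rw [h2']
            rcases hlam with rfl | rfl <;> simp [abs_of_pos hN']
          rw [← h3]
          exact (Finset.abs_sum_le_sum_abs _ _).trans
            (Finset.sum_le_sum fun t _ => abs_sub _ _)
        have h3 : ∑ t ∈ A, ψ t (x.1 t) (x.2 t) = -lam * (3 * Real.pi / 2 + θ * N / 2) := by
          have : ∑ t ∈ A, ψ t (x.1 t) (x.2 t) =
              Real.pi / 2 * ∑ t ∈ A, ((eta (x.1 t) (x.2 t) : ℤ) : ℝ) +
                θ / 2 * ∑ t ∈ A, ((ω t (x.2 t) : ℝ) - ω t (x.1 t)) := by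
            simp only [ψ, Finset.mul_sum, ← Finset.sum_add_distrib]
            exact Finset.sum_congr rfl fun t _ => by ring
          rw [this, h1', h2']; ring
        have h4 : ∑ t ∈ A, ψ t (x.2 t) (x.1 t) = - ∑ t ∈ A, ψ t (x.1 t) (x.2 t) := by
          rw [← Finset.sum_neg_distrib]
          refine Finset.sum_congr rfl fun t _ => ?_
          simp only [ψ, sum_eta_swap (hx.2.2 t)]
          push_cast; ring
        refine ⟨2 * Real.sin (θ * N / 2), ?_, ?_⟩
        · have h5 : θ * N ≤ 1 := le_trans (mul_le_mul_of_nonneg_left hNM hθ0.le) hθM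
          have := Real.sin_pos_of_pos_of_lt_pi (x := θ * N / 2) (by positivity)
            (by linarith [Real.pi_gt_three])
          positivity
        · rw [hE, hE, h4]
          have h6 : Real.cos (∑ t ∈ A, ψ t (x.1 t) (x.2 t)) = Real.sin (θ * N / 2) := by
            have h7 : Real.cos (3 * Real.pi / 2 + θ * N / 2) = Real.sin (θ * N / 2) := by
              have : 3 * Real.pi / 2 + θ * N / 2 = (θ * N / 2 - Real.pi / 2) + 2 * Real.pi := by
                ring
              rw [this, Real.cos_add_two_pi, Real.cos_sub_pi_div_two]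
            rw [h3]
            rcases hlam with rfl | rfl
            · rw [← h7, ← Real.cos_neg]; congr 1; push_cast; ring
            · rw [← h7]; congr 1; push_cast; ring
          rw [← h6]
          generalize ∑ t ∈ A, ψ t (x.1 t) (x.2 t) = y
          push_cast
          rw [Complex.two_cos]; ring_nf
      · exact ⟨2, by norm_num, by simp only [hA, if_false]; norm_num⟩
    choose ρ hρ0 hρ using hfac
    simp only [hcos, hph]
    rw [← Complex.re_sum, ← Finset.mul_sum]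
    have h8 := sum_prod_flip hx.1 hx.2.1 E
    have h9 : ∑ 𝒳 ∈ (univ : Finset (Finset T)).powerset,
        ∏ t, E t ((φ 𝒳 x).1 t) ((φ 𝒳 x).2 t) = ((∏ A, ρ A : ℝ) : ℂ) := by
      push_cast
      rw [← Finset.prod_congr rfl fun A _ => hρ A]
      convert h8
    rw [h9, Complex.re_mul_ofReal, Complex.exp_ofReal_mul_I_re]
    refine mul_pos (Real.cos_pos_of_mem_Ioo ?_) (Finset.prod_pos fun A _ => hρ0 A)
    have h10 : |∑ t, ((ω t (x.1 t) : ℝ) + ω t (x.2 t))| ≤ M :=
      ((Finset.abs_sum_le_sum_abs _ _).trans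
        (Finset.sum_le_sum fun t _ => abs_add_le _ _)).trans (hbound univ x.1 x.2 hx.2.2)
    have h11 : |ph x| ≤ 1 / 2 := by
      simp only [ph, abs_mul, abs_neg, abs_of_pos (half_pos hθ0)]
      nlinarith [mul_le_mul_of_nonneg_left h10 hθ0.le]
    rw [abs_le] at h11
    constructor <;> linarith [Real.pi_gt_three]
  have h1 := Finset.sum_pos key hne
  rw [Finset.sum_comm] at h1
  rw [Finset.sum_congr rfl fun 𝒳 _ =>
    sum_invol (sumPairs c R) (φ 𝒳) (hmem 𝒳) (hinv 𝒳) (fun x => Real.cos (sumAng ω θ x)),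
    Finset.sum_const, nsmul_eq_mul] at h1
  exact pos_of_mul_pos_right h1 (Nat.cast_nonneg _)

end main

theorem main_sum [Fintype T] (c : T → Fin 3 → V) (R : Set V) (ω : T → Fin 3 → ℤ)
    (hD : DiskProp c R ω) (r₀ s₀ : T → Fin 3) (hr₀ : State c R r₀) (hs₀ : State c R s₀)
    (h₀ : ∀ t, r₀ t ≠ s₀ t) :
    ∃ r s, State c R r ∧ State c R s ∧ (∀ t, r t ≠ s t) ∧
      ∀ A, ¬ Atom c s (fun t => third (r t) (s t)) A := by
  by_contra hcon
  push Not at hcon
  obtain ⟨θ, hθ⟩ := sum_pos' c R ω hD ⟨(r₀, s₀), mem_sumPairs.2 ⟨hr₀, hs₀, h₀⟩⟩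
  rw [sum_zero c R ω hD θ hcon] at hθ
  exact lt_irrefl _ hθ

end Vale.Agent.P039
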