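import Vale.Agent.P039.Acyc
import Vale.Agent.P039.Flow
import Vale.Agent.P039.HallIneq
import Vale.Agent.P039.HallPair
import Vale.Agent.P039.Sum

namespace Vale.Agent.P039

universe u

open Finset

namespace PMap

variable {E X V : Type u} [Fintype E] [Fintype X] [Fintype V] (M : PMap E X V)

theorem core (e₀ : E) (hnb : M.NoBad (M.bl e₀)) : ∃ Mt : Set E, e₀ ∈ Mt ∧ M.Ham Mt := by
  classical
  have hb := M.col_bl e₀
  set b₀ := M.bl e₀ with hb₀
  obtain ⟨ω, hω⟩ := M.exists_diskProp b₀ hb
  have hR : ((univ.image (M.cor b₀) : Finset V) : Set V) = M.roots b₀ := by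
    simp [roots]
  have hRc : (univ.image (M.cor b₀)).card = 3 := by
    rw [Finset.card_image_of_injective _ (M.cor_inj b₀)]
    simp
  have hT : Fintype.card (M.Inner b₀) + 1 = (univ.filter fun x => M.col x = true).card := by
    rw [Fintype.card_subtype]
    have : (univ.filter fun x => M.col x = true ∧ x ≠ b₀) =
        (univ.filter fun x => M.col x = true).erase b₀ := by
      ext x; simp [and_comm]
    rw [this, Finset.card_erase_add_one (by simp [hb])]
  have : Nonempty X := ⟨b₀⟩
  have h1 := M.euler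
  have h2 := M.card_E
  have h3 := M.card_X
  obtain ⟨r₀, s₀, hr₀, hs₀, h₀⟩ := pair_of_ineq (M.icor b₀) (fun t => M.cor_inj t.1)
    (univ.image (M.cor b₀)) (by omega) (fun Z hZ => by
      rw [hRc]
      exact M.hall_ineq b₀ hb hnb Z (fun i => hZ (mem_image_of_mem _ (mem_univ i))))
  rw [hR] at hr₀ hs₀
  obtain ⟨r, s, hr, hs, hrs, hac⟩ := main_sum _ _ ω hω r₀ s₀ hr₀ hs₀ h₀
  exact M.ham_of_acyclic e₀ r s hr hs hrs hac

end PMap

end Vale.Agent.P039
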