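import Mathlib

namespace Vale.Agent.P039

universe u

/-- Reversal of darts (oriented edges), as a permutation of the darts of `G`. -/
def dartRev {V : Type u} (G : SimpleGraph V) : Equiv.Perm G.Dart :=
  Function.Involutive.toPerm SimpleGraph.Dart.symm SimpleGraph.Dart.symm_involutive

/-- A rotation system: a permutation of the darts whose cycles are exactly the sets of darts
leaving a common vertex (a cyclic order of the edges around every vertex). -/
def IsRotationSystem {V : Type u} (G : SimpleGraph V) (ρ : Equiv.Perm G.Dart) : Prop :=
  (∀ d : G.Dart, (ρ d).fst = d.fst) ∧ ∀ d d' : G.Dart, d.fst = d'.fst → ρ.SameCycle d d'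

/-- The number of faces of the embedding given by a rotation system: the number of orbits
of the face-tracing permutation `d ↦ ρ (reverse d)`. -/
noncomputable def faceCount {V : Type u} (G : SimpleGraph V) (ρ : Equiv.Perm G.Dart) : ℕ :=
  Nat.card (Quotient (Equiv.Perm.SameCycle.setoid (ρ * dartRev G)))

/-- Planarity of a finite graph: some rotation system has genus zero on every component, that is
Euler's relation `V - E + F = 2 * (number of components)` holds, an isolated vertex
contributing one face. -/
def IsPlanar {V : Type u} (G : SimpleGraph V) : Prop :=
  ∃ ρ : Equiv.Perm G.Dart, IsRotationSystem G ρ ∧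
    Nat.card V + (faceCount G ρ + Nat.card {v : V // ∀ w, ¬ G.Adj v w}) =
      Nat.card G.edgeSet + 2 * Nat.card G.ConnectedComponent

/-- 3-vertex-connectivity: at least four vertices, and deleting at most two vertices leaves a
connected graph. -/
def ThreeConnected {V : Type u} (G : SimpleGraph V) : Prop :=
  4 ≤ Nat.card V ∧ ∀ S : Finset V, S.card ≤ 2 → (G.induce ((S : Set V)ᶜ)).Connected

end Vale.Agent.P039
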