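import Mathlib

namespace Vale.Agent.P039

universe u

open Finset

variable {T V : Type u}

/-- A state: a bijection from the inner black triangles onto the non-root vertices, each
triangle going to one of its corners. -/
def State (c : T → Fin 3 → V) (R : Set V) (s : T → Fin 3) : Prop :=
  Function.Injective (fun t => c t (s t)) ∧ ∀ v, v ∉ R ↔ ∃ t, c t (s t) = v

/-- `A` is a union of cycles of the arcs `g t → s t`. -/
def Closed (c : T → Fin 3 → V) (s g : T → Fin 3) (A : Finset T) : Prop :=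
  (fun t => c t (g t)) '' (A : Set T) = (fun t => c t (s t)) '' (A : Set T)

/-- `A` is a single cycle of the arcs `g t → s t`. -/
def Atom (c : T → Fin 3 → V) (s g : T → Fin 3) (A : Finset T) : Prop :=
  A.Nonempty ∧ Closed c s g A ∧ ∀ A' ⊆ A, A'.Nonempty → Closed c s g A' → A' = A

def eta (a b : Fin 3) : ℤ := if b = a + 1 then 1 else -1

def third (a b : Fin 3) : Fin 3 := -(a + b)

/-- What the disk lemma gives for every cycle. -/
def DiskProp (c : T → Fin 3 → V) (R : Set V) (ω : T → Fin 3 → ℤ) : Prop :=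
  ∀ s g A, State c R s → (∀ t, g t ≠ s t) → Atom c s g A →
    ∃ lam N : ℤ, (lam = 1 ∨ lam = -1) ∧ 0 < N ∧ ∑ t ∈ A, eta (g t) (s t) = -3 * lam ∧
      ∑ t ∈ A, (ω t (s t) - ω t (g t)) = -lam * N

theorem Closed.injOn {c : T → Fin 3 → V} {s g : T → Fin 3} {A : Finset T}
    (hs : Function.Injective (fun t => c t (s t))) (h : Closed c s g A) :
    Set.InjOn (fun t => c t (g t)) (A : Set T) := by
  classical
  rw [← Finset.card_image_iff]
  have h1 : A.image (fun t => c t (g t)) = A.image (fun t => c t (s t)) := by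
    apply Finset.coe_injective
    rw [coe_image, coe_image]
    exact h
  rw [h1, Finset.card_image_of_injective _ hs]

theorem closed_of_sub {c : T → Fin 3 → V} {s g : T → Fin 3} {Y : Finset T}
    (hs : Function.Injective (fun t => c t (s t)))
    (h : ∀ t ∈ Y, ∃ t' ∈ Y, c t (s t) = c t' (g t')) : Closed c s g Y := by
  classical
  have h1 : Y.image (fun t => c t (s t)) = Y.image (fun t => c t (g t)) := by
    apply Finset.eq_of_subset_of_card_le
    · intro v hv
      obtain ⟨t, ht, rfl⟩ := mem_image.1 hv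
      obtain ⟨t', ht', h'⟩ := h t ht
      exact mem_image.2 ⟨t', ht', h'.symm⟩
    · rw [Finset.card_image_of_injective _ hs]
      exact Finset.card_image_le
  unfold Closed
  rw [← coe_image, ← coe_image, h1]

theorem Atom.eq_of_sub {c : T → Fin 3 → V} {s g : T → Fin 3} {A Y : Finset T}
    (hs : Function.Injective (fun t => c t (s t))) (hA : Atom c s g A) (hY : Y ⊆ A)
    (hne : Y.Nonempty) (h : ∀ t ∈ Y, ∃ t' ∈ Y, c t (s t) = c t' (g t')) : Y = A :=
  hA.2.2 Y hY hne (closed_of_sub hs h)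

theorem exists_atom_of_closed {c : T → Fin 3 → V} {s g : T → Fin 3} (Y : Finset T)
    (hne : Y.Nonempty) (h : Closed c s g Y) : ∃ A ⊆ Y, Atom c s g A := by
  classical
  induction Y using Finset.strongInduction with
  | H Y ih =>
    by_cases hY : ∀ A' ⊆ Y, A'.Nonempty → Closed c s g A' → A' = Y
    · exact ⟨Y, Subset.rfl, hne, h, hY⟩
    · push Not at hY
      obtain ⟨A', h1, h2, h3, h4⟩ := hY
      obtain ⟨A, h5, h6⟩ := ih A' (Finset.ssubset_iff_subset_ne.2 ⟨h1, h4⟩) h2 h3
      exact ⟨A, h5.trans h1, h6⟩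

/-- A nonempty forward closed set contains a cycle. -/
theorem exists_atom {c : T → Fin 3 → V} {s g : T → Fin 3}
    (hs : Function.Injective (fun t => c t (s t))) (Y : Finset T) (hne : Y.Nonempty)
    (h : ∀ t ∈ Y, ∃ t' ∈ Y, c t (g t) = c t' (s t')) : ∃ A ⊆ Y, Atom c s g A := by
  classical
  induction Y using Finset.strongInduction with
  | H Y ih =>
    by_cases hY : ∀ t ∈ Y, ∃ t' ∈ Y, c t (s t) = c t' (g t')
    · exact exists_atom_of_closed Y hne (closed_of_sub hs hY)
    · push Not at hY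
      obtain ⟨t₀, ht₀, h0⟩ := hY
      have hsub : ∀ t ∈ Y, ∃ t' ∈ Y.erase t₀, c t (g t) = c t' (s t') := by
        intro t ht
        obtain ⟨t', ht', h'⟩ := h t ht
        refine ⟨t', mem_erase.2 ⟨?_, ht'⟩, h'⟩
        rintro rfl
        exact h0 t ht h'.symm
      obtain ⟨t₁, ht₁, -⟩ := hsub t₀ ht₀
      obtain ⟨A, h5, h6⟩ := ih (Y.erase t₀) (Finset.erase_ssubset ht₀) ⟨t₁, ht₁⟩
        (fun t ht => hsub t (mem_of_mem_erase ht))
      exact ⟨A, h5.trans (erase_subset _ _), h6⟩

end Vale.Agent.P039
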