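import Vale.Agent.P039.Map
import Vale.Agent.P039.States

namespace Vale.Agent.P039

universe u

open Finset

theorem third_cases (g s : Fin 3) (h : g ≠ s) :
    (third g s + 1 = g ∧ third g s + 2 = s ∧ eta g s = 1) ∨
      (third g s + 1 = s ∧ third g s + 2 = g ∧ eta g s = -1) := by
  revert g s
  decide

namespace PMap

variable {E X V : Type u} [Fintype E] [Fintype X] [DecidableEq X] (M : PMap E X V)

omit [Fintype X] [DecidableEq X] in
theorem hd_sub_tl {A : Type*} [CommRing A] (f : V → A) (x : X) (g s : Fin 3) (h : g ≠ s) :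
    f (M.hd (M.ed x (third g s))) - f (M.tl (M.ed x (third g s))) =
      (eta g s : A) * (f (M.cor x s) - f (M.cor x g)) := by
  rw [M.hd_ed, M.tl_ed]
  rcases third_cases g s h with ⟨h1, h2, h3⟩ | ⟨h1, h2, h3⟩
  · rw [h1, h2, h3]; simp
  · rw [h1, h2, h3]; simp

omit [Fintype X] [DecidableEq X] in
theorem sum_cyc (b₀ : X) (k : M.Inner b₀ → Fin 3) (A : Finset (M.Inner b₀)) {B : Type*}
    [AddCommMonoid B] (y : E → B) (hy : ∀ e, (¬ ∃ t ∈ A, M.ed t.1 (k t) = e) → y e = 0) :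
    ∑ e, y e = ∑ t ∈ A, y (M.ed t.1 (k t)) := by
  classical
  rw [← Finset.sum_image (s := A) (g := fun t => M.ed t.1 (k t)) (f := y)]
  · symm
    apply Finset.sum_subset (subset_univ _)
    intro e _ he
    exact hy e (by simpa using he)
  · intro t _ t' _ h
    apply Subtype.ext
    have := congrArg M.bl h
    simpa only [M.bl_ed t.2.1, M.bl_ed t'.2.1] using this

theorem eta_sq (a b : Fin 3) : eta a b * eta a b = 1 := by
  unfold eta
  split_ifs <;> simp

omit [DecidableEq X] in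
/-- A boundary supported on a cycle is a multiple of the cycle. -/
theorem rigid (b₀ : X) (s g : M.Inner b₀ → Fin 3) (A : Finset (M.Inner b₀))
    (hs : Function.Injective (fun t => M.icor b₀ t (s t))) (hg : ∀ t, g t ≠ s t)
    (hA : Atom (M.icor b₀) s g A) (φ : X → ℤ)
    (hφ : ∀ e, (¬ ∃ t ∈ A, M.ed t.1 (third (g t) (s t)) = e) → φ (M.bl e) = φ (M.wh e)) :
    ∃ lam : ℤ, ∀ t ∈ A,
      φ t.1 - φ (M.wh (M.ed t.1 (third (g t) (s t)))) = lam * eta (g t) (s t) := by
  classical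
  obtain ⟨μ, hμ⟩ : ∃ μ : M.Inner b₀ → ℤ, μ = fun t =>
      (φ t.1 - φ (M.wh (M.ed t.1 (third (g t) (s t))))) * eta (g t) (s t) := ⟨_, rfl⟩
  have key : ∀ f : V → ℤ,
      ∑ t ∈ A, μ t * f (M.icor b₀ t (s t)) = ∑ t ∈ A, μ t * f (M.icor b₀ t (g t)) := by
    intro f
    have h1 := M.bdry_closed φ f
    rw [M.sum_cyc b₀ (fun t => third (g t) (s t)) A _ (fun e he => by simp [hφ e he])] at h1
    rw [← sub_eq_zero, ← Finset.sum_sub_distrib, ← h1]
    refine Finset.sum_congr rfl fun t _ => ?_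
    rw [M.hd_sub_tl f t.1 _ _ (hg t), M.bl_ed t.2.1, hμ]
    simp only [icor, Int.cast_id]
    ring
  have step : ∀ t ∈ A, ∃ t' ∈ A, M.icor b₀ t (s t) = M.icor b₀ t' (g t') ∧ μ t = μ t' := by
    intro t ht
    have h1 : M.icor b₀ t (s t) ∈ (fun t => M.icor b₀ t (g t)) '' (A : Set _) := by
      rw [hA.2.1]
      exact ⟨t, ht, rfl⟩
    obtain ⟨t', ht', h2⟩ := h1
    refine ⟨t', ht', h2.symm, ?_⟩
    have h3 := key (fun v => if v = M.icor b₀ t (s t) then 1 else 0)
    rw [Finset.sum_eq_single t, Finset.sum_eq_single t'] at h3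
    · simp only at h2
      simpa [h2] using h3
    · intro b hb hbt
      have : M.icor b₀ b (g b) ≠ M.icor b₀ t (s t) := fun h =>
        hbt (hA.2.1.injOn hs hb ht' (h.trans h2.symm))
      simp [this]
    · intro h; exact absurd ht' h
    · intro b _ hbt
      have : M.icor b₀ b (s b) ≠ M.icor b₀ t (s t) := fun h => hbt (hs h)
      simp [this]
    · intro h; exact absurd ht h
  obtain ⟨t₀, ht₀⟩ := hA.1
  have hY := hA.eq_of_sub hs (Y := A.filter fun t => μ t = μ t₀) (filter_subset _ _)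
    ⟨t₀, by simp [ht₀]⟩ (by
      intro t ht
      obtain ⟨h1, h2⟩ := mem_filter.1 ht
      obtain ⟨t', ht', h3, h4⟩ := step t h1
      exact ⟨t', mem_filter.2 ⟨ht', h4 ▸ h2⟩, h3⟩)
  refine ⟨μ t₀, fun t ht => ?_⟩
  rw [← hY] at ht
  rw [← (mem_filter.1 ht).2, hμ]
  simp only
  rw [mul_assoc, eta_sq, mul_one]

/-- The side of a cycle not containing the root triangle. -/
theorem exists_side (b₀ : X) (s g : M.Inner b₀ → Fin 3) (A : Finset (M.Inner b₀))
    (hs : Function.Injective (fun t => M.icor b₀ t (s t))) (hg : ∀ t, g t ≠ s t)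
    (hA : Atom (M.icor b₀) s g A) :
    ∃ (S : Finset X) (lam : ℤ), (lam = 1 ∨ lam = -1) ∧ b₀ ∉ S ∧
      (∀ e, ¬ (M.bl e ∈ S ↔ M.wh e ∈ S) ↔ ∃ t ∈ A, M.ed t.1 (third (g t) (s t)) = e) ∧
      (∀ t ∈ A, eta (g t) (s t) = if t.1 ∈ S then lam else -lam) := by
  classical
  obtain ⟨φ, hφ⟩ := M.exact
    (fun e => if ∃ t ∈ A, M.ed t.1 (third (g t) (s t)) = e then 1 else 0) (by
      intro f
      rw [M.sum_cyc b₀ (fun t => third (g t) (s t)) A _ (fun e he => by simp only [he]; simp)]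
      have h1 : ∑ t ∈ A, f (M.icor b₀ t (s t)) = ∑ t ∈ A, f (M.icor b₀ t (g t)) := by
        rw [← Finset.sum_image (s := A) (g := fun t => M.icor b₀ t (s t)) (f := f) hs.injOn,
          ← Finset.sum_image (s := A) (g := fun t => M.icor b₀ t (g t)) (f := f)
            (hA.2.1.injOn hs)]
        congr 1
        apply Finset.coe_injective
        rw [coe_image, coe_image]
        exact hA.2.1.symm
      have h2 : ∑ t ∈ A, (f (M.icor b₀ t (s t)) + f (M.icor b₀ t (g t))) = 0 := by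
        rw [Finset.sum_add_distrib, h1, CharTwo.add_self_eq_zero]
      refine Eq.trans (Finset.sum_congr rfl fun t ht => ?_) h2
      rw [if_pos ⟨t, ht, rfl⟩, one_mul, M.hd_ed, M.tl_ed]
      rcases third_cases _ _ (hg t) with ⟨h1, h2, -⟩ | ⟨h1, h2, -⟩
      · rw [h1, h2]; rfl
      · rw [h1, h2, add_comm]; rfl)
  have hS : ∀ e, ¬ (M.bl e ∈ univ.filter (fun x => φ x ≠ φ b₀) ↔
      M.wh e ∈ univ.filter (fun x => φ x ≠ φ b₀)) ↔
      ∃ t ∈ A, M.ed t.1 (third (g t) (s t)) = e := by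
    intro e
    have h1 := hφ e
    simp only [mem_filter, mem_univ, true_and]
    have h2 : ∀ a b c : ZMod 2, (¬ (a ≠ c ↔ b ≠ c)) ↔ 1 = a + b := by decide
    rw [h2, ← h1]
    by_cases h : ∃ t ∈ A, M.ed t.1 (third (g t) (s t)) = e
    · simp only [h]; simp
    · simp only [h]; simp
  generalize hSd : univ.filter (fun x => φ x ≠ φ b₀) = S at hS
  have hb : b₀ ∉ S := by rw [← hSd]; simp
  obtain ⟨lam, hlam⟩ := M.rigid b₀ s g A hs hg hA (fun x => if x ∈ S then 1 else 0) (by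
    intro e he
    have := (hS e).not.2 he
    rw [not_not] at this
    simp only [this])
  have h3 : ∀ t ∈ A, lam * eta (g t) (s t) = if t.1 ∈ S then 1 else -1 := by
    intro t ht
    have h4 := (hS _).2 ⟨t, ht, rfl⟩
    rw [M.bl_ed t.2.1] at h4
    rw [← hlam t ht]
    by_cases h5 : t.1 ∈ S
    · have : M.wh (M.ed t.1 (third (g t) (s t))) ∉ S := by tauto
      simp [h5, this]
    · have : M.wh (M.ed t.1 (third (g t) (s t))) ∈ S := by tauto
      simp [h5, this]
  have h4 : ∀ a b, eta a b = 1 ∨ eta a b = -1 := by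
    intro a b
    unfold eta
    split_ifs <;> simp
  obtain ⟨t₀, ht₀⟩ := hA.1
  have h5 : lam = 1 ∨ lam = -1 := by
    have := h3 t₀ ht₀
    rcases h4 (g t₀) (s t₀) with h | h <;> rw [h] at this <;> split_ifs at this <;> omega
  refine ⟨S, lam, h5, hb, hS, fun t ht => ?_⟩
  have := h3 t ht
  rcases h5 with h | h <;> rw [h] at this ⊢ <;> split_ifs at this ⊢ <;> omega

/-- Each side of a cycle is connected. -/
theorem side_conn (b₀ : X) (s g : M.Inner b₀ → Fin 3) (A : Finset (M.Inner b₀))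
    (hs : Function.Injective (fun t => M.icor b₀ t (s t))) (hg : ∀ t, g t ≠ s t)
    (hA : Atom (M.icor b₀) s g A) (S : Finset X)
    (hS : ∀ e, ¬ (M.bl e ∈ S ↔ M.wh e ∈ S) ↔ ∃ t ∈ A, M.ed t.1 (third (g t) (s t)) = e)
    (K : Set X) (hK : ∀ e, M.bl e ∉ S → M.wh e ∉ S → (M.bl e ∈ K ↔ M.wh e ∈ K))
    (x y : X) (hx : x ∉ S) (hy : y ∉ S) (hxK : x ∈ K) : y ∈ K := by
  classical
  have h0 : ∀ e, (¬ ∃ t ∈ A, M.ed t.1 (third (g t) (s t)) = e) →
      ((M.bl e ∈ K ∧ M.bl e ∉ S) ↔ (M.wh e ∈ K ∧ M.wh e ∉ S)) ∧ (M.bl e ∈ S ↔ M.wh e ∈ S) := by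
    intro e he
    have := (hS e).not.2 he
    rw [not_not] at this
    have h1 := hK e
    tauto
  obtain ⟨lam, hlam⟩ := M.rigid b₀ s g A hs hg hA
    (fun z => if z ∈ K ∧ z ∉ S then 1 else 0) (fun e he => by simp only [(h0 e he).1])
  by_cases h : lam = 0
  · refine (M.conn {z | z ∈ K ∧ z ∉ S} (fun e => ?_) x y ⟨hxK, hx⟩).1
    by_cases he : ∃ t ∈ A, M.ed t.1 (third (g t) (s t)) = e
    · obtain ⟨t, ht, rfl⟩ := he
      have := hlam t ht
      rw [h, zero_mul] at this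
      rw [M.bl_ed t.2.1]
      simp only [Set.mem_ofPred_eq]
      split_ifs at this <;> first | omega | tauto
    · exact (h0 e he).1
  · have := M.conn {z | (z ∈ K ∧ z ∉ S) ↔ z ∉ S} (fun e => ?_) x y (by simp [hx, hxK])
    · simp only [Set.mem_ofPred_eq] at this
      exact (this.2 hy).1
    by_cases he : ∃ t ∈ A, M.ed t.1 (third (g t) (s t)) = e
    · have h1 := (hS e).2 he
      obtain ⟨t, ht, rfl⟩ := he
      have h2 := hlam t ht
      have h3 : lam * eta (g t) (s t) ≠ 0 := by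
        refine mul_ne_zero h fun h4 => ?_
        have := eta_sq (g t) (s t)
        rw [h4] at this
        omega
      rw [← h2] at h3
      rw [M.bl_ed t.2.1] at h1 ⊢
      simp only [Set.mem_ofPred_eq]
      split_ifs at h3 <;> first | omega | tauto
    · have := h0 e he
      simp only [Set.mem_ofPred_eq]
      tauto

end PMap

end Vale.Agent.P039
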