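import Vale.Agent.P039.Map

namespace Vale.Agent.P039

universe u

open Finset

theorem lin_card_le_rank {m n K : Type*} [Field K] [Fintype n] (B : Matrix m n K)
    (h : ∀ f, B.mulVec f = 0 → ∀ a b, f a = f b) : Fintype.card n ≤ B.rank + 1 := by
  classical
  have h1 := LinearMap.finrank_range_add_finrank_ker B.mulVecLin
  have h2 : LinearMap.ker B.mulVecLin ≤ Submodule.span K {fun _ => (1 : K)} := by
    intro f hf
    rw [LinearMap.mem_ker, Matrix.mulVecLin_apply] at hf
    rcases isEmpty_or_nonempty n with hn | ⟨⟨a⟩⟩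
    · have : f = 0 := funext fun x => hn.elim x
      rw [this]; exact Submodule.zero_mem _
    · rw [Submodule.mem_span_singleton]
      exact ⟨f a, funext fun b => by simp [h f hf a b]⟩
  have h3 := (Submodule.finrank_mono h2).trans (finrank_span_le_card ({fun _ => (1 : K)} : Set (n → K)))
  simp only [Set.toFinset_singleton, card_singleton] at h3
  rw [Module.finrank_fintype_fun_eq_card] at h1
  unfold Matrix.rank
  omega

theorem lin_two_eq {a b : ZMod 2} (h : a + b = 0) : a = b := by
  revert a b; decide

namespace PMap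

variable {E X V : Type u} [Fintype E] (M : PMap E X V)

/-- Euler inequality for a subgraph of the triangulation: at least `|D| - |Z| + 2` regions. -/
theorem regions_ge (D : Finset E) (Z : Finset V) (hZ : Z.Nonempty)
    (hD : ∀ e ∈ D, M.hd e ∈ Z ∧ M.tl e ∈ Z) {P : Type u} [Fintype P] (π : X → P)
    (hπ : ∀ S : Set X, (∀ e, e ∉ D → (M.bl e ∈ S ↔ M.wh e ∈ S)) →
      ∀ x y, π x = π y → x ∈ S → y ∈ S) :
    D.card + 2 ≤ Fintype.card P + Z.card := by
  classical
  let N : Matrix Z D (ZMod 2) := fun v e =>
    (if M.hd e = v then 1 else 0) + (if M.tl e = v then 1 else 0)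
  let A : Matrix D P (ZMod 2) := fun e p =>
    (if π (M.bl e) = p then 1 else 0) + (if π (M.wh e) = p then 1 else 0)
  have hA : ∀ (w : P → ZMod 2) (e : D), A.mulVec w e = w (π (M.bl e)) + w (π (M.wh e)) := by
    intro w e
    simp [A, Matrix.mulVec, dotProduct, add_mul, Finset.sum_add_distrib]
  have hN : ∀ (f : V → ZMod 2) (e : D), ∑ v : Z, f v * N v e = f (M.hd e) + f (M.tl e) := by
    intro f e
    simp only [N, mul_add, Finset.sum_add_distrib, mul_ite, mul_one, mul_zero]
    congr 1
    · rw [Finset.sum_coe_sort Z (fun v => if M.hd e = v then f v else 0)]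
      simp [(hD e e.2).1]
    · rw [Finset.sum_coe_sort Z (fun v => if M.tl e = v then f v else 0)]
      simp [(hD e e.2).2]
  have hN2 : ∀ (f : V → ZMod 2) (α : D → ZMod 2),
      ∑ v : Z, f v * N.mulVec α v = ∑ e : D, α e * (f (M.hd e) + f (M.tl e)) := by
    intro f α
    simp only [Matrix.mulVec, dotProduct, Finset.mul_sum]
    rw [Finset.sum_comm]
    refine Finset.sum_congr rfl fun e _ => ?_
    rw [← hN, Finset.mul_sum]
    exact Finset.sum_congr rfl fun v _ => by ring
  have h1 := LinearMap.finrank_range_add_finrank_ker N.mulVecLin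
  have h2 := LinearMap.finrank_range_add_finrank_ker A.mulVecLin
  rw [Module.finrank_fintype_fun_eq_card] at h1 h2
  have h3 : Module.finrank (ZMod 2) (LinearMap.range N.mulVecLin) < Z.card := by
    have : LinearMap.range N.mulVecLin ≠ ⊤ := by
      intro htop
      obtain ⟨v, hv⟩ := hZ
      have : (Pi.single ⟨v, hv⟩ 1 : Z → ZMod 2) ∈ LinearMap.range N.mulVecLin := by
        rw [htop]; trivial
      obtain ⟨α, hα⟩ := this
      have h5 := hN2 (fun _ => 1) α
      rw [Matrix.mulVecLin_apply] at hα
      rw [hα] at h5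
      simp [CharTwo.add_self_eq_zero] at h5
    have h6 := Submodule.finrank_lt this
    rwa [Module.finrank_fintype_fun_eq_card, Fintype.card_coe] at h6
  have h4 : 0 < Module.finrank (ZMod 2) (LinearMap.ker A.mulVecLin) := by
    rw [Module.finrank_pos_iff_exists_ne_zero]
    refine ⟨⟨fun _ => 1, ?_⟩, ?_⟩
    · rw [LinearMap.mem_ker, Matrix.mulVecLin_apply]
      funext e
      rw [hA]; rfl
    · intro h
      obtain ⟨v, -⟩ := hZ
      obtain ⟨e, -⟩ := M.surj v
      have := congrFun (congrArg Subtype.val h) (π (M.bl e))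
      simp at this
  have h5 : LinearMap.ker N.mulVecLin ≤ LinearMap.range A.mulVecLin := by
    intro α hα
    rw [LinearMap.mem_ker, Matrix.mulVecLin_apply] at hα
    obtain ⟨φ, hφ⟩ := M.exact (fun e => if h : e ∈ D then α ⟨e, h⟩ else 0) (by
      intro f
      have h6 := hN2 f α
      rw [hα] at h6
      simp only [Pi.zero_apply, mul_zero, sum_const_zero] at h6
      rw [← Finset.sum_subset (subset_univ D) (by intro e _ he; simp [he]),
        ← Finset.sum_coe_sort D, h6]
      exact Finset.sum_congr rfl fun e _ => by simp)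
    have hfac : Function.FactorsThrough φ π := by
      intro x y hxy
      refine (hπ {z | φ z = φ x} ?_ x y hxy rfl).symm
      intro e he
      have := hφ e
      simp only [he, dite_false] at this
      simp [lin_two_eq this.symm]
    refine ⟨Function.extend π φ 0, ?_⟩
    funext e
    rw [Matrix.mulVecLin_apply, hA, hfac.extend_apply, hfac.extend_apply, ← hφ]
    simp
  have h6 := Submodule.finrank_mono h5
  rw [Fintype.card_coe] at h1
  omega

theorem lin_sum_at [Fintype X] [DecidableEq X] {A : Type*} [CommRing A] (x : X) (y : E → A) :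
    ∑ e, ((if M.bl e = x then 1 else 0) + (if M.wh e = x then 1 else 0)) * y e =
      ∑ i, y (M.ed x i) := by
  simp only [add_mul, Finset.sum_add_distrib]
  rw [M.sum_mul_bl (fun z => if z = x then (1 : A) else 0) y,
    M.sum_mul_wh (fun z => if z = x then (1 : A) else 0) y]
  cases h : M.col x <;> simp [h]

theorem lin_upper [Fintype X] {V' : Type*} [Fintype V'] (hd' tl' : E → V')
    (hrot : ∀ x i, hd' (M.ed x i) = tl' (M.ed x (i + 1))) (hsurj : ∀ v, ∃ e, hd' e = v) :
    Fintype.card V' + Fintype.card X ≤ Fintype.card E + 2 := by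
  classical
  let A : Matrix X E (ZMod 2) := fun x e =>
    (if M.bl e = x then 1 else 0) + (if M.wh e = x then 1 else 0)
  let B : Matrix E V' (ZMod 2) := fun e v =>
    (if hd' e = v then 1 else 0) + (if tl' e = v then 1 else 0)
  have hAB : A * B = 0 := by
    ext x v
    rw [Matrix.mul_apply, Matrix.zero_apply]
    refine (M.lin_sum_at x (fun e => B e v)).trans ?_
    simp only [B, hrot, Fin.sum_univ_three]
    have h1 : (1 + 1 : Fin 3) = 2 := rfl
    have h2 : (2 + 1 : Fin 3) = 0 := rfl
    simp only [zero_add, h1, h2]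
    generalize (if tl' (M.ed x 0) = v then (1 : ZMod 2) else 0) = a
    generalize (if tl' (M.ed x 1) = v then (1 : ZMod 2) else 0) = b
    generalize (if tl' (M.ed x 2) = v then (1 : ZMod 2) else 0) = c
    revert a b c; decide
  have h1 := Matrix.rank_add_rank_le_card_of_mul_eq_zero hAB
  have h2 := lin_card_le_rank B (by
    intro f hf
    have h3 : ∀ e, f (hd' e) = f (tl' e) := by
      intro e
      have := congrFun hf e
      simp only [B, Matrix.mulVec, dotProduct, add_mul, Finset.sum_add_distrib, ite_mul, one_mul,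
        zero_mul, sum_ite_eq, mem_univ, if_true, Pi.zero_apply] at this
      exact lin_two_eq this
    have h4 : ∀ x i, f (hd' (M.ed x i)) = f (hd' (M.ed x 0)) := by
      intro x i
      have a0 : f (hd' (M.ed x 0)) = f (hd' (M.ed x 1)) := by rw [hrot, ← h3]; rfl
      have a1 : f (hd' (M.ed x 1)) = f (hd' (M.ed x 2)) := by rw [hrot, ← h3]; rfl
      fin_cases i
      · rfl
      · exact a0.symm
      · exact (a0.trans a1).symm
    have h5 : ∀ e, f (hd' e) = f (hd' (M.ed (M.bl e) 0)) := by
      intro e
      obtain ⟨i, hi⟩ := M.exists_ed_bl e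
      rw [← h4 _ i, hi]
    have h6 : ∀ e, f (hd' e) = f (hd' (M.ed (M.wh e) 0)) := by
      intro e
      obtain ⟨i, hi⟩ := M.exists_ed_wh e
      rw [← h4 _ i, hi]
    intro a b
    obtain ⟨e, rfl⟩ := hsurj a
    obtain ⟨e', rfl⟩ := hsurj b
    have := M.conn {x | f (hd' (M.ed x 0)) = f (hd' e)} (by
      intro e''
      simp only [Set.mem_ofPred_eq]
      rw [← h5, ← h6]) (M.bl e) (M.bl e') (h5 e).symm
    rw [h5 e']
    exact this.symm)
  have h3 := lin_card_le_rank A.transpose (by
    intro f hf
    have h3 : ∀ e, f (M.bl e) = f (M.wh e) := by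
      intro e
      have : ∑ x, A x e * f x = 0 := congrFun hf e
      simp only [A, add_mul, Finset.sum_add_distrib, ite_mul, one_mul,
        zero_mul, sum_ite_eq, mem_univ, if_true] at this
      exact lin_two_eq this
    intro a b
    exact (M.conn {x | f x = f a} (by intro e; simp [h3 e]) a b rfl).symm)
  rw [Matrix.rank_transpose] at h3
  omega

include M in
/-- Euler's formula. -/
theorem euler [Fintype X] [Fintype V] [Nonempty X] :
    Fintype.card V + Fintype.card X = Fintype.card E + 2 := by
  have h1 := M.lin_upper M.hd M.tl M.ed_rot M.surj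
  obtain ⟨x⟩ := ‹Nonempty X›
  have h2 := M.regions_ge univ univ ⟨M.cor x 0, mem_univ _⟩ (fun _ _ => ⟨mem_univ _, mem_univ _⟩)
    (id : X → X) (fun S _ x y hxy hx => by
      have : x = y := hxy
      exact this ▸ hx)
  rw [card_univ, card_univ] at h2
  omega

/-- The triangles around a vertex form one rotation cycle. -/
theorem rot [Fintype X] [Fintype V] (v : V) (S : Set X)
    (h : ∀ e, (M.hd e = v ∨ M.tl e = v) → (M.bl e ∈ S ↔ M.wh e ∈ S))
    (x y : X) (i j : Fin 3) (hx : M.cor x i = v) (hy : M.cor y j = v) (hS : x ∈ S) : y ∈ S := by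
  classical
  by_contra hyS
  have hbl : ∀ z k, (M.hd (M.ed z k) = v ∨ M.tl (M.ed z k) = v) →
      (M.bl (M.ed z k) ∈ S ↔ z ∈ S) := by
    intro z k hk
    rcases (M.ed_iff z (M.ed z k)).2 ⟨k, rfl⟩ with h1 | h1
    · rw [h1]
    · rw [h _ hk, h1]
  have h1 := M.lin_upper (V' := Option V)
    (fun e => if M.hd e = v ∧ M.bl e ∈ S then none else some (M.hd e))
    (fun e => if M.tl e = v ∧ M.bl e ∈ S then none else some (M.tl e))
    (by
      intro z k
      simp only [← M.ed_rot]
      by_cases hv : M.hd (M.ed z k) = v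
      · have a1 := hbl z k (Or.inl hv)
        have a2 := hbl z (k + 1) (Or.inr (by rw [← M.ed_rot, hv]))
        simp only [a1, a2]
      · simp [hv])
    (by
      intro w
      rcases w with _ | w
      · have : M.hd (M.ed x (i + 1)) = v := hx
        exact ⟨M.ed x (i + 1), by simp [this, (hbl x (i + 1) (Or.inl this)).2 hS]⟩
      · by_cases hw : w = v
        · have : M.hd (M.ed y (j + 1)) = v := hy
          refine ⟨M.ed y (j + 1), ?_⟩
          have h2 := hbl y (j + 1) (Or.inl this)
          simp [this, h2, hyS, hw]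
        · obtain ⟨e, he⟩ := M.surj w
          exact ⟨e, by simp [he, hw]⟩)
  have : Nonempty X := ⟨x⟩
  have h2 := M.euler
  rw [Fintype.card_option] at h1
  omega

end PMap

end Vale.Agent.P039
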