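import Vale.Agent.P039.Disk1
import Vale.Agent.P039.Lin

namespace Vale.Agent.P039

universe u

open Finset

namespace PMap

variable {E X V : Type u} [Fintype E] [Fintype X] [Fintype V] [DecidableEq X] (M : PMap E X V)

theorem side_ineq (b₀ : X) (hb : M.col b₀ = true) (s g : M.Inner b₀ → Fin 3)
    (A : Finset (M.Inner b₀)) (hs : State (M.icor b₀) (M.roots b₀) s) (hg : ∀ t, g t ≠ s t)
    (hA : Atom (M.icor b₀) s g A) (S : Finset X)
    (hS : ∀ e, ¬ (M.bl e ∈ S ↔ M.wh e ∈ S) ↔ ∃ t ∈ A, M.ed t.1 (third (g t) (s t)) = e) :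
    (S.filter fun x => M.col x = true).card + 1 ≤
      (S.filter fun x => M.col x = false).card + if b₀ ∈ S then 2 else 0 := by
  classical
  obtain ⟨D₁, hD₁⟩ : ∃ D₁ : Finset E, D₁ = univ.filter fun e => M.bl e ∈ S := ⟨_, rfl⟩
  obtain ⟨A', hA'⟩ : ∃ A' : Finset (M.Inner b₀), A' = A.filter fun t => t.1 ∉ S := ⟨_, rfl⟩
  obtain ⟨T', hT'⟩ : ∃ T' : Finset (M.Inner b₀), T' = univ.filter fun t => t.1 ∈ S := ⟨_, rfl⟩
  obtain ⟨D₂, hD₂⟩ : ∃ D₂ : Finset E,
      D₂ = A'.image fun t => M.ed t.1 (third (g t) (s t)) := ⟨_, rfl⟩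
  obtain ⟨Z, hZ⟩ : ∃ Z : Finset V, Z = (A' ∪ T').image (fun t => M.icor b₀ t (s t)) ∪
      (if b₀ ∈ S then univ.image (M.cor b₀) else ∅) := ⟨_, rfl⟩
  have c1 : D₁.card = 3 * (S.filter fun x => M.col x = true).card := by
    have := M.sum_mul_bl (fun x => if x ∈ S then (1 : ℤ) else 0) (fun _ => 1)
    simp only [mul_one, sum_const, card_univ, Fintype.card_fin, sum_boole, nsmul_eq_mul,
      ← Finset.sum_mul, filter_filter] at this
    have h1 : (univ.filter fun x => M.col x = true ∧ x ∈ S) =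
        S.filter fun x => M.col x = true := by ext x; simp [and_comm]
    rw [h1, ← hD₁] at this
    push_cast at this
    omega
  have c2 : D₂.card = A'.card := by
    rw [hD₂]
    apply Finset.card_image_of_injective
    intro t t' h
    apply Subtype.ext
    have := congrArg M.bl h
    simpa only [M.bl_ed t.2.1, M.bl_ed t'.2.1] using this
  have c3 : Disjoint D₁ D₂ := by
    rw [Finset.disjoint_left]
    intro e h1 h2
    rw [hD₂] at h2
    obtain ⟨t, ht, rfl⟩ := mem_image.1 h2
    rw [hD₁, mem_filter, M.bl_ed t.2.1] at h1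
    rw [hA', mem_filter] at ht
    exact ht.2 h1.2
  have c4 : T'.card + (if b₀ ∈ S then 1 else 0) = (S.filter fun x => M.col x = true).card := by
    have h1 : T'.card = ((S.filter fun x => M.col x = true).erase b₀).card := by
      rw [← Finset.card_image_of_injective T' Subtype.val_injective]
      congr 1
      ext x
      simp only [hT', mem_image, mem_filter, mem_univ, true_and, mem_erase]
      constructor
      · rintro ⟨t, ht, rfl⟩
        exact ⟨t.2.2, ht, t.2.1⟩
      · rintro ⟨h1, h2, h3⟩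
        exact ⟨⟨x, h3, h1⟩, h2, rfl⟩
    by_cases h : b₀ ∈ S
    · rw [h1, if_pos h, Finset.card_erase_add_one (by simp [h, hb])]
    · rw [h1, if_neg h, Finset.erase_eq_of_notMem (by simp [h]), add_zero]
  have c5 : Z.card ≤ A'.card + T'.card + if b₀ ∈ S then 3 else 0 := by
    rw [hZ]
    refine (card_union_le _ _).trans (add_le_add (card_image_le.trans (card_union_le _ _)) ?_)
    split_ifs
    · exact card_image_le.trans (by simp)
    · simp
  have c6 : (S.filter fun x => M.col x = true).card + (S.filter fun x => M.col x = false).card =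
      S.card := by
    rw [← Finset.card_filter_add_card_filter_not (s := S) (fun x => M.col x = true)]
    simp
  have inZ : ∀ t ∈ A, M.icor b₀ t (s t) ∈ Z := by
    intro t ht
    rw [hZ]
    refine mem_union_left _ (mem_image_of_mem _ ?_)
    by_cases h : t.1 ∈ S
    · exact mem_union_right _ (by simp [hT', h])
    · exact mem_union_left _ (by simp [hA', h, ht])
  have ends : ∀ t ∈ A, M.hd (M.ed t.1 (third (g t) (s t))) ∈ Z ∧
      M.tl (M.ed t.1 (third (g t) (s t))) ∈ Z := by
    intro t ht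
    have h1 : M.icor b₀ t (g t) ∈ (fun t => M.icor b₀ t (s t)) '' (A : Set _) := by
      rw [← hA.2.1]
      exact ⟨t, ht, rfl⟩
    obtain ⟨t', ht', h2⟩ := h1
    have h3 : M.icor b₀ t (g t) ∈ Z := h2 ▸ inZ t' ht'
    rw [M.hd_ed, M.tl_ed]
    rcases third_cases _ _ (hg t) with ⟨h4, h5, -⟩ | ⟨h4, h5, -⟩
    · rw [h4, h5]; exact ⟨inZ t ht, h3⟩
    · rw [h4, h5]; exact ⟨h3, inZ t ht⟩
  have corZ : ∀ x ∈ S, ∀ i, M.cor x i ∈ Z := by
    intro x hx i
    by_contra hv
    have hr := M.rot (M.cor x i) (S : Set X) (by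
      intro e he
      by_contra h
      obtain ⟨t, ht, rfl⟩ := (hS e).1 h
      rcases he with he | he
      · exact hv (he ▸ (ends t ht).1)
      · exact hv (he ▸ (ends t ht).2)) x
    apply hv
    rw [hZ]
    by_cases h : M.cor x i ∈ M.roots b₀
    · obtain ⟨j, hj⟩ := h
      have h1 : b₀ ∈ S := hr b₀ i j rfl hj hx
      refine mem_union_right _ ?_
      rw [if_pos h1, ← hj]
      exact mem_image_of_mem _ (mem_univ _)
    · obtain ⟨t, ht⟩ := (hs.2 _).1 h
      have h1 : t.1 ∈ S := hr t.1 i (s t) rfl ht hx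
      refine mem_union_left _ (mem_image.2 ⟨t, mem_union_right _ (by simp [hT', h1]), ht⟩)
  obtain ⟨t₀, ht₀⟩ := hA.1
  have key := M.regions_ge (D₁ ∪ D₂) Z ⟨_, inZ t₀ ht₀⟩ (by
      intro e he
      rcases mem_union.1 he with he | he
      · rw [hD₁, mem_filter] at he
        obtain ⟨i, hi⟩ := M.exists_ed_bl e
        rw [← hi, M.hd_ed, M.tl_ed]
        exact ⟨corZ _ he.2 _, corZ _ he.2 _⟩
      · rw [hD₂] at he
        obtain ⟨t, ht, rfl⟩ := mem_image.1 he
        rw [hA', mem_filter] at ht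
        exact ends t ht.1) (P := Option S) (fun x => if h : x ∈ S then some ⟨x, h⟩ else none) (by
      intro K hK x y hxy hx
      by_cases h1 : x ∈ S
      · by_cases h2 : y ∈ S
        · simp only [h1, h2, dif_pos, Option.some.injEq, Subtype.mk.injEq] at hxy
          exact hxy ▸ hx
        · simp [h1, h2] at hxy
      · by_cases h2 : y ∈ S
        · simp [h1, h2] at hxy
        · refine M.side_conn b₀ s g A hs.1 hg hA S hS K (fun e h3 h4 => hK e ?_) x y h1 h2 hx
          intro he
          rcases mem_union.1 he with he | he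
          · rw [hD₁, mem_filter] at he
            exact h3 he.2
          · rw [hD₂] at he
            obtain ⟨t, ht, h5⟩ := mem_image.1 he
            rw [hA', mem_filter] at ht
            exact (hS e).2 ⟨t, ht.1, h5⟩ (by tauto))
  rw [card_union_of_disjoint c3, Fintype.card_option, Fintype.card_coe] at key
  split_ifs at c4 c5 ⊢ <;> omega

/-- The disk lemma. -/
theorem disk (b₀ : X) (hb : M.col b₀ = true) (s g : M.Inner b₀ → Fin 3)
    (A : Finset (M.Inner b₀)) (hs : State (M.icor b₀) (M.roots b₀) s) (hg : ∀ t, g t ≠ s t)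
    (hA : Atom (M.icor b₀) s g A) :
    ∃ (S : Finset X) (lam : ℤ), (lam = 1 ∨ lam = -1) ∧ b₀ ∉ S ∧
      (∀ e, ¬ (M.bl e ∈ S ↔ M.wh e ∈ S) ↔ ∃ t ∈ A, M.ed t.1 (third (g t) (s t)) = e) ∧
      (∀ t ∈ A, eta (g t) (s t) = if t.1 ∈ S then lam else -lam) ∧
      (S.filter fun x => M.col x = false).card = (S.filter fun x => M.col x = true).card + 1 := by
  obtain ⟨S, lam, h1, h2, h3, h4⟩ := M.exists_side b₀ s g A hs.1 hg hA
  refine ⟨S, lam, h1, h2, h3, h4, ?_⟩
  have a1 := M.side_ineq b₀ hb s g A hs hg hA S h3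
  have a2 := M.side_ineq b₀ hb s g A hs hg hA Sᶜ (by
    intro e
    rw [← h3 e]
    simp only [mem_compl]
    tauto)
  rw [if_neg h2] at a1
  rw [if_pos (mem_compl.2 h2)] at a2
  have a3 : ∀ c : Bool, (S.filter fun x => M.col x = c).card +
      (Sᶜ.filter fun x => M.col x = c).card = (univ.filter fun x => M.col x = c).card := by
    intro c
    rw [← card_union_of_disjoint (disjoint_filter_filter disjoint_compl_right), ← filter_union,
      union_compl]
  have a4 := a3 true
  have a5 := a3 false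
  have a6 := M.card_wh
  omega

end PMap

end Vale.Agent.P039
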