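import Mathlib

namespace Vale.Agent.P039

open Finset

universe u

/-- A 3-edge-coloured cubic bipartite map on the sphere.  `F` = vertices of the cubic graph
(= triangles of the dual triangulation), `m i` = the matching of colour `i`, `blk` = bipartition,
`V` = faces of the cubic graph (= vertices of the triangulation), `lab f k` = the face at `f`
bounded by the two colours different from `k`. -/
structure Gem (F V : Type u) [Fintype F] [DecidableEq F] [Fintype V] where
  m : Fin 3 → F → F
  blk : F → Bool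
  lab : F → Fin 3 → V
  m_m : ∀ i f, m i (m i f) = f
  blk_m : ∀ i f, blk (m i f) = !blk f
  lab_m : ∀ i k f, i ≠ k → lab (m i f) k = lab f k
  lab_col : ∀ f f' k k', lab f k = lab f' k' → k = k'
  lab_surj : ∀ v, ∃ f k, lab f k = v
  euler : Fintype.card F + 4 ≤ 2 * Fintype.card V
  cut3 : ∀ S : Finset F, S.Nonempty → S ≠ univ →
    3 ≤ (univ.filter fun x : F × Fin 3 => x.1 ∈ S ∧ m x.2 x.1 ∉ S).card

/-- orientation sign of the corner pair `(a, b)` of a triangle -/
def eps (a b : Fin 3) : ℤ := if b = a + 1 then 1 else -1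

lemma eps_swap {a b : Fin 3} (h : a ≠ b) : eps b a = - eps a b := by
  revert a b; decide

lemma eps_cases (a b : Fin 3) : eps a b = 1 ∨ eps a b = -1 := by
  revert a b; decide

namespace Gem

variable {F V : Type u} [Fintype F] [DecidableEq F] [Fintype V] (g : Gem F V)

/-- edges leaving `S`, recorded as (end in `S`, colour) -/
def cut (S : Finset F) : Finset (F × Fin 3) :=
  univ.filter fun x : F × Fin 3 => x.1 ∈ S ∧ g.m x.2 x.1 ∉ S

/-- labels occurring at members of `S` -/
def verts [DecidableEq V] (S : Finset F) : Finset V :=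
  (S ×ˢ (univ : Finset (Fin 3))).image fun x => g.lab x.1 x.2

def blacks (S : Finset F) : Finset F := S.filter fun f => g.blk f = true

def whites (S : Finset F) : Finset F := S.filter fun f => g.blk f = false

/-- `μ` is a perfect matching whose complement is connected (a Hamiltonian cycle) -/
def Good (μ : F → Fin 3) : Prop :=
  (∀ f, μ (g.m (μ f) f) = μ f) ∧
    ∀ S : Finset F, (∀ f ∈ S, ∀ i, i ≠ μ f → g.m i f ∈ S) → S = ∅ ∨ S = univ

/-- no nontrivial 3-edge-cut -/
def Ess4 : Prop := ∀ S : Finset F, (g.cut S).card = 3 → S.card = 1 ∨ Sᶜ.card = 1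

def Inner (f0 t : F) : Prop := g.blk t = true ∧ t ≠ f0

/-- `t ↦ lab t (p t)` is a bijection from the inner black triangles to the non-root vertices -/
def IsState (f0 : F) (p : F → Fin 3) : Prop :=
  (∀ t, g.Inner f0 t → ∀ k, g.lab t (p t) ≠ g.lab f0 k) ∧
  (∀ t t', g.Inner f0 t → g.Inner f0 t' → g.lab t (p t) = g.lab t' (p t') → t = t') ∧
  ∀ v, (∀ k, v ≠ g.lab f0 k) → ∃ t, g.Inner f0 t ∧ g.lab t (p t) = v

/-- the arcs `lab t (p t) → lab t (q t)`, `t ∈ C`, form one directed cycle -/
def CycCond [DecidableEq V] (p q : F → Fin 3) (C : Finset F) : Prop :=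
  C.Nonempty ∧ (∀ t ∈ C, g.blk t = true) ∧ (∀ t ∈ C, p t ≠ q t) ∧
  (∀ t ∈ C, ∀ t' ∈ C, g.lab t (p t) = g.lab t' (p t') → t = t') ∧
  C.image (fun t => g.lab t (q t)) = C.image (fun t => g.lab t (p t)) ∧
  ∀ D ⊆ C, D.Nonempty →
    (∀ t ∈ C, ∀ t' ∈ C, g.lab t (q t) = g.lab t' (p t') → (t ∈ D ↔ t' ∈ D)) → D = C

/-- the oriented boundary of `S` is `s` times the cycle `C` -/
def Bounds (p q : F → Fin 3) (C S : Finset F) (s : ℤ) : Prop :=
  ∀ t, g.blk t = true → ∀ i,
    (if t ∈ S then (1 : ℤ) else 0) - (if g.m i t ∈ S then 1 else 0) =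
      if t ∈ C ∧ i = -(p t + q t) then s * eps (p t) (q t) else 0

/-- the cut edges of `S` form a connected subgraph of the triangulation -/
def CutConn (S : Finset F) : Prop :=
  ∀ γ : V → ℚ, (∀ x ∈ g.cut S, γ (g.lab x.1 (x.2 + 1)) = γ (g.lab x.1 (x.2 + 2))) →
    ∀ x ∈ g.cut S, ∀ y ∈ g.cut S, γ (g.lab x.1 (x.2 + 1)) = γ (g.lab y.1 (y.2 + 1))

/-- triangles having a corner in `X` -/
def touch [DecidableEq V] (X : Finset V) : Finset F := univ.filter fun f => ∃ k, g.lab f k ∈ X

/-- `g'` is `g` with the complement of `S` contracted to the point `z` -/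
def IsContr {F' V' : Type u} [Fintype F'] [DecidableEq F'] [Fintype V'] (S : Finset F)
    (g' : Gem F' V') (ι : F → F') (z : F') : Prop :=
  Fintype.card F' = S.card + 1 ∧ (∀ f, ι f = z ↔ f ∉ S) ∧
  (∀ f ∈ S, ∀ f' ∈ S, ι f = ι f' → f = f') ∧ (∀ x, x = z ∨ ∃ f ∈ S, ι f = x) ∧
  ∀ f ∈ S, ∀ i, g'.m i (ι f) = ι (g.m i f)

@[simp] lemma mem_cut {S : Finset F} {x : F × Fin 3} :
    x ∈ g.cut S ↔ x.1 ∈ S ∧ g.m x.2 x.1 ∉ S := by simp [cut]

@[simp] lemma mem_verts [DecidableEq V] {S : Finset F} {v : V} :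
    v ∈ g.verts S ↔ ∃ f ∈ S, ∃ k, g.lab f k = v := by
  simp [verts]

@[simp] lemma mem_blacks {S : Finset F} {f : F} : f ∈ g.blacks S ↔ f ∈ S ∧ g.blk f = true := by
  simp [blacks]

@[simp] lemma mem_whites {S : Finset F} {f : F} : f ∈ g.whites S ↔ f ∈ S ∧ g.blk f = false := by
  simp [whites]

@[simp] lemma mem_touch [DecidableEq V] {X : Finset V} {f : F} :
    f ∈ g.touch X ↔ ∃ k, g.lab f k ∈ X := by simp [touch]

lemma three_le_cut {S : Finset F} (h1 : S.Nonempty) (h2 : S ≠ univ) : 3 ≤ (g.cut S).card :=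
  g.cut3 S h1 h2

lemma m_inj (i : Fin 3) : Function.Injective (g.m i) := fun a b h => by
  rw [← g.m_m i a, h, g.m_m]

lemma m_ne (i : Fin 3) (f : F) : g.m i f ≠ f := fun h => by
  have := g.blk_m i f
  rw [h] at this
  cases hb : g.blk f <;> simp [hb] at this

lemma lab_inj (f : F) : Function.Injective (g.lab f) := fun k k' h => g.lab_col f f k k' h

lemma lab_m_succ (i : Fin 3) (f : F) : g.lab (g.m i f) (i + 1) = g.lab f (i + 1) :=
  g.lab_m i _ f (by revert i; decide)

lemma lab_m_succ2 (i : Fin 3) (f : F) : g.lab (g.m i f) (i + 2) = g.lab f (i + 2) :=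
  g.lab_m i _ f (by revert i; decide)

/-- connectivity -/
lemma conn (S : Finset F) (h : ∀ f ∈ S, ∀ i, g.m i f ∈ S) : S = ∅ ∨ S = univ := by
  by_contra hc
  push Not at hc
  have h3 := g.three_le_cut hc.1 hc.2
  have : g.cut S = ∅ := by
    ext x; simp only [mem_cut, notMem_empty, iff_false, not_and, not_not]; exact fun hx => h _ hx _
  simp [this] at h3

/-- a function invariant under the three matchings is constant -/
lemma const_of_m {A : Type*} (z : F → A) (h : ∀ i f, z (g.m i f) = z f) (f f' : F) :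
    z f = z f' := by
  classical
  rcases g.conn (univ.filter fun x => z x = z f) (by
    intro x hx i; simp only [mem_filter, mem_univ, true_and] at hx ⊢; rw [h, hx]) with h1 | h1
  · have : f ∈ (univ.filter fun x => z x = z f) := by simp
    rw [h1] at this; simp at this
  · have : f' ∈ (univ.filter fun x => z x = z f) := by rw [h1]; simp
    simp only [mem_filter, mem_univ, true_and] at this; exact this.symm

lemma card_blacks_add_whites (S : Finset F) : (g.blacks S).card + (g.whites S).card = S.card := by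
  have := Finset.card_filter_add_card_filter_not (s := S) (fun f => g.blk f = true)
  simpa [blacks, whites] using this

lemma sum_blacks_add_whites {A : Type*} [AddCommMonoid A] (S : Finset F) (φ : F → A) :
    ∑ f ∈ g.blacks S, φ f + ∑ f ∈ g.whites S, φ f = ∑ f ∈ S, φ f := by
  have := Finset.sum_filter_add_sum_filter_not S (fun f => g.blk f = true) φ
  simpa [blacks, whites] using this

/-- reindex a sum over the white triangles along the matching of colour `i` -/
lemma sum_whites {A : Type*} [AddCommMonoid A] (i : Fin 3) (φ : F → A) :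
    ∑ f ∈ g.whites univ, φ f = ∑ t ∈ g.blacks univ, φ (g.m i t) := by
  symm
  refine Finset.sum_nbij' (g.m i) (g.m i) ?_ ?_ ?_ ?_ ?_
  · intro a ha; simp only [mem_blacks, mem_whites, mem_univ, true_and] at ha ⊢
    rw [g.blk_m, ha]; rfl
  · intro a ha; simp only [mem_blacks, mem_whites, mem_univ, true_and] at ha ⊢
    rw [g.blk_m, ha]; rfl
  · intro a _; exact g.m_m i a
  · intro a _; exact g.m_m i a
  · intro a _; rfl

lemma card_whites_univ : (g.whites univ).card = (g.blacks univ).card := by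
  have := g.sum_whites 0 (fun _ => (1 : ℕ))
  simpa using this

lemma two_mul_card_blacks : 2 * (g.blacks univ).card = Fintype.card F := by
  have h1 := g.card_blacks_add_whites univ
  have h2 := g.card_whites_univ
  rw [Finset.card_univ] at h1
  omega

/-- discrete Stokes formula -/
lemma stokes {A : Type*} [CommRing A] (x : F → A) (η : F → Fin 3 → A)
    (hη : ∀ i f, η (g.m i f) i = η f i) :
    ∑ t ∈ g.blacks univ, ∑ i, (x t - x (g.m i t)) * η t i =
      ∑ t ∈ g.blacks univ, x t * ∑ i, η t i - ∑ w ∈ g.whites univ, x w * ∑ i, η w i := by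
  have h1 : ∑ w ∈ g.whites univ, x w * ∑ i, η w i =
      ∑ t ∈ g.blacks univ, ∑ i, x (g.m i t) * η t i := by
    simp_rw [Finset.mul_sum]
    rw [Finset.sum_comm, Finset.sum_comm (s := g.blacks univ)]
    refine Finset.sum_congr rfl fun i _ => ?_
    rw [g.sum_whites i (fun w => x w * η w i)]
    simp [hη]
  rw [h1, ← Finset.sum_sub_distrib]
  refine Finset.sum_congr rfl fun t _ => ?_
  rw [Finset.mul_sum, ← Finset.sum_sub_distrib]
  refine Finset.sum_congr rfl fun i _ => ?_
  ring

/-- the boundary of a boundary vanishes: `x` a 2-chain, `γ` a function on vertices -/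
lemma bdry_bdry {A : Type*} [CommRing A] (x : F → A) (γ : V → A) :
    ∑ t ∈ g.blacks univ, ∑ i,
      (x t - x (g.m i t)) * (γ (g.lab t (i + 2)) - γ (g.lab t (i + 1))) = 0 := by
  have h := g.stokes x (fun f i => γ (g.lab f (i + 2)) - γ (g.lab f (i + 1)))
    (by intro i f; simp only [g.lab_m_succ, g.lab_m_succ2])
  rw [h]
  have h0 : ∀ f, ∑ i : Fin 3, (γ (g.lab f (i + 2)) - γ (g.lab f (i + 1))) = 0 := by
    intro f
    simp only [Fin.sum_univ_three]
    have e1 : (0 : Fin 3) + 2 = 2 := by decide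
    have e2 : (0 : Fin 3) + 1 = 1 := by decide
    have e3 : (1 : Fin 3) + 2 = 0 := by decide
    have e4 : (1 : Fin 3) + 1 = 2 := by decide
    have e5 : (2 : Fin 3) + 2 = 1 := by decide
    have e6 : (2 : Fin 3) + 1 = 0 := by decide
    rw [e1, e2, e3, e4, e5, e6]; ring
  simp [h0]

lemma card_cut_compl (S : Finset F) : (g.cut Sᶜ).card = (g.cut S).card := by
  refine Finset.card_nbij' (fun x => (g.m x.2 x.1, x.2)) (fun x => (g.m x.2 x.1, x.2)) ?_ ?_ ?_ ?_
  · intro x hx
    simp only [mem_coe, mem_cut, mem_compl, not_not, g.m_m] at hx ⊢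
    exact ⟨hx.2, hx.1⟩
  · intro x hx
    simp only [mem_coe, mem_cut, mem_compl, not_not, g.m_m] at hx ⊢
    exact ⟨hx.2, hx.1⟩
  · intro x _; simp [g.m_m]
  · intro x _; simp [g.m_m]

end Gem

section Abstract

variable {T V : Type u} (lab : T → Fin 3 → V) (Rt : Finset V)

/-- abstract state -/
def St (p : T → Fin 3) : Prop :=
  (∀ t, lab t (p t) ∉ Rt) ∧ Function.Injective fun t => lab t (p t)

/-- abstract pair of disjoint states -/
def IsPair (p q : T → Fin 3) : Prop := St lab Rt p ∧ St lab Rt q ∧ ∀ t, p t ≠ q t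

/-- abstract cycle of a pair -/
def ACyc [DecidableEq V] (p q : T → Fin 3) (C : Finset T) : Prop :=
  C.Nonempty ∧ C.image (fun t => lab t (q t)) = C.image (fun t => lab t (p t)) ∧
  ∀ D ⊆ C, D.Nonempty →
    (∀ t ∈ C, ∀ t' ∈ C, lab t (q t) = lab t' (p t') → (t ∈ D ↔ t' ∈ D)) → D = C

variable [Fintype T] [DecidableEq T]

open Classical in
noncomputable def pairs : Finset ((T → Fin 3) × (T → Fin 3)) :=
  univ.filter fun x => IsPair lab Rt x.1 x.2

open Classical in
noncomputable def partners (p : T → Fin 3) : Finset (T → Fin 3) :=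
  univ.filter fun q => IsPair lab Rt p q

@[simp] lemma mem_pairs {x : (T → Fin 3) × (T → Fin 3)} :
    x ∈ pairs lab Rt ↔ IsPair lab Rt x.1 x.2 := by simp [pairs]

@[simp] lemma mem_partners {p q : T → Fin 3} :
    q ∈ partners lab Rt p ↔ IsPair lab Rt p q := by simp [partners]

/-- signed number of partners -/
noncomputable def cc (p : T → Fin 3) : ℤ := ∑ q ∈ partners lab Rt p, ∏ t, eps (p t) (q t)

/-- a state is onto the non-roots -/
lemma St.surj [Fintype V] (hc : Fintype.card T + Rt.card = Fintype.card V) {p : T → Fin 3}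
    (hp : St lab Rt p) (v : V) (hv : v ∉ Rt) : ∃ t, lab t (p t) = v := by
  classical
  have h1 : (univ.image fun t => lab t (p t)) ⊆ Rtᶜ := by
    intro x hx
    simp only [mem_image, mem_univ, true_and] at hx
    obtain ⟨t, rfl⟩ := hx
    exact mem_compl.2 (hp.1 t)
  have h2 : (univ.image fun t => lab t (p t)).card = Fintype.card T := by
    rw [card_image_of_injective _ hp.2, card_univ]
  have h3 : (Rtᶜ).card ≤ (univ.image fun t => lab t (p t)).card := by
    rw [h2, card_compl]; omega
  have h4 := Finset.eq_of_subset_of_card_le h1 h3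
  have : v ∈ (univ.image fun t => lab t (p t)) := by rw [h4]; exact mem_compl.2 hv
  simpa using this

end Abstract

end Vale.Agent.P039
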