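import Vale.Agent.P039.Contract
import Vale.Agent.P039.Core

namespace Vale.Agent.P039

universe u

open Finset

theorem rot_three {V : Type*} {h1 h2 h3 t1 t2 t3 : V} (n3 : h3 ≠ t3)
    (h : ∀ f : V → ℤ, f h1 + f h2 + f h3 = f t1 + f t2 + f t3) (e : h1 = t2) :
    h2 = t3 ∧ h3 = t1 := by
  classical
  subst e
  have e1 : h3 = t1 := by
    by_contra hc
    have := h fun v => if h3 = v then 1 else 0
    simp only [if_true, if_neg hc, if_neg n3] at this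
    split_ifs at this <;> omega
  subst e1
  refine ⟨?_, rfl⟩
  by_contra hc
  have := h fun v => if h2 = v then 1 else 0
  simp only [if_true, if_neg hc] at this
  omega

namespace PMap

variable {E X V : Type u} [Fintype E] [Fintype X] (M : PMap E X V)

theorem exists_cut (S : Set X) (e₁ e₂ e₃ : E) {a z : X} (ha : a ∈ S) (hz : z ∉ S)
    (h1 : ∀ e, M.wh e ∈ S → M.bl e ∈ S)
    (h2 : ∀ e, e ≠ e₁ → e ≠ e₂ → e ≠ e₃ → M.bl e ∈ S → M.wh e ∈ S) :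
    ∃ k : Fin 3 → E, Function.Injective k ∧ (∀ e, ¬ (M.bl e ∈ S ↔ M.wh e ∈ S) ↔ ∃ i, k i = e) ∧
      ∀ i, M.hd (k i) = M.tl (k (i + 1)) := by
  classical
  have h3 : ∀ e, ¬ (M.bl e ∈ S ↔ M.wh e ∈ S) → e = e₁ ∨ e = e₂ ∨ e = e₃ := by
    intro e he
    by_contra hc
    push Not at hc
    exact he ⟨h2 e hc.1 hc.2.1 hc.2.2, h1 e⟩
  have h4 : ∀ f g, ∃ e, e ≠ f ∧ e ≠ g ∧ ¬ (M.bl e ∈ S ↔ M.wh e ∈ S) := by
    intro f g
    by_contra hc
    exact hz (M.conn3 S f g (fun e c1 c2 => by_contra fun c3 => hc ⟨e, c1, c2, c3⟩) a z ha)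
  obtain ⟨x, a1, a2, a3⟩ := h4 e₂ e₃
  obtain rfl : x = e₁ := by have := h3 x a3; tauto
  obtain ⟨y, b1, b2, b3⟩ := h4 x e₃
  obtain rfl : y = e₂ := by have := h3 y b3; tauto
  obtain ⟨w, c1, c2, c3⟩ := h4 x y
  obtain rfl : w = e₃ := by have := h3 w c3; tauto
  have h5 : ∀ f : V → ℤ, f (M.hd x) + f (M.hd y) + f (M.hd w) =
      f (M.tl x) + f (M.tl y) + f (M.tl w) := by
    intro f
    have h6 := M.bdry_closed (fun x => if x ∈ S then (1 : ℤ) else 0) f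
    have h7 : ∀ e, ¬ (M.bl e ∈ S ↔ M.wh e ∈ S) →
        ((if M.bl e ∈ S then (1 : ℤ) else 0) - if M.wh e ∈ S then 1 else 0) = 1 := by
      intro e he
      have := h1 e
      rw [if_pos (by tauto), if_neg (by tauto), sub_zero]
    rw [← Finset.sum_subset (subset_univ {x, y, w}) fun e _ he => by
      have h8 : M.bl e ∈ S ↔ M.wh e ∈ S := by_contra fun h => he (by simpa using h3 e h)
      simp [h8], sum_insert (by simp [a1, a2]), sum_pair b2, h7 x a3, h7 y b3, h7 w c3] at h6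
    omega
  have key : ∀ x y w : E, x ≠ y → x ≠ w → y ≠ w →
      (∀ e, ¬ (M.bl e ∈ S ↔ M.wh e ∈ S) ↔ e = x ∨ e = y ∨ e = w) → M.hd x = M.tl y →
      M.hd y = M.tl w ∧ M.hd w = M.tl x → ∃ k : Fin 3 → E, Function.Injective k ∧
      (∀ e, ¬ (M.bl e ∈ S ↔ M.wh e ∈ S) ↔ ∃ i, k i = e) ∧
      ∀ i, M.hd (k i) = M.tl (k (i + 1)) := by
    intro x y w n1 n2 n3 g1 g2 g3
    refine ⟨![x, y, w], fun i j hij => ?_, fun e => ?_, fun i => ?_⟩
    · fin_cases i <;> fin_cases j <;> simp_all [eq_comm]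
    · rw [g1]
      simp [Fin.exists_fin_succ, eq_comm]
    · fin_cases i
      exacts [g2, g3.1, g3.2]
  have h6 : ∀ e, ¬ (M.bl e ∈ S ↔ M.wh e ∈ S) ↔ e = x ∨ e = y ∨ e = w :=
    fun e => ⟨h3 e, by rintro (rfl | rfl | rfl) <;> assumption⟩
  by_cases g1 : M.hd x = M.tl y
  · exact key x y w a1 a2 b2 h6 g1 (rot_three (M.hd_ne_tl w) h5 g1)
  · have g2 : M.hd x = M.tl w := by
      by_contra g2
      have := h5 fun v => if M.hd x = v then 1 else 0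
      simp only [if_true, if_neg g1, if_neg g2, if_neg (M.hd_ne_tl x)] at this
      split_ifs at this <;> omega
    exact key x w y a2 a1 b2.symm (fun e => by rw [h6, or_comm (a := e = y)]) g2
      (rot_three (M.hd_ne_tl y) (fun f => by have := h5 f; omega) g2)

end PMap

theorem allHam (n : ℕ) : AllHam.{u} n := by
  induction n using Nat.strong_induction_on with
  | _ n ih =>
  intro E X V _ _ _ M hn e₀
  classical
  have IH := ih _ hn
  by_cases hb : M.NoBad (M.bl e₀)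
  · exact M.core e₀ hb
  simp only [PMap.NoBad, not_forall] at hb
  obtain ⟨S, e₁, e₂, e₃, hz, h1, h2, h3⟩ := hb
  obtain ⟨a, ha, b, hb, hab⟩ := Set.not_subsingleton_iff.1 h3
  obtain ⟨k, k1, k2, k3⟩ := M.exists_cut S e₁ e₂ e₃ ha hz h1 h2
  have k4 : ∀ i, M.bl (k i) ∈ S ∧ M.wh (k i) ∉ S := fun i => by
    have := (k2 _).2 ⟨i, rfl⟩
    have := h1 (k i)
    tauto
  obtain ⟨M1, a1, a2, ⟨j, a3, a3'⟩, a4⟩ := M.contract_ham IH S a b ha hb hab _ hz k k1 k2 k3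
    (Or.inl fun i => (k4 i).1) e₀ fun h => hz h.1
  obtain ⟨M2, b1, b2, b3, b4⟩ := M.contract_ham IH Sᶜ _ _ hz (k4 0).2 (M.bl_ne_wh _ _) a
    (not_not.2 ha) k k1 (fun e => (not_congr not_iff_not).trans (k2 e))
    k3 (Or.inr fun i => (k4 i).2) (k j) fun h => h.1 (k4 j).1
  have c1 : ∀ i, k i ∈ M1 ↔ i = j := fun i => ⟨a3' i, fun e => e ▸ a3⟩
  have c2 : ∀ i, k i ∈ M2 ↔ i = j := fun i => ⟨fun e => b3.unique e b1, fun e => e ▸ b1⟩
  obtain ⟨Mt, f1, f2⟩ : ∃ Mt : Set E, (∀ e, ¬ (M.bl e ∈ S ∧ M.wh e ∈ S) → (e ∈ Mt ↔ e ∈ M1)) ∧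
      ∀ e, ¬ (M.bl e ∈ Sᶜ ∧ M.wh e ∈ Sᶜ) → (e ∈ Mt ↔ e ∈ M2) := by
    refine ⟨{e | if M.bl e ∈ S ∧ M.wh e ∈ S then e ∈ M2 else e ∈ M1}, fun e he => ?_,
      fun e he => ?_⟩
    · simp only [Set.mem_ofPred_eq, if_neg he]
    · by_cases h : M.bl e ∈ S ∧ M.wh e ∈ S
      · simp only [Set.mem_ofPred_eq, if_pos h]
      · simp only [Set.mem_compl_iff] at he
        obtain ⟨i, rfl⟩ := (k2 e).1 (by tauto)
        simp only [Set.mem_ofPred_eq, if_neg h, c1, c2]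
  have c3 : ∀ i, k i ∈ Mt ↔ i = j := fun i => (f1 _ fun h => (k4 i).2 h.2).trans (c1 i)
  have hed : ∀ (T : Set X) x, x ∉ T → ∀ i, ¬ (M.bl (M.ed x i) ∈ T ∧ M.wh (M.ed x i) ∈ T) := by
    intro T x hx i h
    rcases (M.ed_iff x _).2 ⟨i, rfl⟩ with e | e
    · exact hx (e ▸ h.1)
    · exact hx (e ▸ h.2)
  have hpm : ∀ x, ∃! i, M.ed x i ∈ Mt := by
    intro x
    by_cases hx : x ∈ S
    · exact (existsUnique_congr fun i => f2 _ (hed _ x (not_not.2 hx) i)).2 (b2 x (not_not.2 hx))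
    · exact (existsUnique_congr fun i => f1 _ (hed _ x hx i)).2 (a2 x hx)
  have key : ∀ U : Set X, (∀ e, e ∉ Mt → (M.bl e ∈ U ↔ M.wh e ∈ U)) →
      (∀ i, i ≠ j → M.bl (k i) ∈ U) → ∀ y, y ∈ U := by
    intro U hU h y
    have g1 := a4 (U ∪ S) (Or.inl Set.subset_union_right) (fun e c d => by
      have c' : e ∉ Mt := fun h => c ((f1 e d).1 h)
      have g := hU e c'
      by_cases h' : M.bl e ∈ S ↔ M.wh e ∈ S
      · simp only [Set.mem_union, g, h']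
      · obtain ⟨i, rfl⟩ := (k2 e).1 h'
        have g' := h i fun e => c' ((c3 i).2 e)
        exact iff_of_true (Or.inl g') (Or.inl (g.1 g'))) a y (Or.inr ha)
    have g2 := b4 (U ∪ Sᶜ) (Or.inl Set.subset_union_right) (fun e c d => by
      have c' : e ∉ Mt := fun h => c ((f2 e d).1 h)
      have g := hU e c'
      by_cases h' : M.bl e ∈ S ↔ M.wh e ∈ S
      · simp only [Set.mem_union, Set.mem_compl_iff, g, h']
      · obtain ⟨i, rfl⟩ := (k2 e).1 h'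
        have g' := h i fun e => c' ((c3 i).2 e)
        exact iff_of_true (Or.inl g') (Or.inl (g.1 g'))) _ y (Or.inr hz)
    exact g1.elim id fun g3 => g2.elim id fun g4 => absurd g3 g4
  refine ⟨Mt, (f1 e₀ fun h => hz h.1).2 a1, hpm, fun U hU x y hx => ?_⟩
  by_cases g1 : ∀ i, i ≠ j → M.bl (k i) ∈ U
  · exact key U hU g1 y
  by_cases g2 : ∀ i, i ≠ j → M.bl (k i) ∉ U
  · exact absurd hx (key Uᶜ (fun e he => not_iff_not.2 (hU e he)) g2 x)
  push Not at g1 g2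
  obtain ⟨i₁, g3, g4⟩ := g1
  obtain ⟨i₂, g5, g6⟩ := g2
  have g7 := M.off_count Mt hpm fun x => if x ∈ S ∧ x ∈ U then (1 : ℤ) else 0
  rw [Finset.sum_eq_single (k i₂) _ (by simp), if_pos ⟨(k4 _).1, g6⟩,
    if_neg fun h => (k4 _).2 h.1, if_neg fun h => g5 ((c3 _).1 h)] at g7
  · omega
  intro e _ he
  by_cases h : e ∈ Mt
  · rw [if_pos h, mul_zero]
  by_cases h' : M.bl e ∈ S ↔ M.wh e ∈ S
  · simp only [h', hU e h, sub_self, zero_mul]
  · obtain ⟨i, rfl⟩ := (k2 e).1 h'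
    have g8 : ∀ i i₁ i₂ j : Fin 3, i ≠ j → i₁ ≠ j → i₂ ≠ j → i ≠ i₂ → i₁ ≠ i₂ → i = i₁ := by decide
    obtain rfl := g8 i i₁ i₂ j (fun e => h ((c3 i).2 e)) g3 g5 (fun e => he (e ▸ rfl))
      fun e => g4 (e ▸ g6)
    rw [if_neg fun h => g4 h.2, if_neg fun h => (k4 _).2 h.1, sub_self, zero_mul]

end Vale.Agent.P039
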