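import Vale.Agent.P039.PlaneDefs

namespace Vale.Agent.P039

universe u

/-- A cubic 3-connected graph has no edge cut with at most two edges. -/
theorem no_two_cut {X : Type u} [Fintype X] (G : SimpleGraph X) [DecidableRel G.Adj]
    (hcubic : ∀ v, G.degree v = 3) (h3 : ThreeConnected G) (S : Set X) (e₁ e₂ : Sym2 X)
    (h : ∀ u v, G.Adj u v → u ∈ S → v ∉ S → s(u, v) = e₁ ∨ s(u, v) = e₂) (x y : X)
    (hx : x ∈ S) : y ∈ S := by
  classical
  by_contra hy
  let P : Finset (X × X) := Finset.univ.filter fun p => G.Adj p.1 p.2 ∧ p.1 ∈ S ∧ p.2 ∉ S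
  have hP : ∀ p, p ∈ P ↔ G.Adj p.1 p.2 ∧ p.1 ∈ S ∧ p.2 ∉ S := fun p => by simp [P]
  have hc : P.card ≤ 2 := by
    refine le_trans (Finset.card_le_card_of_injOn (t := {e₁, e₂}) (fun p => s(p.1, p.2))
      (fun p hp => ?_) fun p hp q hq hpq => ?_) Finset.card_le_two
    · obtain ⟨h1, h2, h4⟩ := (hP p).1 hp
      simpa using h _ _ h1 h2 h4
    · obtain ⟨-, h2, h4⟩ := (hP p).1 hp
      obtain ⟨-, h5, h6⟩ := (hP q).1 hq
      rcases Sym2.eq_iff.1 hpq with ⟨a, b⟩ | ⟨a, -⟩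
      · exact Prod.ext a b
      · exact absurd (a ▸ h2) h6
  by_cases hS : ∃ z ∈ S, z ∉ P.image Prod.fst
  · obtain ⟨z, hz, hz'⟩ := hS
    have hy' : y ∉ P.image Prod.fst := fun hm => by
      obtain ⟨p, hp, rfl⟩ := Finset.mem_image.1 hm
      exact hy ((hP p).1 hp).2.1
    obtain ⟨w⟩ := (h3.2 _ (Finset.card_image_le.trans hc)).preconnected ⟨z, hz'⟩ ⟨y, hy'⟩
    obtain ⟨d, -, h1, h2⟩ := w.exists_boundary_dart {a | a.1 ∈ S} hz hy
    exact d.fst.2 (Finset.mem_image.2 ⟨(d.fst.1, d.snd.1), (hP _).2 ⟨d.adj, h1, h2⟩, rfl⟩)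
  · push Not at hS
    have hsub : G.neighborFinset x ⊆ P.image fun p => if p.1 = x then p.2 else p.1 := by
      intro v hv
      rw [SimpleGraph.mem_neighborFinset] at hv
      by_cases hvS : v ∈ S
      · obtain ⟨p, hp, rfl⟩ := Finset.mem_image.1 (hS v hvS)
        exact Finset.mem_image.2 ⟨p, hp, if_neg hv.ne'⟩
      · exact Finset.mem_image.2 ⟨(x, v), (hP _).2 ⟨hv, hx, hvS⟩, if_pos rfl⟩
    have := (Finset.card_le_card hsub).trans (Finset.card_image_le.trans hc)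
    rw [SimpleGraph.card_neighborFinset_eq_degree, hcubic] at this
    omega

theorem graph_setup {X : Type u} [Fintype X] (G : SimpleGraph X) [DecidableRel G.Adj]
    (hcubic : ∀ v, G.degree v = 3) (hbip : G.IsBipartite) (h3 : ThreeConnected G) :
    ∃ (bl wh : G.edgeSet → X) (col : X → Bool) (ed : X → Fin 3 → G.edgeSet),
      (∀ e, e.1 = s(bl e, wh e)) ∧ (∀ e, col (bl e) = true) ∧ (∀ e, col (wh e) = false) ∧
      (∀ x, Function.Injective (ed x)) ∧ (∀ x e, (bl e = x ∨ wh e = x) ↔ ∃ i, ed x i = e) ∧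
      ∀ (S : Set X) (e₁ e₂ : G.edgeSet), (∀ e, e ≠ e₁ → e ≠ e₂ → (bl e ∈ S ↔ wh e ∈ S)) →
        ∀ x y, x ∈ S → y ∈ S := by
  classical
  obtain ⟨c⟩ := hbip
  have hends : ∀ e : G.edgeSet, ∃ u v, e.1 = s(u, v) ∧ c u = 0 ∧ c v ≠ 0 := by
    rintro ⟨e, he⟩
    induction e using Sym2.ind with
    | h u v =>
      have h1 : c u ≠ c v := c.valid he
      by_cases hu : c u = 0
      · exact ⟨u, v, rfl, hu, fun hv => h1 (hu.trans hv.symm)⟩
      · refine ⟨v, u, Sym2.eq_swap, ?_, hu⟩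
        revert h1 hu
        generalize c u = a
        generalize c v = b
        revert a b
        decide
  choose bl wh he hb hw using hends
  have hcard : ∀ x, Fintype.card (G.incidenceSet x) = 3 := fun x => by
    rw [SimpleGraph.card_incidenceSet_eq_degree, hcubic]
  let q : ∀ x, Fin 3 ≃ G.incidenceSet x := fun x => (Fintype.equivFinOfCardEq (hcard x)).symm
  refine ⟨bl, wh, fun x => decide (c x = 0), fun x i => ⟨(q x i).1, (q x i).2.1⟩, he,
    fun e => decide_eq_true (hb e), fun e => decide_eq_false (hw e), fun x i j hij => ?_,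
    fun x e => ⟨fun h => ?_, ?_⟩, fun S e₁ e₂ h => ?_⟩
  · exact (q x).injective (Subtype.ext (congrArg (fun e : G.edgeSet => e.1) hij))
  · have hx : x ∈ e.1 := by
      rw [he, Sym2.mem_iff]
      exact h.imp Eq.symm Eq.symm
    exact ⟨(q x).symm ⟨e.1, e.2, hx⟩, Subtype.ext (by simp)⟩
  · rintro ⟨i, hi⟩
    have hx : x ∈ e.1 := hi ▸ (q x i).2.2
    rw [he, Sym2.mem_iff] at hx
    exact hx.imp Eq.symm Eq.symm
  · refine no_two_cut G hcubic h3 S e₁.1 e₂.1 fun u v huv hu hv => ?_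
    by_contra hc
    push Not at hc
    have h1 := h ⟨s(u, v), huv⟩ (fun h0 => hc.1 (congrArg Subtype.val h0))
      fun h0 => hc.2 (congrArg Subtype.val h0)
    rcases Sym2.eq_iff.1 (he ⟨s(u, v), huv⟩) with ⟨a, b⟩ | ⟨a, b⟩
    · rw [← a, ← b] at h1
      exact hv (h1.1 hu)
    · rw [← a, ← b] at h1
      exact hv (h1.2 hu)

end Vale.Agent.P039
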