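import Mathlib

namespace Vale.Agent.P039

universe u

private def cut {X : Type u} (G : SimpleGraph X) (Mt : Set G.edgeSet) : SimpleGraph X where
  Adj x y := ∃ e : G.edgeSet, e.1 = s(x, y) ∧ e ∉ Mt
  symm := ⟨fun _ _ ⟨e, h1, h2⟩ => ⟨e, h1.trans Sym2.eq_swap, h2⟩⟩
  loopless := ⟨fun _ ⟨e, h1, _⟩ => G.irrefl (G.mem_edgeSet.1 (h1 ▸ e.2))⟩

theorem graph_cycle {X : Type u} [Fintype X] [DecidableEq X] [Nonempty X] (G : SimpleGraph X)
    (bl wh : G.edgeSet → X) (hE : ∀ e, e.1 = s(bl e, wh e)) (ed : X → Fin 3 → G.edgeSet)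
    (ed_inj : ∀ x, Function.Injective (ed x))
    (ed_iff : ∀ x e, (bl e = x ∨ wh e = x) ↔ ∃ i, ed x i = e)
    (Mt : Set G.edgeSet) (h1 : ∀ x, ∃! i, ed x i ∈ Mt)
    (h2 : ∀ S : Set X, (∀ e, e ∉ Mt → (bl e ∈ S ↔ wh e ∈ S)) → ∀ x y, x ∈ S → y ∈ S) :
    ∃ (v : X) (p : G.Walk v v), p.IsHamiltonianCycle := by
  have hle : cut G Mt ≤ G := fun x y ⟨e, h, _⟩ => G.mem_edgeSet.1 (h ▸ e.2)
  have hn : ∀ x, ((cut G Mt).neighborSet x).ncard = 2 := by
    intro x
    obtain ⟨i, hi, hu⟩ := h1 x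
    have e1 : (fun y => s(x, y)) '' (cut G Mt).neighborSet x = (fun j => (ed x j).1) '' {i}ᶜ := by
      ext z
      constructor
      · rintro ⟨y, ⟨e, he, hm⟩, rfl⟩
        have : bl e = x ∨ wh e = x := by
          rcases Sym2.eq_iff.1 ((hE e).symm.trans he) with h | h
          exacts [Or.inl h.1, Or.inr h.2]
        obtain ⟨j, rfl⟩ := (ed_iff x e).1 this
        exact ⟨j, fun h => hm ((show j = i from h) ▸ hi), he⟩
      · rintro ⟨j, hj, rfl⟩
        have hm : ed x j ∉ Mt := fun h => hj (hu j h)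
        rcases (ed_iff x (ed x j)).2 ⟨j, rfl⟩ with h | h
        · have := hE (ed x j)
          rw [h] at this
          exact ⟨_, ⟨_, this, hm⟩, this.symm⟩
        · have := (hE (ed x j)).trans Sym2.eq_swap
          rw [h] at this
          exact ⟨_, ⟨_, this, hm⟩, this.symm⟩
    have e2 := congrArg Set.ncard e1
    rw [Set.ncard_image_of_injective _ fun y y' h => Sym2.congr_right.1 h,
      Set.ncard_image_of_injective (f := fun j => (ed x j).1) _
        (Subtype.val_injective.comp (ed_inj x))] at e2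
    have e3 := Set.ncard_add_ncard_compl ({i} : Set (Fin 3))
    rw [Set.ncard_singleton, Nat.card_fin] at e3
    omega
  obtain ⟨v⟩ := ‹Nonempty X›
  have hr : ∀ y, (cut G Mt).Reachable v y := fun y =>
    h2 {y | (cut G Mt).Reachable v y} (fun e he =>
      have ha : (cut G Mt).Adj (bl e) (wh e) := ⟨e, hE e, he⟩
      ⟨fun h => h.trans ha.reachable, fun h => h.trans ha.symm.reachable⟩) v y .rfl
  obtain ⟨p, hp, hs⟩ :=
    SimpleGraph.IsCycles.exists_cycle_toSubgraph_verts_eq_connectedComponentSupp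
      (G := cut G Mt) (c := (cut G Mt).connectedComponentMk v) (v := v) (fun x _ => hn x) rfl
      (Set.nonempty_of_ncard_ne_zero (by rw [hn]; norm_num))
  have hh : p.IsHamiltonianCycle := by
    refine ⟨hp, hp.isPath_tail.isHamiltonian_of_mem fun y => ?_⟩
    have hy : y ∈ p.support := by
      rw [← p.mem_verts_toSubgraph, hs]
      exact SimpleGraph.ConnectedComponent.sound (hr y).symm
    rw [p.support_tail_of_not_nil hp.not_nil]
    rw [← p.cons_tail_support] at hy
    rcases List.mem_cons.1 hy with rfl | h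
    · exact p.end_mem_tail_support hp.not_nil
    · exact h
  exact ⟨v, p.map (SimpleGraph.Hom.ofLE hle), hh.map Function.bijective_id⟩

end Vale.Agent.P039
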