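import Mathlib

namespace Vale.Agent.P039

universe u

open Finset

/-- A cubic bipartite plane map. `X` = vertices of the cubic graph = triangles of the dual
triangulation, `E` = edges, `V` = faces of the cubic graph = vertices of the triangulation.
Every edge has a black end `bl`, a white end `wh`, and its dual edge runs from `tl` to `hd`;
every triangle is a directed cycle. -/
structure PMap (E X V : Type u) [Fintype E] where
  bl : E → X
  wh : E → X
  tl : E → V
  hd : E → V
  col : X → Bool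
  ed : X → Fin 3 → E
  col_bl : ∀ e, col (bl e) = true
  col_wh : ∀ e, col (wh e) = false
  ed_inj : ∀ x, Function.Injective (ed x)
  ed_iff : ∀ x e, (bl e = x ∨ wh e = x) ↔ ∃ i, ed x i = e
  ed_rot : ∀ x i, hd (ed x i) = tl (ed x (i + 1))
  surj : ∀ v, ∃ e, hd e = v
  exact : ∀ α : E → ZMod 2, (∀ f : V → ZMod 2, ∑ e, α e * (f (hd e) + f (tl e)) = 0) →
    ∃ φ : X → ZMod 2, ∀ e, α e = φ (bl e) + φ (wh e)
  conn3 : ∀ (S : Set X) (e₁ e₂ : E), (∀ e, e ≠ e₁ → e ≠ e₂ → (bl e ∈ S ↔ wh e ∈ S)) →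
    ∀ x y, x ∈ S → y ∈ S

namespace PMap

variable {E X V : Type u} [Fintype E] (M : PMap E X V)

/-- The corner of triangle `x` opposite to its `i`-th edge. -/
def cor (x : X) (i : Fin 3) : V := M.hd (M.ed x (i + 1))

/-- `Mt` is a perfect matching whose complement is connected (a Hamiltonian cycle). -/
def Ham (Mt : Set E) : Prop :=
  (∀ x, ∃! i, M.ed x i ∈ Mt) ∧
    ∀ S : Set X, (∀ e, e ∉ Mt → (M.bl e ∈ S ↔ M.wh e ∈ S)) → ∀ x y, x ∈ S → y ∈ S

/-- No nontrivial 3-cut avoiding `b₀` with black ends inside. -/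
def NoBad (b₀ : X) : Prop :=
  ∀ (S : Set X) (e₁ e₂ e₃ : E), b₀ ∉ S → (∀ e, M.wh e ∈ S → M.bl e ∈ S) →
    (∀ e, e ≠ e₁ → e ≠ e₂ → e ≠ e₃ → M.bl e ∈ S → M.wh e ∈ S) → S.Subsingleton

/-- Inner black triangles. -/
abbrev Inner (b₀ : X) : Type u := {t : X // M.col t = true ∧ t ≠ b₀}

/-- Corners of inner black triangles. -/
def icor (b₀ : X) (t : M.Inner b₀) (i : Fin 3) : V := M.cor t.1 i

/-- The three roots. -/
def roots (b₀ : X) : Set V := Set.range (M.cor b₀)

theorem bl_ne_wh (e f : E) : M.bl e ≠ M.wh f := by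
  intro h
  have h1 := M.col_bl e
  rw [h, M.col_wh] at h1
  exact absurd h1 (by simp)

theorem bl_ed {x : X} (h : M.col x = true) (i : Fin 3) : M.bl (M.ed x i) = x := by
  rcases (M.ed_iff x (M.ed x i)).2 ⟨i, rfl⟩ with h1 | h1
  · exact h1
  · have := M.col_wh (M.ed x i)
    rw [h1, h] at this
    exact absurd this (by simp)

theorem wh_ed {x : X} (h : M.col x = false) (i : Fin 3) : M.wh (M.ed x i) = x := by
  rcases (M.ed_iff x (M.ed x i)).2 ⟨i, rfl⟩ with h1 | h1
  · have := M.col_bl (M.ed x i)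
    rw [h1, h] at this
    exact absurd this (by simp)
  · exact h1

theorem exists_ed_bl (e : E) : ∃ i, M.ed (M.bl e) i = e := (M.ed_iff _ _).1 (Or.inl rfl)

theorem exists_ed_wh (e : E) : ∃ i, M.ed (M.wh e) i = e := (M.ed_iff _ _).1 (Or.inr rfl)

theorem hd_ed (x : X) (i : Fin 3) : M.hd (M.ed x i) = M.cor x (i + 2) := by
  have : i + 2 + 1 = i := by revert i; decide
  simp [cor, this]

theorem tl_ed (x : X) (i : Fin 3) : M.tl (M.ed x i) = M.cor x (i + 1) := by
  have : i + 1 + 1 + 1 = i := by revert i; decide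
  rw [cor, M.ed_rot, this]

theorem conn (S : Set X) (h : ∀ e, M.bl e ∈ S ↔ M.wh e ∈ S) (x y : X) (hx : x ∈ S) : y ∈ S :=
  M.conn3 S (M.ed x 0) (M.ed x 0) (fun e _ _ => h e) x y hx

theorem sum_bl [Fintype X] {A : Type*} [AddCommMonoid A] (g : E → A) :
    ∑ e, g e = ∑ x with M.col x = true, ∑ i, g (M.ed x i) := by
  classical
  rw [← Finset.sum_product']
  symm
  refine Finset.sum_bij (fun p _ => M.ed p.1 p.2) (fun _ _ => mem_univ _) ?_ ?_ (fun _ _ => rfl)
  · intro p hp q hq h
    simp only [mem_product, mem_filter, mem_univ, true_and, and_true] at hp hq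
    have h1 : p.1 = q.1 := by rw [← M.bl_ed hp p.2, h, M.bl_ed hq]
    refine Prod.ext h1 (M.ed_inj q.1 ?_)
    rw [← h, h1]
  · intro e _
    obtain ⟨i, hi⟩ := M.exists_ed_bl e
    exact ⟨(M.bl e, i), by simp [M.col_bl], hi⟩

theorem sum_wh [Fintype X] {A : Type*} [AddCommMonoid A] (g : E → A) :
    ∑ e, g e = ∑ x with M.col x = false, ∑ i, g (M.ed x i) := by
  classical
  rw [← Finset.sum_product']
  symm
  refine Finset.sum_bij (fun p _ => M.ed p.1 p.2) (fun _ _ => mem_univ _) ?_ ?_ (fun _ _ => rfl)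
  · intro p hp q hq h
    simp only [mem_product, mem_filter, mem_univ, true_and, and_true] at hp hq
    have h1 : p.1 = q.1 := by rw [← M.wh_ed hp p.2, h, M.wh_ed hq]
    refine Prod.ext h1 (M.ed_inj q.1 ?_)
    rw [← h, h1]
  · intro e _
    obtain ⟨i, hi⟩ := M.exists_ed_wh e
    exact ⟨(M.wh e, i), by simp [M.col_wh], hi⟩

/-- Weighted form of `sum_bl`. -/
theorem sum_mul_bl [Fintype X] {A : Type*} [CommRing A] (φ : X → A) (y : E → A) :
    ∑ e, φ (M.bl e) * y e = ∑ x with M.col x = true, φ x * ∑ i, y (M.ed x i) := by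
  rw [M.sum_bl]
  refine Finset.sum_congr rfl fun x hx => ?_
  rw [Finset.mul_sum]
  exact Finset.sum_congr rfl fun i _ => by rw [M.bl_ed (mem_filter.1 hx).2]

/-- Weighted form of `sum_wh`. -/
theorem sum_mul_wh [Fintype X] {A : Type*} [CommRing A] (φ : X → A) (y : E → A) :
    ∑ e, φ (M.wh e) * y e = ∑ x with M.col x = false, φ x * ∑ i, y (M.ed x i) := by
  rw [M.sum_wh]
  refine Finset.sum_congr rfl fun x hx => ?_
  rw [Finset.mul_sum]
  exact Finset.sum_congr rfl fun i _ => by rw [M.wh_ed (mem_filter.1 hx).2]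

theorem tri_closed {A : Type*} [AddCommGroup A] (f : V → A) (x : X) :
    ∑ i, (f (M.hd (M.ed x i)) - f (M.tl (M.ed x i))) = 0 := by
  simp only [M.hd_ed, M.tl_ed, Fin.sum_univ_three]
  have h1 : (1 + 2 : Fin 3) = 0 := rfl
  have h2 : (2 + 2 : Fin 3) = 1 := rfl
  have h3 : (1 + 1 : Fin 3) = 2 := rfl
  have h4 : (2 + 1 : Fin 3) = 0 := rfl
  simp only [zero_add, h1, h2, h3, h4]
  abel

/-- The boundary of a boundary vanishes. -/
theorem bdry_closed [Fintype X] {A : Type*} [CommRing A] (φ : X → A) (f : V → A) :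
    ∑ e, (φ (M.bl e) - φ (M.wh e)) * (f (M.hd e) - f (M.tl e)) = 0 := by
  simp only [sub_mul (φ _), Finset.sum_sub_distrib]
  rw [M.sum_mul_bl φ (fun e => f (M.hd e) - f (M.tl e)),
    M.sum_mul_wh φ (fun e => f (M.hd e) - f (M.tl e))]
  simp [M.tri_closed]

theorem card_E [Fintype X] : Fintype.card E = 3 * (univ.filter fun x => M.col x = true).card := by
  have := M.sum_bl (fun _ => (1 : ℕ))
  simpa [mul_comm] using this

theorem card_wh [Fintype X] : (univ.filter fun x => M.col x = false).card =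
    (univ.filter fun x => M.col x = true).card := by
  have h1 := M.sum_bl (fun _ => (1 : ℕ))
  have h2 := M.sum_wh (fun _ => (1 : ℕ))
  simp only [sum_const, card_univ, smul_eq_mul, mul_one, Fintype.card_fin] at h1 h2
  omega

theorem card_X [Fintype X] : Fintype.card X = 2 * (univ.filter fun x => M.col x = true).card := by
  have h := Finset.card_filter_add_card_filter_not (s := (univ : Finset X))
    (fun x => M.col x = true)
  have h2 : (univ.filter fun x => ¬ M.col x = true) = univ.filter fun x => M.col x = false := by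
    ext x; simp
  rw [h2, M.card_wh, card_univ] at h
  omega

theorem hd_ne_tl (e : E) : M.hd e ≠ M.tl e := by
  classical
  intro h
  obtain ⟨φ, hφ⟩ := M.exact (fun f => if f = e then 1 else 0) (by
    intro f
    rw [Finset.sum_eq_single e (by intro b _ hb; simp [hb]) (by simp)]
    rw [h]
    simp [CharTwo.add_self_eq_zero])
  have h1 := M.conn3 {x | φ x = φ (M.bl e)} e e (by
    intro f hf _
    have := hφ f
    simp only [hf, if_false] at this
    have h2 : φ (M.bl f) = φ (M.wh f) := by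
      have h3 : ∀ a b : ZMod 2, 0 = a + b → a = b := by decide
      exact h3 _ _ this
    simp [h2]) (M.bl e) (M.wh e) rfl
  have h2 := hφ e
  simp only [if_true] at h2
  simp only [Set.mem_ofPred_eq] at h1
  rw [h1, CharTwo.add_self_eq_zero] at h2
  exact one_ne_zero h2

theorem cor_inj (x : X) : Function.Injective (M.cor x) := by
  have h : ∀ i, M.cor x (i + 2) ≠ M.cor x (i + 1) := by
    intro i
    rw [← M.hd_ed, ← M.tl_ed]
    exact M.hd_ne_tl _
  have h0 := h 0
  have h1 := h 1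
  have h2 := h 2
  have e1 : (1 + 2 : Fin 3) = 0 := rfl
  have e2 : (2 + 2 : Fin 3) = 1 := rfl
  have e3 : (1 + 1 : Fin 3) = 2 := rfl
  have e4 : (2 + 1 : Fin 3) = 0 := rfl
  simp only [zero_add, e1, e2, e3, e4] at h0 h1 h2
  intro i j hij
  fin_cases i <;> fin_cases j <;> simp_all

theorem exists_cor_bl (v : V) : ∃ x i, M.col x = true ∧ M.cor x i = v := by
  obtain ⟨e, he⟩ := M.surj v
  obtain ⟨i, hi⟩ := M.exists_ed_bl e
  exact ⟨M.bl e, i + 2, M.col_bl e, by rw [← M.hd_ed, hi, he]⟩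

end PMap

end Vale.Agent.P039
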