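import Mathlib

namespace Vale.Agent.P039

universe u

/-- A plane drawing of a graph: vertices at distinct points of the plane, each edge a simple
continuous arc between its endpoints, the interior of an arc avoids all vertices and the
interiors of all other arcs. -/
structure PlaneDrawing {V : Type u} (G : SimpleGraph V) where
  pos : V → ℝ × ℝ
  pos_injective : Function.Injective pos
  arc : G.edgeSet → unitInterval → ℝ × ℝ
  arc_continuous : ∀ e, Continuous (arc e)
  arc_injective : ∀ e, Function.Injective (arc e)
  arc_ends : ∀ e : G.edgeSet, ∃ u v, e.1 = s(u, v) ∧ arc e 0 = pos u ∧ arc e 1 = pos v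
  arc_avoids : ∀ e t w, t ≠ 0 → t ≠ 1 → arc e t ≠ pos w
  arc_disjoint : ∀ e f s t, e ≠ f → s ≠ 0 → s ≠ 1 → t ≠ 0 → t ≠ 1 → arc e s ≠ arc f t

/-- A graph is planar if it has a plane drawing. -/
def IsPlanar {V : Type u} (G : SimpleGraph V) : Prop := Nonempty (PlaneDrawing G)

/-- At least four vertices, and deleting any set of at most two vertices leaves a connected
graph. -/
def ThreeConnected {V : Type u} [Fintype V] (G : SimpleGraph V) : Prop :=
  4 ≤ Fintype.card V ∧ ∀ S : Finset V, S.card ≤ 2 → (G.induce {v | v ∉ S}).Connected

end Vale.Agent.P039
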