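import Vale.Agent.P039.Defs
import Vale.Agent.P039.Gem

namespace Vale.Agent.P039

open Finset

universe u

/-! ### linear algebra -/

def LinIneq : Prop :=
  ∀ (α ε β : Type u) [DecidableEq α] [DecidableEq β]
    (X : Finset α) (E : Finset ε) (Y : Finset β) (tl hd : ε → α) (lf rt : ε → β),
    (∀ x ∈ X, ∀ y ∈ Y, ∑ e ∈ E,
      ((if hd e = x then (1 : ℚ) else 0) - (if tl e = x then 1 else 0)) *
        ((if lf e = y then (1 : ℚ) else 0) - (if rt e = y then 1 else 0)) = 0) →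
    (∀ γ : α → ℚ, (∀ x, x ∉ X → γ x = 0) → (∀ e ∈ E, γ (hd e) = γ (tl e)) →
      ∀ x ∈ X, ∀ x' ∈ X, γ x = γ x') →
    (∀ z : β → ℚ, (∀ y, y ∉ Y → z y = 0) → (∀ e ∈ E, z (lf e) = z (rt e)) → ∀ y, z y = 0) →
    X.card + Y.card ≤ E.card + 1

def LinExact : Prop :=
  ∀ (K : Type) [Field K] (α ε β : Type u) [Fintype α] [Fintype β] [DecidableEq α] [DecidableEq β]
    (E : Finset ε) (tl hd : ε → α) (lf rt : ε → β),
    (∀ x y, ∑ e ∈ E,
      ((if hd e = x then (1 : K) else 0) - (if tl e = x then 1 else 0)) *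
        ((if lf e = y then (1 : K) else 0) - (if rt e = y then 1 else 0)) = 0) →
    (∀ γ : α → K, (∀ e ∈ E, γ (hd e) = γ (tl e)) → ∀ x x', γ x = γ x') →
    (∀ z : β → K, (∀ e ∈ E, z (lf e) = z (rt e)) → ∀ y y', z y = z y') →
    E.card + 2 ≤ Fintype.card α + Fintype.card β →
    ∀ c : ε → K,
      (∀ x, ∑ e ∈ E, ((if hd e = x then (1 : K) else 0) - (if tl e = x then 1 else 0)) * c e = 0) →
      ∃ z : β → K, ∀ e ∈ E, c e = z (lf e) - z (rt e)

/-! ### Euler type facts for gems -/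

def DiscIneq : Prop :=
  ∀ (F V : Type u) [Fintype F] [DecidableEq F] [Fintype V] [DecidableEq V] (g : Gem F V)
    (S : Finset F), S ≠ univ → g.CutConn S →
    2 * (g.verts S).card ≤ S.card + (g.cut S).card + 2

def EulerLe : Prop :=
  ∀ (F V : Type u) [Fintype F] [DecidableEq F] [Fintype V] [DecidableEq V] (g : Gem F V),
    2 * Fintype.card V ≤ Fintype.card F + 4

def LinkConn : Prop :=
  ∀ (F V : Type u) [Fintype F] [DecidableEq F] [Fintype V] [DecidableEq V] (g : Gem F V)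
    (k : Fin 3) (R : Finset F), (∀ f ∈ R, ∀ i, i ≠ k → g.m i f ∈ R) →
    ∀ f ∈ R, ∀ f', g.lab f' k = g.lab f k → f' ∈ R

def Disc : Prop :=
  ∀ (F V : Type u) [Fintype F] [DecidableEq F] [Fintype V] [DecidableEq V] (g : Gem F V)
    (S : Finset F), S.Nonempty → S ≠ univ → g.CutConn S →
    ∀ Z : Finset V, (g.cut S).card ≤ Z.card → Z ⊆ g.verts S → Z ⊆ g.verts Sᶜ →
    2 * (g.verts S).card = S.card + (g.cut S).card + 2 ∧ g.verts S ∩ g.verts Sᶜ = Z

/-! ### cycles -/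

def CycBound : Prop :=
  ∀ (F V : Type u) [Fintype F] [DecidableEq F] [Fintype V] [DecidableEq V] (g : Gem F V)
    (f0 : F) (p q : F → Fin 3) (C : Finset F), g.CycCond p q C →
    ∃ (S : Finset F) (s : ℤ), (s = 1 ∨ s = -1) ∧ f0 ∉ S ∧ g.Bounds p q C S s

def CycEuler : Prop :=
  ∀ (F V : Type u) [Fintype F] [DecidableEq F] [Fintype V] [DecidableEq V] (g : Gem F V)
    (f0 : F) (p q : F → Fin 3) (C S : Finset F) (s : ℤ), g.blk f0 = true → g.IsState f0 p →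
    f0 ∉ C → g.CycCond p q C → (s = 1 ∨ s = -1) → f0 ∉ S → g.Bounds p q C S s →
    (g.whites S).card = (g.blacks S).card + 1

def CycFacts : Prop :=
  ∀ (F V : Type u) [Fintype F] [DecidableEq F] [Fintype V] [DecidableEq V] (g : Gem F V)
    (f0 : F), g.blk f0 = true → ∃ ω : F → Fin 3 → ℝ,
    ∀ (p q : F → Fin 3) (C : Finset F), g.IsState f0 p → f0 ∉ C → g.CycCond p q C →
      ∃ s : ℤ, (s = 1 ∨ s = -1) ∧ ∑ t ∈ C, s * eps (p t) (q t) = -3 ∧
        (s : ℝ) * ∑ t ∈ C, (ω t (p t) - ω t (q t)) < 0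

def MonoMatch : Prop :=
  ∀ (F V : Type u) [Fintype F] [DecidableEq F] [Fintype V] [DecidableEq V] (g : Gem F V)
    (σ : V → Bool),
    (∀ t, g.blk t = true → ∃ k, σ (g.lab t (k + 1)) ≠ σ (g.lab t (k + 2))) →
    ∃ μ : F → Fin 3, (∀ f, μ (g.m (μ f) f) = μ f) ∧
      ∀ f i, (σ (g.lab f (i + 1)) = σ (g.lab f (i + 2)) ↔ i = μ f)

def NoMono : Prop :=
  ∀ (F V : Type u) [Fintype F] [DecidableEq F] [Fintype V] [DecidableEq V] (g : Gem F V)
    (f0 : F) (p μ : F → Fin 3), g.blk f0 = true → g.IsState f0 p →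
    (∀ f, μ (g.m (μ f) f) = μ f) → (∀ t, g.Inner f0 t → μ t ≠ p t) → g.Good μ

/-! ### abstract algebra of pairs -/

def SigmaL : Prop :=
  ∀ (T V : Type u) [Fintype T] [DecidableEq T] [Fintype V] [DecidableEq V]
    (lab : T → Fin 3 → V) (Rt : Finset V), Fintype.card T + Rt.card = Fintype.card V →
    ∀ p : T → Fin 3, cc lab Rt p ≠ 0 → ∀ σ0 : V → Bool,
    ∃ σ : V → Bool, (∀ v ∈ Rt, σ v = σ0 v) ∧ ∀ t, σ (lab t (p t + 1)) ≠ σ (lab t (p t + 2))

def FlipL : Prop :=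
  ∀ (T V : Type u) [Fintype T] [DecidableEq T] [Fintype V] [DecidableEq V]
    (lab : T → Fin 3 → V) (Rt : Finset V), Fintype.card T + Rt.card = Fintype.card V →
    ∀ (h : T → Fin 3 → Fin 3 → ℂ) (Φ : (T → Fin 3) → ℂ),
    (∃ p q, IsPair lab Rt p q) →
    (∀ p q, IsPair lab Rt p q → 0 < (Φ (p + q)).re) →
    (∀ p q C, IsPair lab Rt p q → ACyc lab p q C →
      ∃ r : ℝ, 0 < r ∧ ∏ t ∈ C, h t (p t) (q t) + ∏ t ∈ C, h t (q t) (p t) = (r : ℂ)) →
    ∑ x ∈ pairs lab Rt, Φ (x.1 + x.2) * ∏ t, h t (x.1 t) (x.2 t) ≠ 0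

def WeightL : Prop :=
  ∀ (T V : Type u) [Fintype T] [DecidableEq T] [Fintype V] [DecidableEq V]
    (lab : T → Fin 3 → V) (Rt : Finset V), Fintype.card T + Rt.card = Fintype.card V →
    ∀ ω : T → Fin 3 → ℝ, (∃ p q, IsPair lab Rt p q) →
    (∀ p q C, IsPair lab Rt p q → ACyc lab p q C →
      ∃ s : ℤ, (s = 1 ∨ s = -1) ∧ ∑ t ∈ C, s * eps (p t) (q t) = -3 ∧
        (s : ℝ) * ∑ t ∈ C, (ω t (p t) - ω t (q t)) < 0) →
    ∃ p, cc lab Rt p ≠ 0

def PairEx : Prop :=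
  ∀ (T V : Type u) [Fintype T] [DecidableEq T] [Fintype V] [DecidableEq V]
    (lab : T → Fin 3 → V) (Rt : Finset V), Fintype.card T + Rt.card = Fintype.card V →
    (∀ t, Function.Injective (lab t)) →
    (∀ X : Finset V, Disjoint X Rt →
      (univ.filter fun t : T => ∀ k, lab t k ∈ X).card + 2 * X.card ≤
        (univ.filter fun x : T × Fin 3 => lab x.1 x.2 ∈ X).card) →
    ∃ p q, IsPair lab Rt p q

/-! ### Hall condition -/

def HallConn : Prop :=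
  ∀ (F V : Type u) [Fintype F] [DecidableEq F] [Fintype V] [DecidableEq V] (g : Gem F V),
    g.Ess4 → ∀ f0 : F, g.blk f0 = true → ∀ X : Finset V, X.Nonempty → (∀ k, g.lab f0 k ∉ X) →
    (∀ R ⊆ g.touch X, R.Nonempty →
      (∀ f ∈ R, ∀ i k, i ≠ k → g.lab f k ∈ X → g.m i f ∈ R) → R = g.touch X) →
    (univ.filter fun t : F => g.blk t = true ∧ ∀ k, g.lab t k ∈ X).card + 2 * X.card ≤
      (univ.filter fun x : F × Fin 3 => g.blk x.1 = true ∧ g.lab x.1 x.2 ∈ X).card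

def HallIneq : Prop :=
  ∀ (F V : Type u) [Fintype F] [DecidableEq F] [Fintype V] [DecidableEq V] (g : Gem F V),
    g.Ess4 → ∀ f0 : F, g.blk f0 = true → ∀ X : Finset V, (∀ k, g.lab f0 k ∉ X) →
    (univ.filter fun t : F => g.blk t = true ∧ ∀ k, g.lab t k ∈ X).card + 2 * X.card ≤
      (univ.filter fun x : F × Fin 3 => g.blk x.1 = true ∧ g.lab x.1 x.2 ∈ X).card

/-! ### 3-cuts -/

def ThreeCut : Prop :=
  ∀ (F V : Type u) [Fintype F] [DecidableEq F] [Fintype V] [DecidableEq V] (g : Gem F V)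
    (S : Finset F), (g.cut S).card = 3 →
    ∃ a : Fin 3 → F, (∀ i, a i ∈ S ∧ g.m i (a i) ∉ S) ∧
      (∀ i f, f ∈ S → g.m i f ∉ S → f = a i) ∧ (∀ i j, g.blk (a i) = g.blk (a j)) ∧
      ∀ i j k, i ≠ k → j ≠ k → g.lab (a i) k = g.lab (a j) k

def Contract : Prop :=
  ∀ (F V : Type u) [Fintype F] [DecidableEq F] [Fintype V] [DecidableEq V] (g : Gem F V)
    (S : Finset F), (g.cut S).card = 3 →
    ∃ (F' V' : Type u) (_ : Fintype F') (_ : DecidableEq F') (_ : Fintype V') (_ : DecidableEq V')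
      (g' : Gem F' V') (ι : F → F') (z : F'), g.IsContr S g' ι z

def Glue : Prop :=
  ∀ (F V : Type u) [Fintype F] [DecidableEq F] [Fintype V] (g : Gem F V) (S : Finset F)
    (F1 V1 : Type u) [Fintype F1] [DecidableEq F1] [Fintype V1] (g1 : Gem F1 V1)
    (ι1 : F → F1) (z1 : F1)
    (F2 V2 : Type u) [Fintype F2] [DecidableEq F2] [Fintype V2] (g2 : Gem F2 V2)
    (ι2 : F → F2) (z2 : F2),
    g.IsContr S g1 ι1 z1 → g.IsContr Sᶜ g2 ι2 z2 →
    ∀ (μ1 : F1 → Fin 3) (μ2 : F2 → Fin 3), g1.Good μ1 → g2.Good μ2 → μ1 z1 = μ2 z2 →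
    g.Good fun f => if f ∈ S then μ1 (ι1 f) else μ2 (ι2 f)

def Core4 : Prop :=
  ∀ (F V : Type u) [Fintype F] [DecidableEq F] [Fintype V] [DecidableEq V] (g : Gem F V),
    g.Ess4 → ∀ f0 : F, g.blk f0 = true → ∀ i0 : Fin 3, ∃ μ, g.Good μ ∧ μ f0 = i0

def Core : Prop :=
  ∀ (F V : Type u) [Fintype F] [DecidableEq F] [Fintype V] [DecidableEq V] (g : Gem F V)
    (f0 : F) (i0 : Fin 3), ∃ μ, g.Good μ ∧ μ f0 = i0

/-! ### from graphs to gems and back -/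

def Front1 : Prop :=
  ∀ (V : Type u) [Fintype V] [DecidableEq V] (G : SimpleGraph V) [DecidableRel G.Adj]
    (ρ : Equiv.Perm G.Dart) (blk : V → Bool),
    G.IsRegularOfDegree 3 → G.Connected → (∀ v w, G.Adj v w → blk w = !blk v) →
    IsRotationSystem G ρ → Fintype.card V + 4 ≤ 2 * faceCount G ρ →
    ∃ κ : G.Dart → Fin 3, (∀ d, κ (ρ d.symm) = κ d) ∧
      ∀ d, blk d.fst = true → κ d.symm = κ d + 1

def Front2 : Prop :=
  ∀ (V : Type u) [Fintype V] [DecidableEq V] (G : SimpleGraph V) [DecidableRel G.Adj]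
    (ρ : Equiv.Perm G.Dart) (blk : V → Bool) (κ : G.Dart → Fin 3),
    G.IsRegularOfDegree 3 → (∀ v w, G.Adj v w → blk w = !blk v) →
    IsRotationSystem G ρ → Fintype.card V + 4 ≤ 2 * faceCount G ρ →
    (∀ d, κ (ρ d.symm) = κ d) → (∀ d, blk d.fst = true → κ d.symm = κ d + 1) →
    (∀ S : Finset V, S.Nonempty → S ≠ univ →
      3 ≤ (univ.filter fun d : G.Dart => d.fst ∈ S ∧ d.snd ∉ S).card) →
    ∃ (Φ : Type u) (_ : Fintype Φ) (_ : DecidableEq Φ) (g : Gem V Φ),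
      (∀ i f, G.Adj f (g.m i f)) ∧ ∀ f, Function.Injective fun i => g.m i f

def Front0 : Prop :=
  ∀ (V : Type u) [Fintype V] [DecidableEq V] (G : SimpleGraph V) [DecidableRel G.Adj],
    G.IsRegularOfDegree 3 → G.IsBipartite → IsPlanar G → ThreeConnected G →
    G.Connected ∧ (∃ blk : V → Bool, ∀ v w, G.Adj v w → blk w = !blk v) ∧
    (∃ ρ, IsRotationSystem G ρ ∧ Fintype.card V + 4 ≤ 2 * faceCount G ρ) ∧
    ∀ S : Finset V, S.Nonempty → S ≠ univ →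
      3 ≤ (univ.filter fun d : G.Dart => d.fst ∈ S ∧ d.snd ∉ S).card

def Back : Prop :=
  ∀ (V Φ : Type u) [Fintype V] [DecidableEq V] [Fintype Φ] (G : SimpleGraph V) (g : Gem V Φ)
    (μ : V → Fin 3), Nonempty V → (∀ i f, G.Adj f (g.m i f)) →
    (∀ f, Function.Injective fun i => g.m i f) → g.Good μ → G.IsHamiltonian

end Vale.Agent.P039
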